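import Crest.Agent.Nk.KT
/-! The base algebra and functional calculus constructions. -/
set_option autoImplicit false
set_option linter.deprecated false
set_option linter.unusedSimpArgs false
set_option linter.unusedVariables false
set_option linter.unusedSectionVars false
set_option linter.style.haveILetI false
namespace Crest.Agent.Nk
open scoped InnerProductSpace ComplexConjugate
open Filter Topology

/-- parity vector -/
noncomputable def kap (Λ : Type) : GG Λ →* (ℕ → ℤˣ) :=
  FreeGroup.lift (Sum.elim (fun n => Pi.mulSingle n (-1)) fun _ => 1)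

open Classical in
/-- the initial trace -/
noncomputable def m0 (Λ : Type) : GG Λ → ℂ := fun g => if kap Λ g = 1 then 1 else 0

theorem gtr_m0 (Λ : Type) : GTr (m0 Λ) := (gtr_delta _).comp (kap Λ)

theorem rho_eq_one {G : Type} [Group G] (S : Sys G) {g : G} (h : S.t.τ (S.ρ g) = 1) :
    S.ρ g = 1 := by
  have h1 := S.t.τ_star_self (S.ρ g - 1)
  have h2 : S.t.τ (S.ρ g⁻¹) = 1 := by rw [← S.st, S.t.τ_star, h, map_one]
  rw [star_sub, star_one, S.st, sub_mul, mul_sub, mul_sub, ← map_mul, inv_mul_cancel, map_one] at h1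
  simp only [mul_one, one_mul, map_sub, h, h2, S.t.τ_one, sub_self] at h1
  have h3 : S.t.n2 (S.ρ g - 1) ^ 2 = 0 := by exact_mod_cast h1.symm
  exact sub_eq_zero.1 (S.t.n2_eq_zero (pow_eq_zero_iff two_ne_zero |>.1 h3))

theorem half {Λ : Type} (S : Sys (GG Λ)) (hS : ∀ g ∈ KK ∅, S.t.τ (S.ρ g) = m0 Λ g)
    (I : S.C → Prop) (hI : ∀ x y, I x → I y → I (x + y)) (h1 : ¬ I 1) :
    ∃ r : ℕ → S.C, ∀ n, IsStarProjection (r n) ∧ r n ∈ AA S ∅ ∧
      S.t.n2 (r n) ^ 2 = (1 / 2) ^ n ∧ ¬ I (r n) := by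
  have hone : ∀ g ∈ KK ∅, kap Λ g = 1 → S.ρ g = 1 := fun g hg h =>
    rho_eq_one S (by rw [hS g hg, m0, if_pos h])
  let W : ℕ → Submodule ℂ S.C := fun n =>
    Submodule.span ℂ (S.ρ '' {g | g ∈ KK ∅ ∧ ∀ k, n ≤ k → kap Λ g k = 1})
  have key : ∀ n, ∃ r, IsStarProjection r ∧ r ∈ W n ∧ S.t.τ r = (1 / 2) ^ n ∧ ¬ I r := by
    intro n
    induction n with
    | zero => exact ⟨1, IsStarProjection.one _,
        Submodule.subset_span ⟨1, ⟨one_mem _, by simp⟩, map_one _⟩, by simp [S.t.τ_one], h1⟩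
    | succ n ih =>
      obtain ⟨r, hr, hW, hτ, hI'⟩ := ih
      set a : GG Λ := FreeGroup.of (Sum.inl n) with ha
      have haK : a ∈ KK ∅ := of_mem_KK (ok_inl _ _)
      have hka : kap Λ a = Pi.mulSingle n (-1) := by simp [kap, ha]
      have hss : S.ρ a * S.ρ a = 1 := by
        rw [← map_mul]
        exact hone _ (mul_mem haK haK) (by ext k; simp)
      have hst : star (S.ρ a) = S.ρ a := by
        rw [S.st, ← mul_one (S.ρ a⁻¹), ← hss, ← mul_assoc, ← map_mul]; simp
      have hind : r * S.ρ a = S.ρ a * r ∧ S.t.τ (r * S.ρ a) = 0 ∧ r * S.ρ a ∈ W (n + 1) := by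
        clear hr hτ hI'
        induction hW using Submodule.span_induction with
        | mem x hx =>
          obtain ⟨g, ⟨hg, hk⟩, rfl⟩ := hx
          refine ⟨?_, ?_, Submodule.subset_span ⟨g * a, ⟨mul_mem hg haK, fun k hk' => ?_⟩,
            map_mul _ _ _⟩⟩
          · have := hone (g * a * (a * g)⁻¹) (mul_mem (mul_mem hg haK) (inv_mem (mul_mem haK hg)))
              (by simp only [map_mul, map_inv, mul_comm (kap Λ g), mul_inv_cancel])
            rw [← map_mul, ← map_mul, ← one_mul (S.ρ (a * g)), ← this, ← map_mul,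
              inv_mul_cancel_right]
          · rw [← map_mul, hS _ (mul_mem hg haK), m0, if_neg]
            intro h
            have := congrFun h n
            simp [hka, hk n le_rfl] at this
          · rw [map_mul, Pi.mul_apply, hk k (by omega), hka, Pi.mulSingle_eq_of_ne (by omega), mul_one]
        | zero => simp
        | add x y _ _ hx hy =>
          rw [add_mul, mul_add, map_add, hx.2.1, hy.2.1, hx.1, hy.1]
          exact ⟨rfl, add_zero _, by rw [← hx.1, ← hy.1]; exact add_mem hx.2.2 hy.2.2⟩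
        | smul c x _ hx =>
          rw [smul_mul_assoc, mul_smul_comm, map_smul, hx.2.1, ← hx.1]
          exact ⟨rfl, smul_zero _, Submodule.smul_mem _ _ hx.2.2⟩
      obtain ⟨c1, c2, c3⟩ := hind
      set e := r * S.ρ a with he
      have hrr := hr.isIdempotentElem.eq
      have e1 : r * e = e := by rw [he, ← mul_assoc, hrr]
      have e2 : e * r = e := by rw [c1, mul_assoc, hrr]
      have e3 : e * e = r := by
        conv_lhs => rhs; rw [c1]
        rw [he, mul_assoc, ← mul_assoc (S.ρ a), hss, one_mul, hrr]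
      have e4 : star e = e := by rw [he, star_mul, hst, hr.isSelfAdjoint.star_eq, ← c1]
      have hWr : r ∈ W (n + 1) := Submodule.span_mono (Set.image_mono fun g hg =>
        And.intro hg.1 fun k hk => hg.2 k (by omega)) hW
      have hp : ∀ c : ℝ, c * c = 1 → IsStarProjection ((1 / 2 : ℂ) • (r + (c : ℂ) • e)) ∧
          (1 / 2 : ℂ) • (r + (c : ℂ) • e) ∈ W (n + 1) ∧
          S.t.τ ((1 / 2 : ℂ) • (r + (c : ℂ) • e)) = (1 / 2) ^ (n + 1) := by
        intro c hc
        have hc' : (c : ℂ) * c = 1 := by exact_mod_cast hc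
        refine ⟨⟨?_, ?_⟩, Submodule.smul_mem _ _ (add_mem hWr (Submodule.smul_mem _ _ c3)), ?_⟩
        · simp only [IsIdempotentElem, smul_mul_assoc, mul_smul_comm, add_mul, mul_add, hrr, e1, e2,
            e3, smul_add, smul_smul]
          rw [show 1 / 2 * (c : ℂ) * (1 / 2 * c) = 1 / 4 by linear_combination (1 / 4) * hc']
          module
        · simp [IsSelfAdjoint, star_smul, e4, hr.isSelfAdjoint.star_eq]
        · simp only [map_smul, map_add, hτ, c2, smul_eq_mul]; ring
      by_cases h : I ((1 / 2 : ℂ) • (r + ((1 : ℝ) : ℂ) • e))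
      · refine ⟨_, (hp (-1) (by norm_num)).1, (hp (-1) (by norm_num)).2.1,
          (hp (-1) (by norm_num)).2.2, fun h' => hI' ?_⟩
        convert hI _ _ h h' using 1
        push_cast; module
      · exact ⟨_, (hp 1 (by norm_num)).1, (hp 1 (by norm_num)).2.1, (hp 1 (by norm_num)).2.2, h⟩
  choose r h1 h2 h3 h4 using key
  refine ⟨r, fun n => ⟨h1 n, ?_, ?_, h4 n⟩⟩
  · refine (Submodule.span_le (p := (AA S ∅).toSubalgebra.toSubmodule)).2 ?_ (h2 n)
    rintro _ ⟨g, hg, rfl⟩
    exact mem_galg _ hg.1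
  · have := h3 n
    rw [S.t.τ_proj (h1 n)] at this
    exact Complex.ofReal_injective (by rw [this]; simp)

theorem small_of_sq {C : Type} [CStarAlgebra C] (t : TS C) {r : ℕ → C}
    (h : ∀ n, t.n2 (r n) ^ 2 = (1 / 2) ^ n) : t.Small r := by
  have := (tendsto_pow_atTop_nhds_zero_of_lt_one (r := (1 / 2 : ℝ)) (by norm_num) (by norm_num)).sqrt
  rw [Real.sqrt_zero] at this
  exact this.congr fun n => by rw [← h, Real.sqrt_sq (t.n2_nonneg _)]

section
variable {D : Type} [CStarAlgebra D]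

theorem exists_range_proj {e : D} (he : e * e = e) :
    ∃ P, IsStarProjection P ∧ e * P = P ∧ P * e = e := by
  obtain ⟨b, b1, b2, -, b4⟩ := exists_resolvent (e - star e)
  have hs : star e * star e = star e := by rw [← star_mul, he]
  set z := 1 + star (e - star e) * (e - star e) with hz
  have hz' : z = 1 - e - star e + e * star e + star e * e := by
    rw [hz, star_sub, star_star, sub_mul, mul_sub, mul_sub, he, hs]; abel
  have z1 : e * z = e * star e * e := by
    rw [hz']; simp only [mul_add, mul_sub, ← mul_assoc, he, mul_one]; abel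
  have z2 : z * e = e * star e * e := by
    rw [hz']; simp only [add_mul, sub_mul, mul_assoc, he, one_mul]; abel
  have c1 : b * e = e * b := by
    calc b * e = b * (e * z) * b := by rw [mul_assoc, mul_assoc, b1, mul_one]
      _ = e * b := by rw [z1, ← z2, ← mul_assoc, b2, one_mul]
  have c2 : b * star e = star e * b := by simpa [b4] using (congrArg star c1).symm
  have p1 : e * star e * b * e = e := by rw [mul_assoc, c1, ← mul_assoc, ← z1, mul_assoc, b1, mul_one]
  refine ⟨e * star e * b, ⟨?_, ?_⟩, by rw [← mul_assoc, ← mul_assoc, he], p1⟩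
  · rw [IsIdempotentElem, ← mul_assoc, ← mul_assoc, p1]
  · rw [IsSelfAdjoint, star_mul, star_mul, star_star, b4, ← mul_assoc, c1, mul_assoc, c2, mul_assoc]

theorem exists_sim {q : D} (hq : q * q = q) (W : Dˣ) :
    ∃ P, IsStarProjection P ∧ P * (W * q) = W * q ∧ W * q * (↑W⁻¹ * P) = P ∧
      ∀ τ : D → ℂ, (∀ x y, τ (x * y) = τ (y * x)) → τ P = τ q := by
  obtain ⟨P, h1, h2, h3⟩ := exists_range_proj (e := W * q * ↑W⁻¹) (by
    simp only [mul_assoc, Units.inv_mul_cancel_left]; rw [← mul_assoc q, hq])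
  refine ⟨P, h1, ?_, by rw [← mul_assoc, h2], fun τ hτ => ?_⟩
  · simpa [mul_assoc] using congrArg (· * (W : D)) h3
  · rw [← h2, hτ, h3, hτ, Units.inv_mul_cancel_left]

theorem exists_sandwich {q km gm kp gp : D} (hq : IsStarProjection q) (h1 : gm * km = gm)
    (h2 : kp * gp = gp) (h3 : km * kp = 0) (h4 : ‖(1 - q) * kp‖ < 1) (h5 : ‖km * q‖ < 1)
    (h6 : ‖1 - kp‖ ≤ 1) :
    ∃ P, IsStarProjection P ∧ gm * P = 0 ∧ P * gp = gp ∧
      ∀ τ : D → ℂ, (∀ x y, τ (x * y) = τ (y * x)) → τ P = τ q := by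
  have hqq := hq.isIdempotentElem.eq
  obtain ⟨P, a1, a2, a3, a4⟩ := exists_sim hqq (Units.oneSub _ h4)⁻¹
  set V := Units.oneSub _ h4 with hV
  have hV' : (V : D) = 1 - (1 - q) * kp := rfl
  have b1 : ↑V⁻¹ * q * gp = gp := by
    rw [mul_assoc, Units.inv_mul_eq_iff_eq_mul, hV', sub_mul, mul_assoc, h2]; noncomm_ring
  have b2 : P * gp = gp := by rw [← b1, ← mul_assoc, a2]
  have b3 : km * P = km * q * ((1 - kp) * P) := by
    rw [inv_inv, mul_assoc, Units.inv_mul_eq_iff_eq_mul, hV'] at a3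
    have : q * ((1 - (1 - q) * kp) * P) = q * P := by
      rw [← mul_assoc, mul_sub, ← mul_assoc, mul_sub, hqq]; simp
    rw [this] at a3
    have h7 : km * (q * P) = km * ((1 - (1 - q) * kp) * P) := by rw [a3]
    have e : km * ((1 - (1 - q) * kp) * P) = km * P - km * kp * P + km * q * kp * P := by
      noncomm_ring
    rw [e, h3, zero_mul, sub_zero] at h7
    rw [← sub_eq_iff_eq_add.2 h7]; noncomm_ring
  have b4 : ‖km * P‖ < 1 := by
    rw [b3]
    exact (norm_right_le ((norm_right_le a1.norm_le _).trans h6) _).trans_lt h5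
  obtain ⟨Q, c1, c2, c3, c4⟩ := exists_sim a1.isIdempotentElem.eq (Units.oneSub _ b4)
  have d1 : (Units.oneSub _ b4 : D) * P = (1 - km) * P := by
    rw [Units.val_oneSub, sub_mul, sub_mul, mul_assoc, a1.isIdempotentElem.eq]
  rw [d1] at c2 c3
  have d2 : (1 - km) * P * gp = gp := by
    rw [mul_assoc, b2, sub_mul, ← h2, ← mul_assoc km, h3]; simp
  refine ⟨Q, c1, ?_, by rw [← d2, ← mul_assoc, c2], fun τ hτ => (c4 τ hτ).trans (a4 τ hτ)⟩
  rw [← c3, ← mul_assoc gm, ← mul_assoc gm, mul_sub, h1]; simp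

theorem exists_fun (B : StarSubalgebra ℂ D) [hB : IsClosed (B : Set D)] {E : Type}
    [NormedAddCommGroup E] [NormedSpace ℂ E] (f : D →L[ℂ] E) (hf : ∀ x y, f y = 0 → f (x * y) = 0)
    (l : ℕ → D) (hl : ∀ n, l n ∈ B) (hl0 : ∀ n, f (l n) = 0) :
    ∃ F : ℕ → D, (∀ m, F m ∈ B ∧ star (F m) = F m ∧ ‖F m‖ ≤ 1 ∧ ‖1 - F m‖ ≤ 1 ∧
      F m * F (m + 1) = F (m + 1) ∧ f (1 - F m) = 0) ∧
      ∀ n, Tendsto (fun m => l n * F m) atTop (𝓝 0) := by
  letI := CStarAlgebra.spectralOrder D
  haveI := CStarAlgebra.spectralOrderedRing D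
  let c : ℕ → ℝ := fun n => (1 / 2) ^ n / (‖l n‖ ^ 2 + 1)
  have hc : ∀ n, 0 < c n := fun n => by positivity
  let a : ℕ → D := fun n => c n • (star (l n) * l n)
  have ha0 : ∀ n, 0 ≤ a n := fun n => smul_nonneg (hc n).le (star_mul_self_nonneg _)
  have hsum : Summable a := by
    refine Summable.of_norm_bounded summable_geometric_two fun n => ?_
    rw [norm_smul, ← norm_sq_eq, Real.norm_of_nonneg (hc n).le, div_mul_eq_mul_div,
      div_le_iff₀ (by positivity)]
    gcongr; linarith
  set h := ∑' n, a n with hh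
  have hle : ∀ n, a n ≤ h := fun n => hsum.le_tsum n fun k _ => ha0 k
  have h0 : 0 ≤ h := tsum_nonneg ha0
  have hsa : IsSelfAdjoint h := h0.isSelfAdjoint
  have hhB : h ∈ B := hB.mem_of_tendsto hsum.hasSum.tendsto_sum_nat (Eventually.of_forall fun N =>
    sum_mem fun n _ => by
      simp only [a, ← Complex.coe_smul]
      exact SMulMemClass.smul_mem _ (mul_mem (star_mem (hl n)) (hl n)))
  have hfh : f h = 0 := by
    rw [hh, f.map_tsum hsum]
    simp only [a, ← Complex.coe_smul, map_smul, hf _ _ (hl0 _), smul_zero, tsum_zero]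
  let φ : ℕ → ℝ → ℝ := fun m s => max 0 (min 1 (2 - 2 * (2 ^ m * s)))
  have φc : ∀ m, Continuous (φ m) := fun m => by fun_prop
  have φ0 : ∀ m s, 0 ≤ φ m s := fun m s => le_max_left _ _
  have φ1 : ∀ m s, φ m s ≤ 1 := fun m s => max_le zero_le_one (min_le_left _ _)
  have φa : ∀ m s, 2 * (2 ^ m * s) ≤ 1 → φ m s = 1 := fun m s h => by
    simp only [φ]; rw [min_eq_left (by linarith), max_eq_right zero_le_one]
  have φb : ∀ m s, 1 ≤ 2 ^ m * s → φ m s = 0 := fun m s h =>
    max_eq_left ((min_le_right _ _).trans (by linarith))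
  have e1 : ∀ m, 1 - cfc (φ m) h = cfc (fun s => 1 - φ m s) h := fun m => by
    rw [cfc_sub _ _ _ (by fun_prop) (φc m).continuousOn, cfc_const_one ℝ h hsa]
  refine ⟨fun m => cfc (φ m) h, fun m => ⟨cfc_mem (𝕜' := ℂ) _ hhB,
    IsSelfAdjoint.star_eq (cfc_predicate _ _), norm_cfc_le zero_le_one fun s _ => ?_, ?_, ?_, ?_⟩,
    fun n => ?_⟩
  · rw [Real.norm_of_nonneg (φ0 m s)]; exact φ1 m s
  · rw [e1]
    refine norm_cfc_le zero_le_one fun s _ => ?_
    rw [Real.norm_of_nonneg (sub_nonneg.2 (φ1 m s))]; linarith [φ0 m s]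
  · rw [← cfc_mul _ _ _ (φc _).continuousOn (φc _).continuousOn]
    refine cfc_congr fun s _ => ?_
    rcases le_total (2 * (2 ^ m * s)) 1 with h | h
    · simp only [φa m s h, one_mul]
    · simp only [φb (m + 1) s (by rw [pow_succ]; linarith), mul_zero]
  · have hg : Continuous fun s => (1 - φ m s) * (2 * 2 ^ m / max (2 * (2 ^ m * s)) 1) :=
      (continuous_const.sub (φc m)).mul (Continuous.div (by fun_prop) (by fun_prop)
        fun s => (lt_of_lt_of_le one_pos (le_max_right _ _)).ne')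
    have : cfc (fun s => 1 - φ m s) h =
        cfc (fun s => (1 - φ m s) * (2 * 2 ^ m / max (2 * (2 ^ m * s)) 1)) h * h := by
      conv_rhs => rhs; rw [← cfc_id' ℝ h hsa]
      rw [← cfc_mul _ _ _ hg.continuousOn (by fun_prop)]
      refine cfc_congr fun s _ => ?_
      rcases le_total (2 * (2 ^ m * s)) 1 with h | h
      · simp only [φa m s h, sub_self, zero_mul]
      · have : s ≠ 0 := by rintro rfl; norm_num at h
        simp only [max_eq_left h]; field_simp
    rw [e1, this]; exact hf _ _ hfh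
  · have hb : ∀ m, ‖l n * cfc (φ m) h‖ ^ 2 ≤ (c n)⁻¹ * (1 / 2) ^ m := by
      intro m
      have hs : star (cfc (φ m) h) = cfc (φ m) h := IsSelfAdjoint.star_eq (cfc_predicate _ _)
      have h1 := CStarAlgebra.norm_le_norm_of_nonneg_of_le
        (star_left_conjugate_nonneg (ha0 n) (cfc (φ m) h))
        (star_left_conjugate_le_conjugate (hle n) (cfc (φ m) h))
      have h2 : ‖star (cfc (φ m) h) * h * cfc (φ m) h‖ ≤ (1 / 2) ^ m := by
        rw [hs]
        conv_lhs => enter [1, 1, 2]; rw [← cfc_id' ℝ h hsa]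
        rw [← cfc_mul _ _ _ (φc _).continuousOn (by fun_prop),
          ← cfc_mul (fun x => φ m x * x) _ _ ((φc _).mul continuous_id').continuousOn
            (φc _).continuousOn]
        refine norm_cfc_le (by positivity) fun s hs => ?_
        have s0 : 0 ≤ s := spectrum_nonneg_of_nonneg h0 hs
        rcases le_total 1 (2 ^ m * s) with h | h
        · simp [φb m s h]
        · have s1 : s ≤ (1 / 2) ^ m := by
            rw [one_div, inv_pow, ← one_div, le_div_iff₀ (by positivity)]; linarith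
          rw [Real.norm_of_nonneg (mul_nonneg (mul_nonneg (φ0 m s) s0) (φ0 m s))]
          calc φ m s * s * φ m s ≤ 1 * s * 1 := by gcongr <;> exact φ1 m s
            _ ≤ _ := by linarith
      simp only [a, mul_smul_comm, smul_mul_assoc, norm_smul, Real.norm_of_nonneg (hc n).le] at h1
      rw [norm_sq_eq, star_mul, mul_assoc, ← mul_assoc (star (l n)), ← mul_assoc, le_inv_mul_iff₀ (hc n)]
      exact h1.trans h2
    have h1 := ((tendsto_pow_atTop_nhds_zero_of_lt_one (r := (1 / 2 : ℝ)) (by norm_num)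
      (by norm_num)).const_mul (c n)⁻¹).sqrt
    rw [mul_zero, Real.sqrt_zero] at h1
    exact squeeze_zero_norm (fun m => Real.le_sqrt_of_sq_le (hb m)) h1

end
end Crest.Agent.Nk
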