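import Mathlib
/-! Tracial systems: a C⋆-algebra with a faithful tracial vector state in a cyclic representation. -/
set_option autoImplicit false
set_option linter.deprecated false
set_option linter.unusedSimpArgs false
namespace Crest.Agent.Nk
open scoped InnerProductSpace ComplexConjugate
open Filter Topology

/-- a faithful tracial vector state with cyclic vector -/
structure TS (C : Type) [CStarAlgebra C] where
  Y : Type
  [i1 : NormedAddCommGroup Y]
  [i2 : InnerProductSpace ℂ Y]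
  [i3 : CompleteSpace Y]
  lam : C →⋆ₐ[ℂ] (Y →L[ℂ] Y)
  om : Y
  norm_om : ‖om‖ = 1
  tr : ∀ x y, ⟪om, lam (x * y) om⟫_ℂ = ⟪om, lam (y * x) om⟫_ℂ
  faith : ∀ x, lam x om = 0 → x = 0
  cyc : Dense (Set.range fun x => lam x om)

attribute [instance] TS.i1 TS.i2 TS.i3

theorem hom_norm_le {C D : Type} [CStarAlgebra C] [CStarAlgebra D] (f : C →⋆ₐ[ℂ] D) (x : C) :
    ‖f x‖ ≤ ‖x‖ := NonUnitalStarAlgHom.norm_apply_le f x

theorem hom_cont {C D : Type} [CStarAlgebra C] [CStarAlgebra D] (f : C →⋆ₐ[ℂ] D) :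
    Continuous f :=
  AddMonoidHomClass.continuous_of_bound f 1 (fun x => by simpa using hom_norm_le f x)

namespace TS
variable {C : Type} [CStarAlgebra C] (t : TS C)

/-- the trace -/
noncomputable def τ : C →L[ℂ] ℂ :=
  LinearMap.mkContinuous
    { toFun := fun x => ⟪t.om, t.lam x t.om⟫_ℂ
      map_add' := fun x y => by simp [inner_add_right]
      map_smul' := fun c x => by simp [inner_smul_right] } 1 (fun x => by
    have h1 := norm_inner_le_norm (𝕜 := ℂ) t.om (t.lam x t.om)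
    have h2 := (t.lam x).le_opNorm t.om
    have h3 := hom_norm_le t.lam x
    rw [t.norm_om] at h1 h2
    simp only [LinearMap.coe_mk, AddHom.coe_mk]
    linarith)

theorem τ_def (x : C) : t.τ x = ⟪t.om, t.lam x t.om⟫_ℂ := rfl

/-- the 2-norm -/
noncomputable def n2 (x : C) : ℝ := ‖t.lam x t.om‖

theorem n2_nonneg (x : C) : 0 ≤ t.n2 x := norm_nonneg _

theorem τ_comm (x y : C) : t.τ (x * y) = t.τ (y * x) := t.tr x y

theorem τ_one : t.τ 1 = 1 := by
  simp [τ_def, t.norm_om]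

theorem τ_star_mul (x y : C) : t.τ (star x * y) = ⟪t.lam x t.om, t.lam y t.om⟫_ℂ := by
  rw [τ_def, map_mul, map_star, ContinuousLinearMap.mul_apply,
    ContinuousLinearMap.star_eq_adjoint, ContinuousLinearMap.adjoint_inner_right]

theorem τ_star_self (x : C) : t.τ (star x * x) = ((t.n2 x ^ 2 : ℝ) : ℂ) := by
  rw [τ_star_mul, inner_self_eq_norm_sq_to_K]; simp [n2]

theorem τ_star (x : C) : t.τ (star x) = conj (t.τ x) := by
  have := t.τ_star_mul x 1
  rw [mul_one] at this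
  rw [this, τ_def, map_one, ContinuousLinearMap.one_apply, inner_conj_symm]

theorem n2_star (x : C) : t.n2 (star x) = t.n2 x := by
  have h1 := t.τ_star_self (star x)
  rw [star_star, t.τ_comm, t.τ_star_self] at h1
  have h2 : t.n2 x ^ 2 = t.n2 (star x) ^ 2 := by exact_mod_cast h1
  exact (pow_left_inj₀ (t.n2_nonneg _) (t.n2_nonneg _) (by norm_num : (2:ℕ) ≠ 0)).1 h2.symm

theorem n2_mul_left (x y : C) : t.n2 (x * y) ≤ ‖x‖ * t.n2 y := by
  unfold n2
  rw [map_mul, ContinuousLinearMap.mul_apply]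
  exact ((t.lam x).le_opNorm _).trans
    (mul_le_mul_of_nonneg_right (hom_norm_le t.lam x) (norm_nonneg _))

theorem n2_mul_right (x y : C) : t.n2 (x * y) ≤ t.n2 x * ‖y‖ := by
  rw [← t.n2_star, star_mul]
  refine (t.n2_mul_left _ _).trans ?_
  rw [norm_star, t.n2_star, mul_comm]

theorem n2_one : t.n2 1 = 1 := by simp [n2, t.norm_om]

theorem n2_le (x : C) : t.n2 x ≤ ‖x‖ := by
  simpa [t.n2_one] using t.n2_mul_left x 1

theorem n2_add (x y : C) : t.n2 (x + y) ≤ t.n2 x + t.n2 y := by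
  unfold n2; rw [map_add, ContinuousLinearMap.add_apply]; exact norm_add_le _ _

theorem n2_smul (c : ℂ) (x : C) : t.n2 (c • x) = ‖c‖ * t.n2 x := by
  unfold n2; rw [map_smul, ContinuousLinearMap.smul_apply, norm_smul]

theorem n2_eq_zero {x : C} (h : t.n2 x = 0) : x = 0 := t.faith x (norm_eq_zero.1 h)

theorem n2_zero : t.n2 0 = 0 := by simp [n2]

theorem n2_pos {x : C} (h : x ≠ 0) : 0 < t.n2 x :=
  lt_of_le_of_ne (t.n2_nonneg x) (fun h' => h (t.n2_eq_zero h'.symm))

theorem τ_cs (x y : C) : ‖t.τ (star x * y)‖ ≤ t.n2 x * t.n2 y := by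
  rw [τ_star_mul]; exact norm_inner_le_norm _ _

theorem τ_le_n2 (x : C) : ‖t.τ x‖ ≤ t.n2 x := by
  simpa [t.n2_one] using t.τ_cs 1 x

theorem τ_le (x : C) : ‖t.τ x‖ ≤ ‖x‖ := (t.τ_le_n2 x).trans (t.n2_le x)

/-- `|τ(p x p)| ≤ ‖x‖ ‖p‖₂²` for self-adjoint `p` -/
theorem τ_conj_le (x p : C) : ‖t.τ (star p * x * p)‖ ≤ ‖x‖ * t.n2 p ^ 2 := by
  rw [mul_assoc]
  refine (t.τ_cs _ _).trans ?_
  have := t.n2_mul_left x p
  have h2 := t.n2_nonneg p
  nlinarith

theorem τ_proj {p : C} (hp : IsStarProjection p) : t.τ p = ((t.n2 p ^ 2 : ℝ) : ℂ) := by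
  rw [← t.τ_star_self, hp.isSelfAdjoint.star_eq, hp.isIdempotentElem.eq]

theorem τ_mul_proj {p : C} (hp : IsStarProjection p) (x : C) :
    t.τ (x * p) = t.τ (star p * x * p) := by
  rw [hp.isSelfAdjoint.star_eq, mul_assoc, t.τ_comm p, mul_assoc, hp.isIdempotentElem.eq]

theorem τ_mul_proj_le {p : C} (hp : IsStarProjection p) (x : C) :
    ‖t.τ (x * p)‖ ≤ ‖x‖ * t.n2 p ^ 2 := by
  rw [t.τ_mul_proj hp]; exact t.τ_conj_le x p

include t in
theorem nontrivial : Nontrivial C := by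
  refine ⟨⟨1, 0, fun h => ?_⟩⟩
  have := t.n2_one
  rw [h, t.n2_zero] at this
  exact zero_ne_one this

/-- norm from moments -/
theorem norm_le_of_moments {a : C} (ha : IsSelfAdjoint a) {M : ℝ} (hM : 0 ≤ M)
    (h0 : ∀ s ∈ spectrum ℝ a, 0 ≤ s)
    (h : ∀ n : ℕ, t.n2 (a ^ n) ≤ M ^ n) : ‖a‖ ≤ M := by
  refine le_of_forall_gt_imp_ge_of_dense fun M' hM' => ?_
  have hM0 : 0 < M' := lt_of_le_of_lt hM hM'
  set g : C := cfc (fun s : ℝ => max (s - M') 0) a with hg
  set k : C := cfc (fun s : ℝ => (max s M')⁻¹) a with hk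
  have hkc : Continuous (fun s : ℝ => (max s M')⁻¹) :=
    Continuous.inv₀ (by fun_prop) (fun s => (lt_of_lt_of_le hM0 (le_max_right _ _)).ne')
  have hkn : ‖k‖ ≤ M'⁻¹ := by
    refine norm_cfc_le (by positivity) fun s _ => ?_
    rw [Real.norm_eq_abs, abs_of_pos (inv_pos.2 (lt_of_lt_of_le hM0 (le_max_right _ _)))]
    exact inv_anti₀ hM0 (le_max_right _ _)
  have hkg : k * a * g = g := by
    have e1 : k * a = cfc (fun s : ℝ => (max s M')⁻¹ * s) a := by
      rw [cfc_mul _ _ a hkc.continuousOn (by fun_prop), cfc_id' ℝ a]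
    rw [e1, hg, ← cfc_mul (fun s : ℝ => (max s M')⁻¹ * s) (fun s : ℝ => max (s - M') 0) a
      (hkc.mul continuous_id).continuousOn (by fun_prop)]
    refine cfc_congr fun s _ => ?_
    rcases le_total s M' with h1 | h1
    · simp [max_eq_right (sub_nonpos.2 h1)]
    · rw [max_eq_left h1, inv_mul_cancel₀ (lt_of_lt_of_le hM0 h1).ne', one_mul]
  have hca : Commute a g := (Commute.refl a).cfc_real _ |>.symm
  have hstep : ∀ n : ℕ, t.n2 g ≤ M'⁻¹ ^ n * t.n2 (g * a ^ n) := by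
    intro n
    induction n with
    | zero => simp
    | succ n ih =>
      refine ih.trans ?_
      have e : g * a ^ n = k * (g * a ^ (n + 1)) := by
        conv_lhs => rw [← hkg]
        rw [pow_succ', mul_assoc k a g, hca.eq]
        simp only [mul_assoc]
      rw [e, pow_succ M'⁻¹, mul_assoc]
      refine mul_le_mul_of_nonneg_left ((t.n2_mul_left _ _).trans ?_) (by positivity)
      exact mul_le_mul_of_nonneg_right hkn (t.n2_nonneg _)
  have hlim : Tendsto (fun n : ℕ => ‖g‖ * (M / M') ^ n) atTop (𝓝 (‖g‖ * 0)) :=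
    (tendsto_pow_atTop_nhds_zero_of_lt_one (by positivity) ((div_lt_one hM0).2 hM')).const_mul _
  have hg0 : t.n2 g ≤ ‖g‖ * 0 := by
    refine ge_of_tendsto' hlim fun n => (hstep n).trans ?_
    have := (t.n2_mul_left g (a ^ n)).trans (mul_le_mul_of_nonneg_left (h n) (norm_nonneg _))
    calc M'⁻¹ ^ n * t.n2 (g * a ^ n) ≤ M'⁻¹ ^ n * (‖g‖ * M ^ n) :=
          mul_le_mul_of_nonneg_left this (by positivity)
      _ = _ := by rw [div_eq_mul_inv, mul_pow]; ring
  have hg1 : g = 0 := t.n2_eq_zero (le_antisymm (by simpa using hg0) (t.n2_nonneg _))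
  have hsp : ∀ s ∈ spectrum ℝ a, s ≤ M' := by
    intro s hs
    have h1 : cfc (fun s : ℝ => max (s - M') 0) a = cfc (fun _ : ℝ => (0:ℝ)) a := by
      rw [← hg, hg1, cfc_const_zero]
    have h2 := eqOn_of_cfc_eq_cfc h1 (by fun_prop) (by fun_prop) ha hs
    have h3 : max (s - M') 0 = 0 := h2
    have := le_max_left (s - M') 0
    linarith
  rw [← cfc_id' ℝ a ha]
  refine norm_cfc_le hM0.le fun s hs => ?_
  rw [Real.norm_eq_abs, abs_of_nonneg (h0 s hs)]
  exact hsp s hs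

/-- norm comparison through equal moments -/
theorem norm_le_of_pair {D : Type} [CStarAlgebra D] (f : D → ℂ) (hf : ∀ y, ‖f y‖ ≤ ‖y‖)
    (Γ : StarSubalgebra ℂ (C × D)) (hΓ : ∀ z ∈ Γ, t.τ z.1 = f z.2) {z : C × D} (hz : z ∈ Γ) :
    ‖z.1‖ ≤ ‖z.2‖ := by
  have hw : star z * z ∈ Γ := mul_mem (star_mem hz) hz
  have key : ‖star z.1 * z.1‖ ≤ ‖star z.2 * z.2‖ := by
    refine t.norm_le_of_moments (IsSelfAdjoint.star_mul_self _) (norm_nonneg _)
      (fun s hs => spectrum_star_mul_self_nonneg s hs) fun n => ?_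
    have hp : (star z * z) ^ n ∈ Γ := pow_mem hw n
    have h1 := hΓ _ (mul_mem (star_mem hp) hp)
    have h2 := hf (star ((star z * z) ^ n) * (star z * z) ^ n).2
    rw [← h1] at h2
    have e1 : (star ((star z * z) ^ n) * (star z * z) ^ n).1 =
      star ((star z.1 * z.1) ^ n) * (star z.1 * z.1) ^ n := by simp
    have e2 : (star ((star z * z) ^ n) * (star z * z) ^ n).2 =
      star ((star z.2 * z.2) ^ n) * (star z.2 * z.2) ^ n := by simp
    rw [e1, e2, t.τ_star_self, CStarRing.norm_star_mul_self, Complex.norm_real,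
      Real.norm_eq_abs, abs_of_nonneg (sq_nonneg _), ← sq] at h2
    have h3 := (pow_le_pow_iff_left₀ (t.n2_nonneg _) (norm_nonneg _) (by norm_num)).1 h2
    rcases Nat.eq_zero_or_pos n with rfl | hn
    · simp [t.n2_one]
    · exact h3.trans (norm_pow_le' _ hn)
  rw [CStarRing.norm_star_mul_self, CStarRing.norm_star_mul_self] at key
  exact (mul_self_le_mul_self_iff (norm_nonneg _) (norm_nonneg _)).2 key

/-- bounded sequences that are small in 2-norm tend to zero strongly -/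
theorem strong_of_n2 {R : ℕ → C} (hR : ∀ n, ‖R n‖ ≤ 1)
    (h : Tendsto (fun n => t.n2 (R n)) atTop (𝓝 0)) (v : t.Y) :
    Tendsto (fun n => t.lam (R n) v) atTop (𝓝 0) := by
  rw [NormedAddGroup.tendsto_nhds_zero]
  intro ε hε
  obtain ⟨_, ⟨x, rfl⟩, hx⟩ := Metric.mem_closure_iff.1 (t.cyc v) (ε / 2) (by positivity)
  have h2 : Tendsto (fun n => t.n2 (R n) * ‖x‖) atTop (𝓝 (0 * ‖x‖)) := h.mul_const _
  rw [zero_mul] at h2
  filter_upwards [h2.eventually (gt_mem_nhds (half_pos hε))] with n hn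
  have e : t.lam (R n) v = t.lam (R n) (v - t.lam x t.om) + t.lam (R n * x) t.om := by
    simp
  rw [e]
  refine (norm_add_le _ _).trans_lt ?_
  have a1 := (t.lam (R n)).le_opNorm (v - t.lam x t.om)
  have a2 := (hom_norm_le t.lam (R n)).trans (hR n)
  have a3 : ‖t.lam (R n * x) t.om‖ ≤ t.n2 (R n) * ‖x‖ := t.n2_mul_right _ _
  rw [dist_eq_norm] at hx
  have a4 := norm_nonneg (v - t.lam x t.om)
  nlinarith

end TS
end Crest.Agent.Nk
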