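import Crest.Agent.Nk.HNN
/-! An excising sequence cannot overlap two orthogonal excising sequences. -/
set_option autoImplicit false
set_option linter.deprecated false
set_option linter.unusedSimpArgs false
set_option linter.unusedVariables false
namespace Crest.Agent.Nk
open scoped InnerProductSpace ComplexConjugate
open Filter Topology

variable {C : Type} [CStarAlgebra C]

theorem norm_sq_eq (y : C) : ‖y‖ ^ 2 = ‖star y * y‖ := by
  rw [CStarRing.norm_star_mul_self, sq]

theorem conj_sub_smul {p : C} (hp : IsStarProjection p) (x : C) (c : ℂ) :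
    p * (x - c • 1) * p = p * x * p - c • p := by
  rw [mul_sub, sub_mul, mul_smul_comm, mul_one, smul_mul_assoc, hp.isIdempotentElem.eq]

theorem exn (t : TS C) {q : C} (hq : IsStarProjection q) (y : C) {c : ℂ} {δ : ℝ}
    (h : ‖q * (star y * y - c • 1) * q‖ ≤ δ) :
    ‖y * q‖ ^ 2 * t.n2 q ^ 2 ≤ t.n2 (y * q) ^ 2 + 2 * δ * t.n2 q ^ 2 := by
  have e := conj_sub_smul hq (star y * y) c
  have e1 : star (y * q) * (y * q) = q * (star y * y) * q := by
    rw [star_mul, hq.isSelfAdjoint.star_eq]; simp only [mul_assoc]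
  have h1 : ‖y * q‖ ^ 2 ≤ δ + ‖c‖ := by
    rw [norm_sq_eq, e1, ← sub_add_cancel (q * (star y * y) * q) (c • q), ← e]
    refine (norm_add_le _ _).trans (add_le_add h ?_)
    rw [norm_smul]; nlinarith [hq.norm_le, norm_nonneg c, norm_nonneg q]
  have h2 := t.τ_mul_proj_le hq (q * (star y * y - c • 1) * q)
  rw [mul_assoc _ q q, hq.isIdempotentElem.eq] at h2
  have h3 : t.τ (q * (star y * y - c • 1) * q) =
      ((t.n2 (y * q) ^ 2 : ℝ) : ℂ) - c * ((t.n2 q ^ 2 : ℝ) : ℂ) := by
    rw [e, map_sub, map_smul, ← e1, t.τ_star_self, t.τ_proj hq, smul_eq_mul]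
  have h4 : ‖c‖ * t.n2 q ^ 2 ≤ t.n2 (y * q) ^ 2 + δ * t.n2 q ^ 2 := by
    have h5 := norm_sub_norm_le (c * ((t.n2 q ^ 2 : ℝ) : ℂ)) ((t.n2 (y * q) ^ 2 : ℝ) : ℂ)
    rw [← norm_neg (c * _ - _), neg_sub, ← h3, norm_mul, Complex.norm_real, Complex.norm_real,
      Real.norm_eq_abs, Real.norm_eq_abs, abs_of_nonneg (sq_nonneg _),
      abs_of_nonneg (sq_nonneg _)] at h5
    nlinarith [sq_nonneg (t.n2 q)]
  nlinarith [sq_nonneg (t.n2 q)]

theorem claimC {t : TS C} {B : StarSubalgebra ℂ C} {PP : Bool → ℕ → C} (hV : Valid t B PP)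
    {R : ℕ → C} (hR : Dec R) (hm : ∀ m, R m ∈ B) (he : ∀ x ∈ B, Exc R x) :
    ∀ ε, ∀ a ∈ B, ∀ b ∈ B, ∀ η > 0, ∃ j, ∀ᶠ m in atTop,
      ‖R m * a * PP ε j‖ * ‖PP (!ε) j * b * R m‖ ≤ η := by
  intro ε a ha b hb η hη
  by_contra hcon
  set Q := PP ε with hQdef
  set P := PP (!ε) with hPdef
  have hQ : Dec Q := hV.dec ε
  have hP : Dec P := hV.dec _
  have hall : ∀ j m, η < ‖R m * a * Q j‖ * ‖P j * b * R m‖ := by
    intro j m
    by_contra h
    refine hcon ⟨j, ?_⟩
    filter_upwards [eventually_ge_atTop m] with k hk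
    refine le_trans (mul_le_mul ?_ (hR.norm_right_mono hk _) (norm_nonneg _) (norm_nonneg _))
      (not_lt.1 h)
    rw [mul_assoc, mul_assoc]; exact hR.norm_left_mono hk _
  set κ := η / (‖a‖ + ‖b‖ + 1) with hκ
  have hκ0 : 0 < κ := by positivity
  have hηκ : η = κ * (‖a‖ + ‖b‖ + 1) := by rw [hκ]; field_simp
  have hβ : ∀ j m, κ ≤ ‖R m * a * Q j‖ := by
    intro j m
    have h1 := hall j m
    have h2 : ‖P j * b * R m‖ ≤ ‖b‖ :=
      (norm_right_le (hR.norm_le m) _).trans (norm_left_le (hP.norm_le j) _)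
    by_contra h
    nlinarith [norm_nonneg (R m * a * Q j), norm_nonneg a, norm_nonneg (P j * b * R m)]
  have hα : ∀ j m, κ ≤ ‖P j * b * R m‖ := by
    intro j m
    have h1 := hall j m
    have h2 : ‖R m * a * Q j‖ ≤ ‖a‖ :=
      (norm_right_le (hQ.norm_le j) _).trans (norm_left_le (hR.norm_le m) _)
    by_contra h
    nlinarith [norm_nonneg (R m * a * Q j), norm_nonneg b, norm_nonneg (P j * b * R m)]
  set L := (1 + 3 * ‖b‖) ^ 2 + κ ^ 2 + ‖a‖ ^ 2 with hL
  have hL0 : 0 < L := by positivity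
  set θ := min 1 (κ ^ 2 / (L + 1)) with hθ
  have hθ0 : 0 < θ := lt_min one_pos (by positivity)
  have hθ1 : θ ≤ 1 := min_le_left _ _
  have hθ2 : θ ^ 2 * L < κ ^ 4 := by
    have h1 : θ * (L + 1) ≤ κ ^ 2 := (le_div_iff₀ (by positivity)).1 (min_le_right _ _)
    have h2 : (θ * (L + 1)) ^ 2 ≤ (κ ^ 2) ^ 2 := pow_le_pow_left₀ (by positivity) h1 2
    nlinarith [sq_pos_of_pos hθ0]
  have hδ : 0 < θ ^ 2 := by positivity
  have hbdd : BddBelow (Set.range fun p : ℕ × ℕ => ‖R p.1 * a * Q p.2‖ ^ 2) :=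
    ⟨0, by rintro _ ⟨p, rfl⟩; positivity⟩
  set S := ⨅ p : ℕ × ℕ, ‖R p.1 * a * Q p.2‖ ^ 2 with hS
  have hS1 : ∀ m j, S ≤ ‖R m * a * Q j‖ ^ 2 := fun m j => ciInf_le hbdd (m, j)
  obtain ⟨⟨m0, j0⟩, hS2⟩ := exists_lt_of_ciInf_lt (lt_add_of_pos_right S hδ)
  simp only at hS2
  have horth := hV.orth (!ε) (b * R m0 * a) (mul_mem (mul_mem hb (hm _)) ha)
  rw [Bool.not_not] at horth
  obtain ⟨i, hi⟩ := ((NormedAddGroup.tendsto_nhds_zero.1 horth) _ hδ).exists
  obtain ⟨c, hc⟩ := he (star b * P i * b) (mul_mem (mul_mem (star_mem hb) (hV.mem _ _)) hb) _ hδ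
  obtain ⟨m, hmc, hm0⟩ := (hc.and (eventually_ge_atTop m0)).exists
  have hc1 : κ ^ 2 - θ ^ 2 ≤ ‖c‖ := by
    have h1 := pow_le_pow_left₀ hκ0.le (hα i m) 2
    have e1 : star (P i * b * R m) * (P i * b * R m) = R m * (star b * P i * b) * R m := by
      simp only [star_mul, hR.star_eq, hP.star_eq, mul_assoc]
      rw [← mul_assoc (P i) (P i), (hP.proj i).isIdempotentElem.eq]
    rw [norm_sq_eq, e1, ← sub_add_cancel (R m * (star b * P i * b) * R m) (c • R m),
      ← conj_sub_smul (hR.proj m)] at h1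
    have h2 := norm_add_le (R m * (star b * P i * b - c • 1) * R m) (c • R m)
    rw [norm_smul] at h2
    nlinarith [hR.norm_le m, norm_nonneg c, norm_nonneg (R m)]
  have hU : IsStarProjection (R m0 - R m) :=
    (hR.proj m).sub_of_mul_eq_right (hR.proj m0) (hR.mul_le hm0)
  have hUa : (R m0 - R m) * a ∈ B := mul_mem (sub_mem (hm _) (hm _)) ha
  have hRa : R m * a ∈ B := mul_mem (hm _) ha
  obtain ⟨c1, hc1'⟩ := hV.exc ε _ (mul_mem (star_mem hUa) hUa) _ hδ
  obtain ⟨c2, hc2'⟩ := hV.exc ε _ (mul_mem (star_mem hRa) hRa) _ hδ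
  obtain ⟨j, ⟨hj1, hj2⟩, hj3, hj4⟩ := ((hc1'.and hc2').and
    ((eventually_ge_atTop j0).and (eventually_ge_atTop i))).exists
  have hN : 0 < t.n2 (Q j) ^ 2 := by
    refine pow_pos (t.n2_pos fun h => ?_) 2
    have := hβ j m
    rw [h, mul_zero, norm_zero] at this
    linarith
  have a1 := exn t (hQ.proj j) _ hj1
  have a2 := exn t (hQ.proj j) _ hj2
  have a3 : t.n2 (R m0 * a * Q j) ^ 2 =
      t.n2 ((R m0 - R m) * a * Q j) ^ 2 + t.n2 (R m * a * Q j) ^ 2 := by
    have : ∀ p : C, IsStarProjection p → ((t.n2 (p * a * Q j) ^ 2 : ℝ) : ℂ) =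
        t.τ (star (a * Q j) * p * (a * Q j)) := by
      intro p hp
      rw [← t.τ_star_self, mul_assoc p, star_mul p, hp.isSelfAdjoint.star_eq, mul_assoc _ p,
        ← mul_assoc p p, hp.isIdempotentElem.eq, mul_assoc _ p]
    have h : ((t.n2 (R m0 * a * Q j) ^ 2 : ℝ) : ℂ) =
        ((t.n2 ((R m0 - R m) * a * Q j) ^ 2 : ℝ) : ℂ) + ((t.n2 (R m * a * Q j) ^ 2 : ℝ) : ℂ) := by
      rw [this _ (hR.proj m0), this _ hU, this _ (hR.proj m), ← map_add, ← add_mul, ← mul_add,
        sub_add_cancel]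
    exact_mod_cast h
  have a4 : t.n2 (R m0 * a * Q j) ^ 2 ≤ (S + θ ^ 2) * t.n2 (Q j) ^ 2 := by
    have h1 := t.n2_mul_left (R m0 * a * Q j) (Q j)
    rw [mul_assoc _ (Q j), (hQ.proj j).isIdempotentElem.eq] at h1
    have h2 := pow_le_pow_left₀ (t.n2_nonneg _) h1 2
    have h3 := pow_le_pow_left₀ (norm_nonneg _) (hQ.norm_right_mono hj3 (R m0 * a)) 2
    rw [mul_pow] at h2
    exact h2.trans (mul_le_mul_of_nonneg_right (h3.trans hS2.le) hN.le)
  have a5 : ‖(R m0 - R m) * a * Q j‖ ≤ 3 * θ := by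
    have h1 : ‖(R m0 - R m) * a * Q j‖ ^ 2 * t.n2 (Q j) ^ 2 ≤ (5 * θ ^ 2) * t.n2 (Q j) ^ 2 := by
      have := mul_le_mul_of_nonneg_right (hS1 m j) hN.le
      nlinarith
    have h2 := le_of_mul_le_mul_right h1 hN
    refine (pow_le_pow_iff_left₀ (norm_nonneg _) (by positivity) two_ne_zero).1 ?_
    nlinarith
  have a6 : ‖P i * b * R m * a * Q j‖ ≤ θ * (1 + 3 * ‖b‖) := by
    have e : P i * b * R m * a * Q j =
        P i * (b * R m0 * a) * Q j - P i * (b * ((R m0 - R m) * a * Q j)) := by noncomm_ring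
    rw [e]
    refine (norm_sub_le _ _).trans ?_
    have h1 := (hQ.norm_right_mono hj4 (P i * (b * R m0 * a))).trans hi.le
    have h2 := (norm_left_le (hP.norm_le i) (b * ((R m0 - R m) * a * Q j))).trans (norm_mul_le _ _)
    nlinarith [norm_nonneg b]
  have a7 : ‖c‖ * κ ^ 2 ≤ ‖P i * b * R m * a * Q j‖ ^ 2 + θ ^ 2 * ‖a‖ ^ 2 := by
    have e : c • (star (R m * a * Q j) * (R m * a * Q j)) =
        star (P i * b * R m * a * Q j) * (P i * b * R m * a * Q j) -
          star (a * Q j) * (R m * (star b * P i * b - c • 1) * R m) * (a * Q j) := by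
      rw [conj_sub_smul (hR.proj m)]
      simp only [star_mul, hR.star_eq, hP.star_eq, mul_assoc, mul_sub, sub_mul, mul_smul_comm,
        smul_mul_assoc]
      rw [← mul_assoc (P i) (P i), (hP.proj i).isIdempotentElem.eq, ← mul_assoc (R m) (R m),
        (hR.proj m).isIdempotentElem.eq]
      abel
    have h1 := congrArg norm e
    rw [norm_smul, ← norm_sq_eq] at h1
    have h2 := norm_sub_le (star (P i * b * R m * a * Q j) * (P i * b * R m * a * Q j))
      (star (a * Q j) * (R m * (star b * P i * b - c • 1) * R m) * (a * Q j))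
    have h3 := norm_mul3 (star (a * Q j)) (R m * (star b * P i * b - c • 1) * R m) (a * Q j)
    have h4 := norm_right_le (hQ.norm_le j) a
    rw [norm_star] at h3
    have h5 : ‖a * Q j‖ * ‖R m * (star b * P i * b - c • 1) * R m‖ * ‖a * Q j‖ ≤
        ‖a‖ * θ ^ 2 * ‖a‖ := by gcongr
    have h6 := mul_le_mul_of_nonneg_left (pow_le_pow_left₀ hκ0.le (hβ j m) 2) (norm_nonneg c)
    rw [← norm_sq_eq] at h2
    nlinarith
  have a8 := pow_le_pow_left₀ (norm_nonneg _) a6 2
  have a9 := mul_le_mul_of_nonneg_right hc1 (sq_nonneg κ)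
  rw [hL] at hθ2
  nlinarith

/-- persistence of excision for projection sequences -/
theorem HNN.ep3 {t : TS C} {B : StarSubalgebra ℂ C} {u : Bool → C} {PP : Bool → ℕ → C}
    (h : HNN t B u PP) {R : ℕ → C} (hR : Dec R) (hm : ∀ m, R m ∈ B) (hs : t.Small R)
    (he : ∀ x ∈ B, Exc R x) {x : C}
    (hx : x ∈ StarAlgebra.adjoin ℂ ((B : Set C) ∪ Set.range u)) : Exc R x :=
  h.ep2 hm hs hR.star_eq hR.norm_le (claimC h.valid hR hm he) he hx

/-- freeness passes to the closure -/
theorem Free.closure {t : TS C} {B : Set C} {u : Bool → C} {PP : Bool → ℕ → C}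
    (hdec : ∀ ε, Dec (PP ε)) (hsm : ∀ ε, t.Small (PP ε)) (hex : ∀ ε, ∀ x ∈ B, Exc (PP ε) x)
    (hsub : ∀ ε, ∀ a ∈ B, ∀ z ∈ DD PP ε, a - z.1 ∈ B) (h : Free t B u PP) :
    Free t (closure B) u PP := by
  have hcen : ∀ ε, ∀ a ∈ _root_.closure B, t.Cen (PP ε) a →
      a ∈ _root_.closure {b | b ∈ B ∧ t.Cen (PP ε) b} := by
    intro ε a ha hc
    rw [Metric.mem_closure_iff] at ha ⊢
    intro η hη
    obtain ⟨b, hb, hab⟩ := ha (η / 2) (half_pos hη)
    obtain ⟨z, hz, h1, h2⟩ := t.decomp (hdec ε) (hdec (!ε)) (hsm ε) (hex ε b hb)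
      (norm_nonneg (b - a)) (fun n => by
        have := t.τ_mul_proj_le ((hdec ε).dif_proj n) (b - a)
        rwa [sub_mul, map_sub, hc.dif n, sub_zero] at this)
    refine ⟨b - z.1, ⟨hsub ε b hb z hz, h2⟩, ?_⟩
    rw [dist_eq_norm] at hab ⊢
    have e : a - (b - z.1) = (a - b) + z.1 := by abel
    rw [norm_sub_rev b a] at h1
    rw [e]; linarith [norm_add_le (a - b) z.1]
  have key : ∀ ε x, Red (_root_.closure B) u (ZZ t PP) ε x →
      x ∈ _root_.closure {y | Red B u (ZZ t PP) ε y} := by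
    intro ε x hx
    induction hx with
    | base ε a ha =>
      exact map_mem_closure (f := fun a => u ε * a) (by fun_prop) ha fun b hb => Red.base ε b hb
    | step ε ε' a x ha hz _ ih =>
      by_cases h' : ε' = !ε
      · exact map_mem_closure₂ (f := fun a x => u ε * a * x) (by fun_prop) (hcen ε' a ha (hz h')) ih
          fun b hb y hy => Red.step ε ε' b y hb.1 (fun _ => hb.2) hy
      · exact map_mem_closure₂ (f := fun a x => u ε * a * x) (by fun_prop) ha ih
          fun b hb y hy => Red.step ε ε' b y hb (fun h'' => absurd h'' h') hy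
  intro ε x hx
  exact closure_minimal (t := {y | t.τ y = 0}) (fun y hy => h ε y hy)
    (isClosed_eq (by fun_prop) (by fun_prop)) (key ε x hx)

/-- commutation of two HNN steps -/
theorem free_WW {t : TS C} {A D : StarSubalgebra ℂ C} {u w : Bool → C} {PP QQ : Bool → ℕ → C}
    (hA : Free t A u PP) (hD : HNN t D w QQ) (hAD : A ≤ D) (hu : ∀ ε, u ε ∈ D)
    (hP : ∀ ε n, PP ε n ∈ D) (hQ : ∀ ε n, QQ ε n ∈ A) :
    Free t (WW (A : Set C) w (ZZ t QQ)) u PP := by
  have hmemD : ∀ ε x, Red A u (ZZ t PP) ε x → x ∈ D := fun ε x hx =>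
    hx.mem D.toSubalgebra.toSubmonoid (fun a ha => hAD ha) hu
  have hsplit : ∀ a ∈ WW (A : Set C) w (ZZ t QQ), ∃ c ∈ A, a - c ∈ Submodule.span ℂ
      {y | ∃ b ∈ (A : Set C), ∃ δ x, Red (A : Set C) w (ZZ t QQ) δ x ∧ y = b * x} := by
    intro a ha
    refine WW_induction (fun a => ∃ c ∈ A, a - c ∈ Submodule.span ℂ
      {y | ∃ b ∈ (A : Set C), ∃ δ x, Red (A : Set C) w (ZZ t QQ) δ x ∧ y = b * x})
      ⟨0, zero_mem _, by simp⟩ ?_ ?_ (fun a ha => ⟨a, ha, by simp⟩)
      (fun a ha δ x hx => ⟨0, zero_mem _, by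
        rw [sub_zero]; exact Submodule.subset_span ⟨a, ha, δ, x, hx, rfl⟩⟩) ha
    · rintro x y ⟨c, hc, h1⟩ ⟨d, hd, h2⟩
      exact ⟨c + d, add_mem hc hd, by rw [add_sub_add_comm]; exact add_mem h1 h2⟩
    · rintro r x ⟨c, hc, h1⟩
      exact ⟨r • c, A.smul_mem hc r, by rw [← smul_sub]; exact Submodule.smul_mem _ _ h1⟩
  let G : Bool → Submodule ℂ C := fun ε => Submodule.span ℂ ({z | Red A u (ZZ t PP) ε z} ∪
    {x | ∃ z δ y, Red A u (ZZ t PP) ε z ∧ Red D w (ZZ t QQ) δ y ∧ x = z * y})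
  have key : ∀ ε x, Red (WW (A : Set C) w (ZZ t QQ)) u (ZZ t PP) ε x → x ∈ G ε := by
    intro ε x hx
    induction hx with
    | base ε a ha =>
      obtain ⟨c, hc, h1⟩ := hsplit a ha
      rw [← sub_add_cancel a c, mul_add]
      refine add_mem ?_ (Submodule.subset_span (Or.inl (Red.base ε c hc)))
      generalize a - c = n at h1
      induction h1 using Submodule.span_induction with
      | mem n hn =>
        obtain ⟨b, hb, δ, y, hy, rfl⟩ := hn
        exact Submodule.subset_span (Or.inr ⟨_, δ, y, Red.base ε b hb, hy.mono hAD,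
          (mul_assoc _ _ _).symm⟩)
      | zero => simp
      | add x y _ _ hx hy => rw [mul_add]; exact add_mem hx hy
      | smul r x _ hx => rw [mul_smul_comm]; exact Submodule.smul_mem _ _ hx
    | step ε ε' a x ha hz hx0 ih =>
      obtain ⟨c, hc, h1⟩ := hsplit a ha
      have hcz : ε' = !ε → ZZ t PP ε' c := by
        intro h n
        have h2 : t.τ ((a - c) * PP ε' n) = 0 := by
          generalize a - c = m at h1
          induction h1 using Submodule.span_induction with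
          | mem m hm =>
            obtain ⟨b, hb, δ, y, hy, rfl⟩ := hm
            rw [mul_assoc]
            exact hD.free' (hy.mul_right hAD fun e he => mul_mem (hAD he) (hP _ _)) (hAD hb)
          | zero => simp
          | add x y _ _ hx hy => rw [add_mul, map_add, hx, hy, add_zero]
          | smul r x _ hx => rw [smul_mul_assoc, map_smul, hx, smul_zero]
        rw [sub_mul, map_sub, hz h n, zero_sub, neg_eq_zero] at h2
        exact h2
      clear hz hx0
      induction ih using Submodule.span_induction with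
      | zero => simp
      | add x y _ _ hx hy => rw [mul_add]; exact add_mem hx hy
      | smul r x _ hx => rw [mul_smul_comm]; exact Submodule.smul_mem _ _ hx
      | mem x hx =>
        rw [← sub_add_cancel a c, mul_add, add_mul]
        refine add_mem ?_ ?_
        · generalize a - c = n at h1
          induction h1 using Submodule.span_induction with
          | zero => simp
          | add x y _ _ hx hy => rw [mul_add, add_mul]; exact add_mem hx hy
          | smul r x _ hx => rw [mul_smul_comm, smul_mul_assoc]; exact Submodule.smul_mem _ _ hx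
          | mem n hn =>
            obtain ⟨b, hb, δ, y, hy, rfl⟩ := hn
            rcases hx with hx | ⟨z, δ', y', hz, hy', rfl⟩
            · exact Submodule.subset_span (Or.inr ⟨_, δ, y * x, Red.base ε b hb,
                hy.mul_right hAD fun e he => mul_mem (hAD he) (hmemD _ _ hx),
                by simp only [mul_assoc]⟩)
            · refine Submodule.subset_span (Or.inr ⟨_, δ, y * z * y', Red.base ε b hb,
                hy.append hAD (fun e he => ⟨mul_mem (hAD he) (hmemD _ _ hz), fun δ'' n => ?_⟩) hy',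
                by simp only [mul_assoc]⟩)
              rw [mul_assoc, t.τ_comm, mul_assoc]
              exact hA _ _ (hz.mul_right subset_rfl fun f hf => mul_mem hf (mul_mem (hQ _ _) he))
        · rcases hx with hx | ⟨z, δ', y', hz, hy', rfl⟩
          · exact Submodule.subset_span (Or.inl (Red.step ε ε' c x hc hcz hx))
          · exact Submodule.subset_span (Or.inr ⟨_, δ', y', Red.step ε ε' c z hc hcz hz, hy',
              by simp only [mul_assoc]⟩)
  intro ε x hx
  have := key ε x hx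
  clear hx
  induction this using Submodule.span_induction with
  | zero => simp
  | add x y _ _ hx hy => rw [map_add, hx, hy, add_zero]
  | smul r x _ hx => rw [map_smul, hx, smul_zero]
  | mem x hx =>
    rcases hx with hx | ⟨z, δ, y, hz, hy, rfl⟩
    · exact hA _ _ hx
    · exact hD.free' hy (hmemD _ _ hz)

end Crest.Agent.Nk
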