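import Crest.Agent.Nk.Model
/-! Excision persists along HNN extensions. -/
set_option autoImplicit false
set_option linter.deprecated false
set_option linter.unusedSimpArgs false
namespace Crest.Agent.Nk
open scoped InnerProductSpace ComplexConjugate
open Filter Topology

variable {C : Type} [CStarAlgebra C]

/-- admissible pair of projection sequences for `B` -/
structure Valid (t : TS C) (B : Set C) (PP : Bool → ℕ → C) : Prop where
  dec : ∀ ε, Dec (PP ε)
  small : ∀ ε, t.Small (PP ε)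
  eq : ∀ n, t.τ (PP true n) = t.τ (PP false n)
  mem : ∀ ε n, PP ε n ∈ B
  exc : ∀ ε, ∀ x ∈ B, Exc (PP ε) x
  orth : ∀ ε, ∀ x ∈ B, Tendsto (fun n => PP ε n * x * PP (!ε) n) atTop (𝓝 0)

/-- centredness predicate -/
abbrev ZZ (t : TS C) (PP : Bool → ℕ → C) : Bool → C → Prop := fun ε a => t.Cen (PP ε) a

/-- the trace vanishes on reduced words -/
def Free (t : TS C) (B : Set C) (u : Bool → C) (PP : Bool → ℕ → C) : Prop :=
  ∀ ε x, Red B u (ZZ t PP) ε x → t.τ x = 0

/-- closed span of the graph of the diagonal isomorphism -/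
noncomputable def DD (PP : Bool → ℕ → C) (ε : Bool) : Submodule ℂ (C × C) :=
  (Submodule.span ℂ (Set.range fun n => (PP ε n, PP (!ε) n))).topologicalClosure

theorem DD_mem {PP : Bool → ℕ → C} {ε : Bool} {z : C × C} (hz : z ∈ DD PP ε)
    (B : Submodule ℂ C) (hB : IsClosed (B : Set C)) (hm : ∀ ε n, PP ε n ∈ B) :
    z.1 ∈ B ∧ z.2 ∈ B :=
  closure_span_induction _ (fun z : C × C => z.1 ∈ B ∧ z.2 ∈ B)
    ((hB.preimage continuous_fst).inter (hB.preimage continuous_snd)) ⟨zero_mem _, zero_mem _⟩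
    (fun _ _ hx hy => ⟨add_mem hx.1 hy.1, add_mem hx.2 hy.2⟩)
    (fun c _ hx => ⟨B.smul_mem c hx.1, B.smul_mem c hx.2⟩) (fun n => ⟨hm _ _, hm _ _⟩) hz

theorem DD_int {PP : Bool → ℕ → C} {ε : Bool} {z : C × C} (hz : z ∈ DD PP ε)
    {D : Type} [CStarAlgebra D] (f : C →⋆ₐ[ℂ] D) (w : D)
    (h : ∀ n, w * f (PP ε n) = f (PP (!ε) n) * w) : w * f z.1 = f z.2 * w := by
  have hf := hom_cont f
  refine closure_span_induction _ (fun z => w * f z.1 = f z.2 * w)
    (isClosed_eq (by fun_prop) (by fun_prop)) (by simp) (fun x y hx hy => ?_) (fun c x hx => ?_)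
    h hz
  · simp only [Prod.fst_add, Prod.snd_add, map_add, mul_add, add_mul, hx, hy]
  · simp only [Prod.smul_fst, Prod.smul_snd, map_smul, mul_smul_comm, smul_mul_assoc, hx]

theorem DD_tr (t : TS C) {PP : Bool → ℕ → C} (heq : ∀ n, t.τ (PP true n) = t.τ (PP false n))
    {ε : Bool} {z : C × C} (hz : z ∈ DD PP ε) : t.τ z.1 = t.τ z.2 := by
  refine closure_span_induction _ (fun z => t.τ z.1 = t.τ z.2)
    (isClosed_eq (by fun_prop) (by fun_prop)) (by simp) (fun x y hx hy => ?_) (fun c x hx => ?_)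
    (fun n => ?_) hz
  · simp only [Prod.fst_add, Prod.snd_add, map_add, hx, hy]
  · simp only [Prod.smul_fst, Prod.smul_snd, map_smul, hx]
  · cases ε
    · exact (heq n).symm
    · exact heq n

theorem DD_cen (t : TS C) {PP : Bool → ℕ → C} {ε : Bool} (hP : Dec (PP (!ε))) {z : C × C}
    (hz : z ∈ DD PP ε) {a : C} (ha : t.Cen (PP (!ε)) a) : t.Cen (PP (!ε)) (a * z.2) := by
  intro n
  refine closure_span_induction _ (fun z => t.τ (a * z.2 * PP (!ε) n) = 0)
    (isClosed_eq (by fun_prop) (by fun_prop)) (by simp) (fun x y hx hy => ?_) (fun c x hx => ?_)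
    (fun k => ?_) hz
  · simp only [Prod.snd_add, map_add, mul_add, add_mul, hx, hy, add_zero]
  · simp only [Prod.smul_snd, map_smul, mul_smul_comm, smul_mul_assoc, hx, smul_zero]
  · simp only []; rw [mul_assoc, hP.mul_max]; exact ha _

theorem Valid.decomp {t : TS C} {B : Set C} {PP : Bool → ℕ → C} (hV : Valid t B PP) (ε : Bool)
    {a : C} (ha : a ∈ B) : ∃ z ∈ DD PP ε, t.Cen (PP ε) (a - z.1) :=
  t.decomp' (hV.dec ε) (hV.dec _) (hV.small ε) (hV.exc ε a ha)

theorem tendsto_of_split {E : Type} [NormedAddCommGroup E] {f : ℕ → E}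
    (h : ∀ η > 0, ∃ g k : ℕ → E, (∀ m, f m = g m + k m) ∧ (∀ᶠ m in atTop, ‖g m‖ ≤ η) ∧
      Tendsto k atTop (𝓝 0)) : Tendsto f atTop (𝓝 0) := by
  rw [NormedAddGroup.tendsto_nhds_zero]
  intro ε hε
  obtain ⟨g, k, h1, h2, h3⟩ := h (ε / 2) (half_pos hε)
  filter_upwards [h2, (NormedAddGroup.tendsto_nhds_zero.1 h3) (ε / 2) (half_pos hε)] with m a b
  rw [h1]; linarith [norm_add_le (g m) (k m)]

theorem tendsto_mul_bdd {D : Type} [CStarAlgebra D] {f : ℕ → D} (h : Tendsto f atTop (𝓝 0))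
    (a b : D) : Tendsto (fun m => a * f m * b) atTop (𝓝 0) := by
  simpa using (h.const_mul a).mul_const b

theorem Valid.B0 {t : TS C} {B : Set C} {PP : Bool → ℕ → C} (hV : Valid t B PP) {δ ε : Bool}
    {a : C} (ha : a ∈ B) (h : δ = ε → t.Cen (PP ε) a) :
    Tendsto (fun j => PP δ j * a * PP ε j) atTop (𝓝 0) := by
  by_cases hd : δ = ε
  · subst hd; exact t.tendsto_of_cen (hV.dec δ) (hV.exc δ a ha) (h rfl)
  · have : ε = !δ := by cases δ <;> cases ε <;> simp_all
    rw [this]; exact hV.orth δ a ha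

namespace Mdl
variable {t : TS C} {PP : Bool → ℕ → C} (M : Mdl t PP)

theorem norm_v (ε : Bool) : ‖M.v ε‖ ≤ 1 := by
  have h := CStarRing.norm_star_mul_self (x := M.v ε)
  rw [M.vs, M.vv] at h
  have h1 : ‖(1 : M.H →L[ℂ] M.H)‖ ≤ 1 := (IsStarProjection.one _).norm_le
  nlinarith [norm_nonneg (M.v ε)]

theorem ev (ε : Bool) : (1 - M.e ε) * M.v ε = M.v ε * M.e (!ε) := by
  have := M.ve ε
  rw [mul_sub, mul_one] at this
  rw [sub_mul, one_mul, ← this]; abel

theorem es (ε : Bool) : star (M.e ε) = M.e ε := (M.ep ε).isSelfAdjoint.star_eq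

theorem cen_zero {ε : Bool} {a : C} (h : t.Cen (PP ε) a) : M.e ε * M.pi a * M.e ε = 0 :=
  norm_le_zero_iff.1 (M.eb ε a 0 le_rfl fun n => by rw [h.dif n]; simp)

theorem ez {ε ε' : Bool} {a : C} (h : ε' = !ε → t.Cen (PP ε') a) :
    M.e (!ε) * M.pi a * M.e ε' = 0 := by
  by_cases h1 : ε' = !ε
  · have := h h1; subst h1; exact M.cen_zero this
  · have : ε' = !(!ε) := by cases ε <;> cases ε' <;> simp_all
    rw [this]; exact M.ee _ _

theorem A0 {ε : Bool} (hP : Dec (PP ε)) {y : ℕ → C} (hy : t.Small y) {j : ℕ}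
    (h0 : ∀ m, y m * PP ε j = 0) : Tendsto (fun m => M.pi (y m) * M.e ε) atTop (𝓝 0) := by
  rw [NormedAddGroup.tendsto_nhds_zero]
  intro η hη
  have h1 : ∀ n, ∀ᶠ m in atTop, ‖t.τ (star (y m) * y m * dif (PP ε) n)‖ ≤
      (η / 2) ^ 2 * t.n2 (dif (PP ε) n) ^ 2 := by
    intro n
    by_cases hn : dif (PP ε) n = 0
    · exact Eventually.of_forall fun m => by simp [hn, t.n2_zero]
    · have hp : 0 < η / 2 * t.n2 (dif (PP ε) n) := mul_pos (half_pos hη) (t.n2_pos hn)
      filter_upwards [hy.eventually (gt_mem_nhds hp)] with m hm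
      rw [mul_assoc]
      refine (t.τ_cs _ _).trans ?_
      have a1 := t.n2_mul_right (y m) (dif (PP ε) n)
      have a2 := (hP.dif_proj n).norm_le
      have a3 := t.n2_nonneg (y m)
      have a4 : t.n2 (y m * dif (PP ε) n) ≤ t.n2 (y m) := a1.trans (by nlinarith)
      rw [← mul_pow]
      nlinarith [t.n2_nonneg (y m * dif (PP ε) n)]
  filter_upwards [(eventually_all_finset (Finset.range j)).2 fun n _ => h1 n] with m hm
  have h2 := M.eb ε (star (y m) * y m) ((η / 2) ^ 2) (sq_nonneg _) (fun n => by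
    by_cases hn : n < j
    · exact hm n (Finset.mem_range.2 hn)
    · rw [← hP.mul_dif_le (not_lt.1 hn), mul_assoc, ← mul_assoc (y m), h0]
      simp only [zero_mul, mul_zero, map_zero, norm_zero]; positivity)
  have h3 := CStarRing.norm_star_mul_self (x := M.pi (y m) * M.e ε)
  rw [star_mul, M.es, ← map_star, mul_assoc, ← mul_assoc (M.pi _), ← map_mul, ← mul_assoc] at h3
  rw [h3] at h2
  nlinarith [norm_nonneg (M.pi (y m) * M.e ε)]

theorem A1 {ε : Bool} (hP : Dec (PP ε)) {R : ℕ → C} (hR : t.Small R) (a : C) (j : ℕ) :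
    Tendsto (fun m => M.pi (R m * a * (1 - PP ε j)) * M.e ε) atTop (𝓝 0) := by
  refine M.A0 hP (j := j) ?_ fun m => ?_
  · refine squeeze_zero (fun m => t.n2_nonneg _) (fun m => ?_)
      (by simpa using hR.mul_const ‖a * (1 - PP ε j)‖)
    simp only []; rw [mul_assoc]; exact t.n2_mul_right _ _
  · rw [mul_assoc, (hP.proj j).one_sub_mul_self, mul_zero]

theorem A2 {ε : Bool} (hP : Dec (PP ε)) {R : ℕ → C} (hR : t.Small R) (hs : ∀ m, star (R m) = R m)
    (a : C) (j : ℕ) :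
    Tendsto (fun m => M.e ε * M.pi ((1 - PP ε j) * a * R m)) atTop (𝓝 0) := by
  have := (M.A1 hP hR (star a) j).star
  rw [star_zero] at this
  refine this.congr fun m => ?_
  simp only [star_mul, M.es, ← map_star, hs, star_star, star_sub, star_one, hP.star_eq, mul_assoc]

theorem B1 {B : Set C} (hV : Valid t B PP) {δ ε : Bool} {a : C} (ha : a ∈ B)
    (h : δ = ε → t.Cen (PP ε) a) :
    Tendsto (fun j => M.pi (PP δ j * a) * M.e ε) atTop (𝓝 0) := by
  refine tendsto_of_split fun η hη => ?_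
  obtain ⟨i, hi⟩ := ((NormedAddGroup.tendsto_nhds_zero.1 (hV.B0 ha h)) η hη).exists
  refine ⟨fun j => M.pi (PP δ j * a * PP ε i) * M.e ε,
    fun j => M.pi (PP δ j * a * (1 - PP ε i)) * M.e ε, fun j => ?_, ?_,
    M.A1 (hV.dec ε) (hV.small δ) a i⟩
  · rw [← add_mul, ← map_add, ← mul_add]; simp
  · filter_upwards [eventually_ge_atTop i] with j hj
    refine (norm_right_le (M.ep ε).norm_le _).trans ((hom_norm_le _ _).trans ?_)
    rw [mul_assoc] at hi ⊢
    exact ((hV.dec δ).norm_left_mono hj _).trans hi.le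

theorem B2 {B : StarSubalgebra ℂ C} (hV : Valid t B PP) {δ ε : Bool} {a : C} (ha : a ∈ B)
    (h : δ = ε → t.Cen (PP ε) a) :
    Tendsto (fun j => M.e ε * M.pi (a * PP δ j)) atTop (𝓝 0) := by
  have := (M.B1 hV (δ := δ) (ε := ε) (star_mem ha) fun h' => (h h').star (hV.dec ε)).star
  rw [star_zero] at this
  refine this.congr fun m => ?_
  simp only [star_mul, M.es, ← map_star, star_star, (hV.dec δ).star_eq]

/-- centredness in the model -/
def MZ (B : Set C) : Bool → (M.H →L[ℂ] M.H) → Prop :=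
  fun ε y => ∃ a ∈ B, M.pi a = y ∧ t.Cen (PP ε) a

theorem letter {B : Set C} {ε ε' : Bool} {y : M.H →L[ℂ] M.H} (hy : y ∈ M.pi '' B)
    (hz : ε' = !ε → M.MZ B ε' y) : ∃ a ∈ B, M.pi a = y ∧ (ε' = !ε → t.Cen (PP ε') a) := by
  by_cases h : ε' = !ε
  · obtain ⟨a, h1, h2, h3⟩ := hz h
    exact ⟨a, h1, h2, fun _ => h3⟩
  · obtain ⟨a, h1, h2⟩ := hy
    exact ⟨a, h1, h2, fun h' => absurd h' h⟩

theorem red_om {B : Set C} {ε : Bool} {y : M.H →L[ℂ] M.H}
    (hy : Red (M.pi '' B) M.v (M.MZ B) ε y) : M.e ε (y M.om) = y M.om := by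
  induction hy with
  | base ε a ha =>
    obtain ⟨a, -, rfl⟩ := ha
    have := congrArg (fun T : M.H →L[ℂ] M.H => T (M.pi a M.om)) (M.ve ε)
    simp only [ContinuousLinearMap.mul_apply, ContinuousLinearMap.sub_apply,
      ContinuousLinearMap.one_apply, M.eo, sub_zero] at this
    exact this.symm
  | step ε ε' a x ha hz _ ih =>
    obtain ⟨a, -, rfl, h⟩ := M.letter ha hz
    have h1 := congrArg (fun T : M.H →L[ℂ] M.H => T (x M.om)) (M.ez h)
    have := congrArg (fun T : M.H →L[ℂ] M.H => T (M.pi a (x M.om))) (M.ve ε)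
    simp only [ContinuousLinearMap.mul_apply, ContinuousLinearMap.sub_apply,
      ContinuousLinearMap.one_apply, ih, ContinuousLinearMap.zero_apply] at this h1
    rw [h1, sub_zero] at this
    exact this.symm

theorem red_zero {B : Set C} {ε : Bool} {y : M.H →L[ℂ] M.H}
    (hy : Red (M.pi '' B) M.v (M.MZ B) ε y) (a b : C) :
    ⟪M.pi a M.om, M.pi b (y M.om)⟫_ℂ = 0 := by
  rw [← M.red_om hy, ← ContinuousLinearMap.adjoint_inner_left, ← ContinuousLinearMap.star_eq_adjoint,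
    ← proj_inner (M.ep ε), ← map_star, ← ContinuousLinearMap.mul_apply (M.pi _), ← map_mul, M.eo,
    inner_zero_left]

section core
variable {B : StarSubalgebra ℂ C} (hV : Valid t B PP) {R : ℕ → C} (hR : t.Small R)
  (hs : ∀ m, star (R m) = R m) (h1 : ∀ m, ‖R m‖ ≤ 1)
include hV hR hs h1

theorem I1 {ε : Bool} {y : M.H →L[ℂ] M.H} (hy : Red (M.pi '' B) M.v (M.MZ B) ε y) (j : ℕ) :
    Tendsto (fun m => M.pi (1 - PP ε j) * (1 - M.e ε) * y * M.pi (R m)) atTop (𝓝 0) := by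
  induction hy generalizing j with
  | base ε a ha =>
    obtain ⟨a, -, rfl⟩ := ha
    have := (M.A2 (hV.dec (!ε)) hR hs a j).const_mul (M.v ε)
    rw [mul_zero] at this
    refine this.congr fun m => ?_
    have e1 : M.pi (1 - PP ε j) * M.v ε = M.v ε * M.pi (1 - PP (!ε) j) := by
      simp only [map_sub, map_one, sub_mul, mul_sub, one_mul, mul_one, M.vP]
    have e2 : M.pi (1 - PP (!ε) j) * M.e (!ε) = M.e (!ε) * M.pi (1 - PP (!ε) j) := by
      simp only [map_sub, map_one, sub_mul, mul_sub, one_mul, mul_one, M.ec]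
    rw [mul_assoc (M.pi _) (1 - M.e ε), ← mul_assoc (1 - M.e ε), M.ev, ← mul_assoc (M.pi _),
      ← mul_assoc (M.pi _), e1, mul_assoc (M.v ε) _ (M.e _), e2]
    simp only [map_mul, mul_assoc]
  | step ε ε' a x ha hz _ ih =>
    obtain ⟨a, ha', rfl, h⟩ := M.letter ha hz
    have key : Tendsto (fun m => M.e (!ε) * M.pi a * x * M.pi (R m)) atTop (𝓝 0) := by
      refine tendsto_of_split fun η hη => ?_
      have hb := M.B2 hV (δ := ε') (ε := !ε) ha' fun h' => h' ▸ h h'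
      obtain ⟨i, hi⟩ := ((NormedAddGroup.tendsto_nhds_zero.1 hb) (η / (‖x‖ + 1))
        (by positivity)).exists
      refine ⟨fun m => M.e (!ε) * M.pi (a * PP ε' i) * (1 - M.e ε') * x * M.pi (R m),
        fun m => M.e (!ε) * M.pi a * (M.pi (1 - PP ε' i) * (1 - M.e ε') * x * M.pi (R m)),
        fun m => ?_, Eventually.of_forall fun m => ?_, by simpa using (ih i).const_mul _⟩
      · have := M.ez h
        simp only [map_mul, map_sub, map_one]
        have e : M.e (!ε) * M.pi a = M.e (!ε) * M.pi a * (1 - M.e ε') := by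
          rw [mul_sub, this]; simp
        conv_lhs => rw [e]
        noncomm_ring
      · refine (norm_right_le ((hom_norm_le _ _).trans (h1 m)) _).trans
          ((norm_mul_le _ _).trans ?_)
        have a1 := norm_right_le (M.ep ε').one_sub.norm_le (M.e (!ε) * M.pi (a * PP ε' i))
        rw [lt_div_iff₀ (by positivity)] at hi
        nlinarith [norm_nonneg x, norm_nonneg (M.e (!ε) * M.pi (a * PP ε' i))]
    have := key.const_mul (M.pi (1 - PP ε j) * M.v ε)
    rw [mul_zero] at this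
    refine this.congr fun m => ?_
    have e : (1 - M.e ε) * (M.v ε * M.pi a * x) = M.v ε * M.e (!ε) * M.pi a * x := by
      rw [← M.ev]; simp only [mul_assoc]
    rw [mul_assoc (M.pi (1 - PP ε j)) (1 - M.e ε), e]
    simp only [mul_assoc]

theorem I2 (hC : ∀ ε, ∀ a ∈ B, ∀ b ∈ B, ∀ η > 0, ∃ j, ∀ᶠ m in atTop,
      ‖R m * a * PP ε j‖ * ‖PP (!ε) j * b * R m‖ ≤ η)
    {ε : Bool} {y : M.H →L[ℂ] M.H} (hy : Red (M.pi '' B) M.v (M.MZ B) ε y) {a0 : C}
    (ha0 : a0 ∈ B) {η : ℝ} (hη : 0 < η) :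
    ∃ j, ∀ᶠ m in atTop, ‖M.pi (R m * a0 * PP ε j) * y * M.pi (R m)‖ ≤ η := by
  cases hy with
  | base _ a ha =>
    obtain ⟨a, ha, rfl⟩ := ha
    obtain ⟨j, hj⟩ := hC ε a0 ha0 a ha η hη
    refine ⟨j, hj.mono fun m hm => le_trans ?_ hm⟩
    have e : M.pi (R m * a0 * PP ε j) * (M.v ε * M.pi a) * M.pi (R m) =
        M.pi (R m * a0 * PP ε j) * M.v ε * M.pi (PP (!ε) j * a * R m) := by
      simp only [map_mul, mul_assoc]
      rw [← mul_assoc (M.v ε) (M.pi (PP _ j)), M.vP, mul_assoc, ← mul_assoc (M.pi (PP ε j))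
        (M.pi (PP ε j)), ← map_mul M.pi (PP ε j), ((hV.dec ε).proj j).isIdempotentElem.eq]
    rw [e]
    refine (norm_mul_le _ _).trans (mul_le_mul ((norm_right_le (M.norm_v ε) _).trans
      (hom_norm_le _ _)) (hom_norm_le _ _) (norm_nonneg _) (norm_nonneg _))
  | step _ ε' a x ha hz hx =>
    obtain ⟨a, ha', rfl, h⟩ := M.letter ha hz
    have hK : 0 < (‖a0‖ + 1) * (‖x‖ + 1) := by positivity
    have hb1 := M.B1 hV (δ := !ε) (ε := ε') ha' fun h' => h h'.symm
    have hb0 := hV.B0 (δ := !ε) (ε := ε') ha' fun h' => h h'.symm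
    obtain ⟨j, hj1, hj0⟩ := (((NormedAddGroup.tendsto_nhds_zero.1 hb1)
      (η / 3 / ((‖a0‖ + 1) * (‖x‖ + 1))) (by positivity)).and
      ((NormedAddGroup.tendsto_nhds_zero.1 hb0) (η / 3 / ((‖a0‖ + 1) * (‖x‖ + 1)))
      (by positivity))).exists
    have h3 := (M.I1 hV hR hs h1 hx j).const_mul (M.pi a0 * M.v ε * M.pi (PP (!ε) j * a))
    rw [mul_zero] at h3
    refine ⟨j, ?_⟩
    filter_upwards [(NormedAddGroup.tendsto_nhds_zero.1 h3) (η / 3) (by positivity)] with m hm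
    have e : M.pi (R m * a0 * PP ε j) * (M.v ε * M.pi a * x) * M.pi (R m) =
        M.pi (R m) * (M.pi a0 * M.v ε * (M.pi (PP (!ε) j * a) * M.e ε') * x * M.pi (R m) +
          M.pi a0 * M.v ε * (M.pi (PP (!ε) j * a * PP ε' j) * (1 - M.e ε')) * x * M.pi (R m) +
          M.pi a0 * M.v ε * M.pi (PP (!ε) j * a) *
            (M.pi (1 - PP ε' j) * (1 - M.e ε') * x * M.pi (R m))) := by
      have e1 : M.pi (R m * a0 * PP ε j) * (M.v ε * M.pi a * x) * M.pi (R m) =
          M.pi (R m) * M.pi a0 * (M.pi (PP ε j) * M.v ε) * M.pi a * x * M.pi (R m) := by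
        simp only [map_mul, mul_assoc]
      rw [e1, ← M.vP]
      simp only [map_mul, map_sub, map_one]
      noncomm_ring
    have hb : ∀ z : M.H →L[ℂ] M.H, ‖z‖ < η / 3 / ((‖a0‖ + 1) * (‖x‖ + 1)) →
        ‖M.pi a0 * M.v ε * z * x * M.pi (R m)‖ ≤ η / 3 := by
      intro z hz
      refine (norm_right_le ((hom_norm_le _ _).trans (h1 m)) _).trans ((norm_mul3 _ _ _).trans ?_)
      have a1 := (norm_right_le (M.norm_v ε) (M.pi a0)).trans (hom_norm_le _ _)
      rw [lt_div_iff₀ hK] at hz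
      have a2 : ‖M.pi a0 * M.v ε‖ * ‖z‖ * ‖x‖ ≤ (‖a0‖ + 1) * ‖z‖ * (‖x‖ + 1) := by
        gcongr <;> linarith
      nlinarith
    rw [e]
    refine (norm_left_le ((hom_norm_le _ _).trans (h1 m)) _).trans
      ((norm_add₃_le).trans ?_)
    have b1 := hb _ hj1
    have b2 := hb (M.pi (PP (!ε) j * a * PP ε' j) * (1 - M.e ε'))
      (((norm_right_le (M.ep ε').one_sub.norm_le _).trans (hom_norm_le _ _)).trans_lt hj0)
    linarith

theorem core (hC : ∀ ε, ∀ a ∈ B, ∀ b ∈ B, ∀ η > 0, ∃ j, ∀ᶠ m in atTop,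
      ‖R m * a * PP ε j‖ * ‖PP (!ε) j * b * R m‖ ≤ η)
    {ε : Bool} {y : M.H →L[ℂ] M.H} (hy : Red (M.pi '' B) M.v (M.MZ B) ε y) {a0 : C}
    (ha0 : a0 ∈ B) :
    Tendsto (fun m => M.pi (R m) * (M.pi a0 * y) * M.pi (R m)) atTop (𝓝 0) := by
  refine tendsto_of_split fun η hη => ?_
  obtain ⟨j, hj⟩ := M.I2 hV hR hs h1 hC hy ha0 hη
  refine ⟨_, fun m => M.pi (R m * a0 * (1 - PP ε j)) * M.e ε * y * M.pi (R m) +
    M.pi (R m) * (M.pi a0 * (M.pi (1 - PP ε j) * (1 - M.e ε) * y * M.pi (R m))), fun m => ?_,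
    hj, ?_⟩
  · simp only [map_mul, map_sub, map_one]; noncomm_ring
  · rw [← add_zero (0 : M.H →L[ℂ] M.H)]
    refine Tendsto.add ?_ ?_
    · have := (M.A1 (hV.dec ε) hR a0 j).mul_const y
      rw [zero_mul] at this
      exact squeeze_zero_norm (fun m => norm_right_le ((hom_norm_le _ _).trans (h1 m)) _)
        (tendsto_zero_iff_norm_tendsto_zero.1 this)
    · have := (M.I1 hV hR hs h1 hy j).const_mul (M.pi a0)
      rw [mul_zero] at this
      exact squeeze_zero_norm (fun m => norm_left_le ((hom_norm_le _ _).trans (h1 m)) _)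
        (tendsto_zero_iff_norm_tendsto_zero.1 this)

end core
end Mdl
end Crest.Agent.Nk
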