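import Crest.Agent.Nk.Tower
/-! Global freeness and persistence of excision in the tower. -/
set_option autoImplicit false
set_option linter.deprecated false
set_option linter.unusedSimpArgs false
set_option linter.unusedVariables false
set_option linter.unusedSectionVars false
set_option linter.style.haveILetI false
namespace Crest.Agent.Nk
open scoped InnerProductSpace ComplexConjugate
open Filter Topology

variable {Λ : Type} {S : Sys (GG Λ)}

theorem AA_mono {X Y : Set Λ} (h : X ⊆ Y) : AA S X ≤ AA S Y := galg_mono _ (KK_mono h)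

theorem AA_closed (X : Set Λ) : IsClosed (AA S X : Set S.C) := galg_closed _ _

instance (X : Set Λ) : IsClosed (AA S X : Set S.C) := AA_closed X

theorem mem_AA_univ (x : S.C) : x ∈ AA S Set.univ := by
  rw [AA, KK_univ, S.top]; trivial

theorem uu_mem {X : Set Λ} {γ : Λ} (h : γ ∈ X) (ε : Bool) : uu S γ ε ∈ AA S X := by
  have := of_mem_KK (ok_inr.2 h)
  cases ε
  exacts [mem_galg _ (inv_mem this), mem_galg _ this]

theorem AA_insert {X : Set Λ} {γ : Λ} {x : S.C} (hx : x ∈ AA S (insert γ X)) :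
    x ∈ closure (StarAlgebra.adjoin ℂ ((AA S X : Set S.C) ∪ Set.range (uu S γ)) : Set S.C) := by
  set Γ := StarAlgebra.adjoin ℂ ((AA S X : Set S.C) ∪ Set.range (uu S γ))
  refine galg_le S.ρ (B := Γ.topologicalClosure) (StarSubalgebra.isClosed_topologicalClosure _)
    (fun g hg => StarSubalgebra.le_topologicalClosure _ ?_) hx
  refine KK_induction (fun g => S.ρ g ∈ Γ) (by rw [map_one]; exact one_mem _) (fun l hl g hg => ?_) hg
  have : S.ρ (FreeGroup.of l) ∈ Γ := by
    by_cases h : l = Sum.inr γ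
    · subst h; exact StarAlgebra.subset_adjoin ℂ _ (Or.inr ⟨true, rfl⟩)
    · refine StarAlgebra.subset_adjoin ℂ _ (Or.inl (mem_galg _ (of_mem_KK fun β e => ?_)))
      rcases hl β e with rfl | h'
      exacts [absurd e h, h']
  rw [map_mul, map_mul, ← S.st]
  exact ⟨mul_mem this hg, mul_mem (star_mem this) hg⟩

theorem AA_fin {X : Set Λ} {x : S.C} (hx : x ∈ AA S X) :
    x ∈ closure {y | ∃ F : Finset Λ, (F : Set Λ) ⊆ X ∧ y ∈ AA S F} := by
  classical
  refine galg_induction S.ρ S.st (fun x => x ∈ closure {y | ∃ F : Finset Λ, (F : Set Λ) ⊆ X ∧ y ∈ AA S F})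
    isClosed_closure (subset_closure ⟨∅, by simp, zero_mem _⟩) (fun x y hx hy => ?_)
    (fun c x hx => ?_) (fun g hg => ?_) hx
  · refine map_mem_closure₂ (f := fun a b => a + b) (by fun_prop) hx hy ?_
    rintro a ⟨F, hF, ha⟩ b ⟨F', hF', hb⟩
    exact ⟨F ∪ F', by simp [hF, hF'], add_mem (AA_mono (by simp) ha) (AA_mono (by simp) hb)⟩
  · refine map_mem_closure (f := fun a => c • a) (by fun_prop) hx ?_
    rintro a ⟨F, hF, ha⟩
    exact ⟨F, hF, SMulMemClass.smul_mem c ha⟩
  · obtain ⟨F, h1, h2⟩ := KK_fin hg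
    exact subset_closure ⟨F, h1, mem_galg _ h2⟩

theorem AA_countable {X : Set Λ} {x : S.C} (hx : x ∈ AA S X) :
    ∃ T, T ⊆ X ∧ T.Countable ∧ x ∈ AA S T := by
  obtain ⟨y, hy, hl⟩ := mem_closure_iff_seq_limit.1 (AA_fin hx)
  choose F h1 h2 using hy
  exact ⟨⋃ i, F i, Set.iUnion_subset h1, Set.countable_iUnion fun i => (F i).countable_toSet,
    (AA_closed _).mem_of_tendsto hl (Eventually.of_forall fun i =>
      AA_mono (Set.subset_iUnion (fun i => (F i : Set Λ)) i) (h2 i))⟩

theorem AA_code {X : Set Λ} {x : S.C} (hx : x ∈ AA S X) :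
    ∃ k : ℕ → (GG Λ →₀ ℂ), (∀ i, ∀ g ∈ (k i).support, g ∈ KK X) ∧
      Tendsto (fun i => Finsupp.linearCombination ℂ S.ρ (k i)) atTop (𝓝 x) := by
  obtain ⟨y, hy, hl⟩ := mem_closure_iff_seq_limit.1 (galg_sub_closure S.ρ S.st _ hx)
  choose k h1 h2 using fun i => (Finsupp.mem_span_image_iff_linearCombination ℂ).1 (hy i)
  exact ⟨k, fun i g hg => h1 i hg, by simpa only [h2] using hl⟩

theorem KK_countable {T : Set Λ} (hT : T.Countable) : (KK T : Set (GG Λ)).Countable := by
  haveI := hT.to_subtype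
  refine (Set.countable_range (FreeGroup.map (Sum.map id (Subtype.val : T → Λ)))).mono fun g hg => ?_
  refine KK_induction (fun g => g ∈ (FreeGroup.map (Sum.map id (Subtype.val : T → Λ))).range)
    (one_mem _) (fun l hl g hg => ?_) hg
  have : FreeGroup.of l ∈ (FreeGroup.map (Sum.map id (Subtype.val : T → Λ))).range := by
    rcases l with n | β
    · exact ⟨FreeGroup.of (Sum.inl n), by simp⟩
    · exact ⟨FreeGroup.of (Sum.inr ⟨β, ok_inr.1 hl⟩), by simp⟩
  exact ⟨mul_mem this hg, mul_mem (inv_mem this) hg⟩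

theorem closing_off (σ : GG Λ → Set Λ) (hσ : ∀ g, (σ g).Countable) :
    ∃ T : Set Λ, T.Countable ∧ ∀ g ∈ KK T, σ g ⊆ T := by
  let U : ℕ → Set Λ := fun n => Nat.rec ∅ (fun _ X => X ∪ ⋃ g ∈ (KK X : Set (GG Λ)), σ g) n
  have hU : ∀ n, U (n + 1) = U n ∪ ⋃ g ∈ (KK (U n) : Set (GG Λ)), σ g := fun _ => rfl
  have hc : ∀ n, (U n).Countable := by
    intro n
    induction n with
    | zero => exact Set.countable_empty
    | succ n ih => rw [hU]; exact ih.union ((KK_countable ih).biUnion fun g _ => hσ g)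
  have hm : Monotone U := monotone_nat_of_le_succ fun n => by rw [hU]; exact Set.subset_union_left
  refine ⟨⋃ n, U n, Set.countable_iUnion hc, fun g hg => ?_⟩
  obtain ⟨F, h1, h2⟩ := KK_fin hg
  obtain ⟨n, hn⟩ := hm.directed_le.exists_mem_subset_of_finset_subset_biUnion h1
  refine subset_trans ?_ (Set.subset_iUnion U (n + 1))
  rw [hU]
  exact (Set.subset_biUnion_of_mem (u := σ) (KK_mono hn h2)).trans Set.subset_union_right

variable [LinearOrder Λ] [WellFoundedLT Λ]

theorem set_induction (Φ : Set Λ → Prop) (T : Set Λ) (h0 : Φ ∅)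
    (hm : ∀ X Y, X ⊆ Y → Φ Y → Φ X) (hf : ∀ X, (∀ F : Finset Λ, (F : Set Λ) ⊆ X → Φ F) → Φ X)
    (hs : ∀ β ∈ T, Φ (T ∩ Set.Iio β) → Φ (insert β (T ∩ Set.Iio β))) : Φ T := by
  have key : ∀ X, (∀ γ ∈ X, γ ∈ T ∧ Φ (T ∩ Set.Iio γ)) → Φ X := by
    intro X h
    refine hf X fun F hF => ?_
    rcases F.eq_empty_or_nonempty with rfl | hn
    · simpa using h0
    · obtain ⟨h1, h2⟩ := h _ (hF (F.max'_mem hn))
      refine hm _ _ (fun y hy => ?_) (hs _ h1 h2)
      rcases (F.le_max' y hy).eq_or_lt with e | e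
      exacts [Or.inl e, Or.inr ⟨(h _ (hF hy)).1, e⟩]
  have h1 : ∀ β, Φ (T ∩ Set.Iio β) := by
    intro β
    induction β using WellFoundedLT.induction with
    | ind β ih => exact key _ fun γ hγ => ⟨hγ.1, ih γ hγ.2⟩
  exact key T fun γ hγ => ⟨hγ, h1 γ⟩

theorem exc_gen {PP : Λ → Bool → ℕ → S.C} (S0 : Set Λ) {R : ℕ → S.C} (hR : Dec R)
    (hm : ∀ m, R m ∈ AA S S0) (hs : S.t.Small R) (he : ∀ x ∈ AA S S0, Exc R x)
    (h : ∀ γ ∉ S0, HNN S.t (AA S (S0 ∪ Set.Iio γ)) (uu S γ) (PP γ)) (x : S.C) : Exc R x := by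
  have := set_induction (fun X => ∀ x ∈ AA S (S0 ∪ X), Exc R x) Set.univ (by simpa using he)
    (fun X Y hXY h x hx => h x (AA_mono (Set.union_subset_union_right _ hXY) hx))
    (fun X h x hx => ?_) (fun β _ ih x hx => ?_)
  · exact this x (AA_mono (by simp) (mem_AA_univ x))
  · classical
    refine closure_minimal (t := excSub R) ?_ (isClosed_exc hR.norm_le) (AA_fin hx)
    rintro y ⟨F, hF, hy⟩
    refine h (F.filter (· ∈ X)) (fun z hz => by simp at hz; exact hz.2) y (AA_mono (fun z hz => ?_) hy)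
    rcases hF hz with h | h
    exacts [Or.inl h, Or.inr (by simpa using ⟨hz, h⟩)]
  · rw [Set.univ_inter] at ih hx
    by_cases hβ : β ∈ S0
    · refine ih x (AA_mono ?_ hx)
      rintro z (hz | rfl | hz)
      exacts [Or.inl hz, Or.inl hβ, Or.inr hz]
    · rw [Set.union_insert] at hx
      exact closure_minimal (t := excSub R) (fun y hy => (h β hβ).ep3 hR
        (fun m => AA_mono Set.subset_union_left (hm m)) hs ih hy) (isClosed_exc hR.norm_le)
        (AA_insert hx)

variable {PP : Λ → Bool → ℕ → S.C}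
  (hP : ∀ α, HNN S.t (AA S (Set.Iio α)) (uu S α) (PP α))
include hP

theorem exc_PP (α : Λ) (ε : Bool) (x : S.C) : Exc (PP α ε) x :=
  exc_gen (PP := PP) (Set.Iio α) ((hP α).valid.dec ε) ((hP α).valid.mem ε) ((hP α).valid.small ε)
    ((hP α).valid.exc ε) (fun γ hγ => by
      rw [Set.union_eq_self_of_subset_left (Set.Iio_subset_Iio (not_lt.1 hγ))]; exact hP γ) x

theorem free_closed {T : Set Λ} (hT : ∀ β ∈ T, ∀ ε n, PP β ε n ∈ AA S (T ∩ Set.Iio β)) {α : Λ}
    (hα : α ∉ T) : Free S.t (AA S (Set.Iio α ∪ T)) (uu S α) (PP α) := by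
  have hV := (hP α).valid
  refine set_induction (fun X => Free S.t (AA S (Set.Iio α ∪ X)) (uu S α) (PP α)) T
    (by simpa using (hP α).free)
    (fun X Y hXY h ε x hx => h ε x (hx.mono (AA_mono (Set.union_subset_union_right _ hXY))))
    (fun X h => ?_) (fun β hβ ih => ?_)
  · classical
    let W : Set S.C := {y | ∃ F : Finset Λ, (F : Set Λ) ⊆ X ∧ y ∈ AA S (Set.Iio α ∪ F)}
    have hW : Free S.t W (uu S α) (PP α) := by
      intro ε x hx
      have : ∃ F : Finset Λ, (F : Set Λ) ⊆ X ∧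
          Red (AA S (Set.Iio α ∪ F)) (uu S α) (ZZ S.t (PP α)) ε x := by
        induction hx with
        | base ε a ha => obtain ⟨F, hF, ha⟩ := ha; exact ⟨F, hF, .base ε a ha⟩
        | step ε ε' a x ha hz _ ih =>
          obtain ⟨F, hF, ha⟩ := ha
          obtain ⟨F', hF', hx⟩ := ih
          exact ⟨F ∪ F', by simp [hF, hF'], .step ε ε' a x
            (AA_mono (Set.union_subset_union_right _ (by simp)) ha) hz
            (hx.mono (AA_mono (Set.union_subset_union_right _ (by simp))))⟩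
      obtain ⟨F, hF, hx⟩ := this
      exact h F hF ε x hx
    have hc := hW.closure hV.dec hV.small (fun ε x _ => exc_PP hP α ε x) (by
      rintro ε a ⟨F, hF, ha⟩ z hz
      exact ⟨F, hF, sub_mem ha (AA_mono Set.subset_union_left
        (DD_mem' hz _ (AA_closed _) hV.mem).1)⟩)
    refine fun ε x hx => hc ε x (hx.mono fun y hy => closure_mono ?_ (AA_fin hy))
    rintro y ⟨F, hF, hy⟩
    refine ⟨F.filter (· ∈ X), fun z hz => by simp at hz; exact hz.2, AA_mono (fun z hz => ?_) hy⟩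
    rcases hF hz with h | h
    exacts [Or.inl h, Or.inr (by simpa using ⟨hz, h⟩)]
  · rcases lt_trichotomy β α with h | h | h
    · refine fun ε x hx => ih ε x (hx.mono (AA_mono ?_))
      rintro z (hz | rfl | hz)
      exacts [Or.inl hz, Or.inl h, Or.inr hz]
    · exact absurd (h ▸ hβ) hα
    · have hle : AA S (Set.Iio α ∪ T ∩ Set.Iio β) ≤ AA S (Set.Iio β) :=
        AA_mono (Set.union_subset (Set.Iio_subset_Iio h.le) Set.inter_subset_right)
      have hQ : ∀ ε n, PP β ε n ∈ AA S (Set.Iio α ∪ T ∩ Set.Iio β) :=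
        fun ε n => AA_mono Set.subset_union_right (hT β hβ ε n)
      have h1 := free_WW ih (hP β) hle (uu_mem h)
        (fun ε n => AA_mono (Set.Iio_subset_Iio h.le) (hV.mem ε n)) hQ
      have hc := h1.closure hV.dec hV.small (fun ε x _ => exc_PP hP α ε x) (fun ε a ha z hz =>
        sub_mem ha (mem_WW_of_mem (AA_mono Set.subset_union_left
          (DD_mem' hz _ (AA_closed _) hV.mem).1)))
      refine fun ε x hx => hc ε x (hx.mono fun y hy => ?_)
      rw [Set.union_insert] at hy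
      exact closure_mono (fun z hz => ((hP β).mono hle (AA_closed _) hQ).mem_WW hz) (AA_insert hy)

theorem exc_closed {T : Set Λ} (hT : ∀ β ∈ T, ∀ ε n, PP β ε n ∈ AA S (T ∩ Set.Iio β))
    {R : ℕ → S.C} (hR : Dec R) (hm : ∀ m, R m ∈ AA S T) (hs : S.t.Small R)
    (he : ∀ x ∈ AA S T, Exc R x) (x : S.C) : Exc R x := by
  refine exc_gen (PP := PP) T hR hm hs he (fun γ hγ => ?_) x
  have hf := free_closed hP hT hγ
  rw [Set.union_comm] at hf
  have h := hP γ
  refine ⟨AA_closed _, ⟨h.valid.dec, h.valid.small, h.valid.eq,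
    fun ε n => AA_mono Set.subset_union_right (h.valid.mem ε n), fun ε x _ => exc_PP hP γ ε x,
    fun ε x hx => ?_⟩, h.uu, h.us, h.uP, hf⟩
  have h1 := S.t.tendsto_of_cen (h.valid.dec ε) (exc_PP hP γ ε (x * uu S γ (!ε))) (fun n => by
    rw [mul_assoc, S.t.τ_comm, mul_assoc]
    exact hf _ _ (Red.base _ _ (mul_mem (AA_mono Set.subset_union_right (h.valid.mem ε n)) hx)))
  have h2 := h1.mul_const (uu S γ ε)
  rw [zero_mul] at h2
  refine h2.congr fun n => ?_
  rw [mul_assoc, ← h.uP, mul_assoc, mul_assoc, ← mul_assoc (uu S γ (!ε)), h.uu, one_mul, mul_assoc]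

end Crest.Agent.Nk
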