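import Crest.Agent.Nk.Claim
/-! Traces on groups and their GNS systems. -/
set_option autoImplicit false
set_option linter.deprecated false
set_option linter.unusedSimpArgs false
set_option linter.unusedVariables false
namespace Crest.Agent.Nk
open scoped InnerProductSpace ComplexConjugate
open Filter Topology

variable {G : Type} [Group G]

/-- normalised positive definite class function -/
structure GTr (m : G → ℂ) : Prop where
  one : m 1 = 1
  comm : ∀ g h, m (g * h) = m (h * g)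
  herm : ∀ g, m g⁻¹ = conj (m g)
  pos : ∀ f : G →₀ ℂ, 0 ≤ (f.sum fun a x => f.sum fun b y => conj x * y * m (a⁻¹ * b)).re

/-- pre-Hilbert space of a trace -/
@[nolint unusedArguments]
def PreG {m : G → ℂ} (hm : GTr m) : Type := G →₀ ℂ

noncomputable instance {m : G → ℂ} (hm : GTr m) : AddCommGroup (PreG hm) :=
  inferInstanceAs (AddCommGroup (G →₀ ℂ))
noncomputable instance {m : G → ℂ} (hm : GTr m) : Module ℂ (PreG hm) :=
  inferInstanceAs (Module ℂ (G →₀ ℂ))

/-- the form -/
noncomputable def form (m : G → ℂ) (f g : G →₀ ℂ) : ℂ :=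
  f.sum fun a x => g.sum fun b y => conj x * y * m (a⁻¹ * b)

/-- the inner product core -/
noncomputable abbrev preCore {m : G → ℂ} (hm : GTr m) : PreInnerProductSpace.Core ℂ (PreG hm) where
  inner f g := form m f g
  conj_inner_symm f g := by
    unfold form
    rw [Finsupp.sum_comm]
    simp only [map_finsuppSum]
    refine Finsupp.sum_congr fun a _ => Finsupp.sum_congr fun b _ => ?_
    rw [map_mul, map_mul, Complex.conj_conj, ← hm.herm, mul_inv_rev, inv_inv]; ring
  add_left f g h := by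
    unfold form
    exact Finsupp.sum_add_index' (f := f) (g := g) (by simp) (by simp [← Finsupp.sum_add, add_mul])
  smul_left f g r := by
    unfold form
    refine (Finsupp.sum_smul_index (g := f) (b := r) (by simp)).trans ?_
    simp [Finsupp.mul_sum, ← mul_assoc]
  re_inner_nonneg f := hm.pos f

noncomputable instance {m : G → ℂ} (hm : GTr m) : SeminormedAddCommGroup (PreG hm) :=
  InnerProductSpace.Core.toSeminormedAddCommGroup (c := preCore hm)
noncomputable instance {m : G → ℂ} (hm : GTr m) : InnerProductSpace ℂ (PreG hm) :=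
  InnerProductSpace.ofCore (preCore hm)

theorem exists_kernel_space {m : G → ℂ} (hm : GTr m) :
    ∃ (H : Type) (_ : NormedAddCommGroup H) (_ : InnerProductSpace ℂ H) (_ : CompleteSpace H)
      (δ : G → H), (∀ a b, ⟪δ a, δ b⟫_ℂ = m (a⁻¹ * b)) ∧
        DenseRange (Finsupp.linearCombination ℂ δ) := by
  let j : (G →₀ ℂ) →ₗ[ℂ] PreG hm := LinearMap.id
  let k : (G →₀ ℂ) →ₗ[ℂ] UniformSpace.Completion (PreG hm) :=
    (UniformSpace.Completion.toComplL (𝕜 := ℂ)).toLinearMap ∘ₗ j
  refine ⟨UniformSpace.Completion (PreG hm), inferInstance, inferInstance, inferInstance,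
    fun g => k (Finsupp.single g 1), fun a b => ?_, ?_⟩
  · change ⟪((j (Finsupp.single a 1) : PreG hm) : UniformSpace.Completion (PreG hm)),
      ((j (Finsupp.single b 1) : PreG hm) : UniformSpace.Completion (PreG hm))⟫_ℂ = _
    rw [UniformSpace.Completion.inner_coe]
    change form m (Finsupp.single a 1) (Finsupp.single b 1) = _
    simp [form]
  · have : Finsupp.linearCombination ℂ (fun g => k (Finsupp.single g 1)) = k := by
      refine Finsupp.lhom_ext' fun g => LinearMap.ext_ring ?_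
      simp
    rw [this]
    exact UniformSpace.Completion.denseRange_coe (α := PreG hm)

omit [Group G] in
theorem inner_lc {H : Type} [NormedAddCommGroup H] [InnerProductSpace ℂ H] (δ : G → H)
    (f g : G →₀ ℂ) : ⟪Finsupp.linearCombination ℂ δ f, Finsupp.linearCombination ℂ δ g⟫_ℂ =
      f.sum fun a x => g.sum fun b y => conj x * y * ⟪δ a, δ b⟫_ℂ := by
  simp only [Finsupp.linearCombination_apply, Finsupp.sum_inner, Finsupp.inner_sum,
    inner_smul_left, inner_smul_right]
  rw [Finsupp.sum_comm]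
  refine Finsupp.sum_congr fun a _ => ?_
  simp only [Finsupp.mul_sum]
  exact Finsupp.sum_congr fun b _ => by ring

theorem exists_rep {m : G → ℂ} (hm : GTr m) :
    ∃ (H : Type) (_ : NormedAddCommGroup H) (_ : InnerProductSpace ℂ H) (_ : CompleteSpace H)
      (σ : G →* (H →L[ℂ] H)) (o : H), (∀ g, star (σ g) = σ g⁻¹) ∧ (∀ g, ⟪o, σ g o⟫_ℂ = m g) ∧
        Dense (Submodule.span ℂ (Set.range fun g => σ g o) : Set H) := by
  obtain ⟨H, _, _, _, δ, hδ, hd⟩ := exists_kernel_space hm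
  have hsp : Dense (Submodule.span ℂ (Set.range δ) : Set H) := by
    rw [← Finsupp.range_linearCombination]; exact hd
  have hn : ∀ (g : G) (f : G →₀ ℂ), ‖Finsupp.linearCombination ℂ δ
      (Finsupp.domLCongr (R := ℂ) (Equiv.mulLeft g) f)‖ = ‖Finsupp.linearCombination ℂ δ f‖ := by
    intro g f
    rw [norm_eq_sqrt_re_inner (𝕜 := ℂ), norm_eq_sqrt_re_inner (𝕜 := ℂ), inner_lc, inner_lc]
    simp [Finsupp.sum_equivMapDomain, hδ, mul_assoc]
  let U : G → H ≃ₗᵢ[ℂ] H := fun g =>
    (Finsupp.domLCongr (R := ℂ) (M := ℂ) (Equiv.mulLeft g)).extendOfIsometry _ _ hd hd (hn g)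
  have hU : ∀ g h, U g (δ h) = δ (g * h) := by
    intro g h
    have := LinearEquiv.extendOfIsometry_eq (Finsupp.domLCongr (R := ℂ) (M := ℂ) (Equiv.mulLeft g))
      _ _ hd hd (hn g) (Finsupp.single h 1)
    simpa using this
  let σ : G →* (H →L[ℂ] H) :=
    { toFun := fun g => (U g : H →L[ℂ] H)
      map_one' := ContinuousLinearMap.ext_on hsp (by rintro _ ⟨h, rfl⟩; simp [hU])
      map_mul' := fun a b => ContinuousLinearMap.ext_on hsp (by
        rintro _ ⟨h, rfl⟩; simp [hU, mul_assoc]) }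
  have hσ : ∀ g h, σ g (δ h) = δ (g * h) := hU
  refine ⟨H, _, _, ‹_›, σ, δ 1, fun g => ?_, fun g => by rw [hσ, hδ]; simp, by simpa [hσ] using hsp⟩
  change star (U g : H →L[ℂ] H) = _
  rw [LinearIsometryEquiv.star_eq_symm]
  refine ContinuousLinearMap.ext_on hsp ?_
  rintro _ ⟨h, rfl⟩
  rw [hσ]
  change (U g).symm (δ h) = _
  rw [LinearIsometryEquiv.symm_apply_eq, hU]; simp

section alg
variable {D : Type} [CStarAlgebra D]

/-- the C⋆-algebra generated by the image of a subgroup -/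
noncomputable def galg (ρ : G →* D) (K : Subgroup G) : StarSubalgebra ℂ D :=
  (StarAlgebra.adjoin ℂ (ρ '' K)).topologicalClosure

theorem galg_closed (ρ : G →* D) (K : Subgroup G) : IsClosed (galg ρ K : Set D) :=
  StarSubalgebra.isClosed_topologicalClosure _

instance (ρ : G →* D) (K : Subgroup G) : IsClosed (galg ρ K : Set D) := galg_closed ρ K

theorem mem_galg (ρ : G →* D) {K : Subgroup G} {g : G} (hg : g ∈ K) : ρ g ∈ galg ρ K :=
  StarSubalgebra.le_topologicalClosure _ (StarAlgebra.subset_adjoin ℂ _ ⟨g, hg, rfl⟩)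

theorem galg_le (ρ : G →* D) {K : Subgroup G} {B : StarSubalgebra ℂ D} (hB : IsClosed (B : Set D))
    (h : ∀ g ∈ K, ρ g ∈ B) : galg ρ K ≤ B :=
  StarSubalgebra.topologicalClosure_minimal
    (StarAlgebra.adjoin_le (by rintro _ ⟨g, hg, rfl⟩; exact h g hg)) hB

theorem galg_mono (ρ : G →* D) {K L : Subgroup G} (h : K ≤ L) : galg ρ K ≤ galg ρ L :=
  galg_le ρ (galg_closed ρ L) fun g hg => mem_galg ρ (h hg)

theorem adjoin_sub_span {E : Type} [Ring E] [Algebra ℂ E] [StarRing E] [StarModule ℂ E]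
    (ρ : G →* E) (hs : ∀ g, star (ρ g) = ρ g⁻¹) (K : Subgroup G) {x : E}
    (hx : x ∈ StarAlgebra.adjoin ℂ (ρ '' K)) : x ∈ Submodule.span ℂ (ρ '' K) := by
  induction hx using StarAlgebra.adjoin_induction with
  | mem x hx => exact Submodule.subset_span hx
  | algebraMap r =>
    rw [Algebra.algebraMap_eq_smul_one]
    exact Submodule.smul_mem _ _ (Submodule.subset_span ⟨1, one_mem K, map_one ρ⟩)
  | add x y _ _ hx hy => exact add_mem hx hy
  | mul x y _ _ hx hy =>
    have h5 := Submodule.mul_mem_mul hx hy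
    rw [Submodule.span_mul_span] at h5
    refine Submodule.span_mono (t := ρ '' K) ?_ h5
    rintro _ ⟨_, ⟨a, ha, rfl⟩, _, ⟨b, hb, rfl⟩, rfl⟩
    exact ⟨a * b, mul_mem ha hb, map_mul ρ a b⟩
  | star x h0 hx =>
    clear h0
    induction hx using Submodule.span_induction with
    | mem x hx => obtain ⟨g, hg, rfl⟩ := hx; exact Submodule.subset_span ⟨g⁻¹, inv_mem hg, (hs g).symm⟩
    | zero => simp
    | add x y _ _ hx hy => rw [star_add]; exact add_mem hx hy
    | smul c x _ hx => rw [star_smul]; exact Submodule.smul_mem _ _ hx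

theorem galg_sub_closure (ρ : G →* D) (hs : ∀ g, star (ρ g) = ρ g⁻¹) (K : Subgroup G) {x : D}
    (hx : x ∈ galg ρ K) : x ∈ closure (Submodule.span ℂ (ρ '' K) : Set D) :=
  closure_mono (fun y hy => adjoin_sub_span ρ hs K hy) hx

theorem galg_induction (ρ : G →* D) (hs : ∀ g, star (ρ g) = ρ g⁻¹) {K : Subgroup G}
    (p : D → Prop) (hc : IsClosed {x | p x}) (h0 : p 0) (hadd : ∀ x y, p x → p y → p (x + y))
    (hsm : ∀ (c : ℂ) x, p x → p (c • x)) (hg : ∀ g ∈ K, p (ρ g)) {x : D} (hx : x ∈ galg ρ K) :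
    p x := by
  refine closure_minimal (t := {x | p x}) (fun y hy => ?_) hc (galg_sub_closure ρ hs K hx)
  induction hy using Submodule.span_induction with
  | mem x hx => obtain ⟨g, h, rfl⟩ := hx; exact hg g h
  | zero => exact h0
  | add x y _ _ hx hy => exact hadd x y hx hy
  | smul c x _ hx => exact hsm c x hx

theorem galg_sub_of_submodule (ρ : G →* D) (hs : ∀ g, star (ρ g) = ρ g⁻¹) {K : Subgroup G}
    (W : Submodule ℂ D) (hg : ∀ g ∈ K, ρ g ∈ W) {x : D} (hx : x ∈ galg ρ K) :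
    x ∈ closure (W : Set D) :=
  closure_mono (Submodule.span_le.2 (by rintro _ ⟨g, h, rfl⟩; exact hg g h))
    (galg_sub_closure ρ hs K hx)

end alg

/-- a tracial system generated by a unitary representation of `G` -/
structure Sys (G : Type) [Group G] where
  C : Type
  [i : CStarAlgebra C]
  t : TS C
  ρ : G →* C
  st : ∀ g, star (ρ g) = ρ g⁻¹
  top : galg ρ ⊤ = ⊤

attribute [instance] Sys.i

theorem exists_sys {m : G → ℂ} (hm : GTr m) : ∃ S : Sys G, ∀ g, S.t.τ (S.ρ g) = m g := by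
  obtain ⟨H, _, _, _, σ, o, hs, ho, hd⟩ := exists_rep hm
  let A := galg σ ⊤
  have htr : ∀ x ∈ A, ∀ y ∈ A, ⟪o, (x * y) o⟫_ℂ = ⟪o, (y * x) o⟫_ℂ := by
    intro x hx y hy
    refine galg_induction σ hs (fun x => ⟪o, (x * y) o⟫_ℂ = ⟪o, (y * x) o⟫_ℂ)
      (isClosed_eq (by fun_prop) (by fun_prop)) (by simp) (fun a b ha hb => ?_)
      (fun c a ha => ?_) (fun g _ => ?_) hx
    · simp only [add_mul, mul_add, ContinuousLinearMap.add_apply, inner_add_right, ha, hb]
    · simp only [smul_mul_assoc, mul_smul_comm, ContinuousLinearMap.smul_apply, inner_smul_right, ha]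
    · refine galg_induction σ hs (fun y => ⟪o, (σ g * y) o⟫_ℂ = ⟪o, (y * σ g) o⟫_ℂ)
        (isClosed_eq (by fun_prop) (by fun_prop)) (by simp) (fun a b ha hb => ?_)
        (fun c a ha => ?_) (fun h _ => ?_) hy
      · simp only [add_mul, mul_add, ContinuousLinearMap.add_apply, inner_add_right, ha, hb]
      · simp only [smul_mul_assoc, mul_smul_comm, ContinuousLinearMap.smul_apply,
          inner_smul_right, ha]
      · rw [← map_mul, ← map_mul, ho, ho, hm.comm]
  have hsq : ∀ x : H →L[ℂ] H, ⟪o, (star x * x) o⟫_ℂ = ⟪x o, x o⟫_ℂ := fun x => by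
    rw [ContinuousLinearMap.mul_apply, ContinuousLinearMap.star_eq_adjoint,
      ContinuousLinearMap.adjoint_inner_right]
  let ρ : G →* A := σ.codRestrict A fun g => mem_galg σ (Subgroup.mem_top g)
  let t : TS A :=
    { Y := H
      lam := A.subtype
      om := o
      norm_om := by
        have := ho 1
        rw [map_one, hm.one, ContinuousLinearMap.one_apply, inner_self_eq_norm_sq_to_K] at this
        have h2 : ‖o‖ ^ 2 = 1 := by
          have := congrArg norm this
          simpa using this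
        exact (pow_eq_one_iff_of_nonneg (norm_nonneg _) two_ne_zero).1 h2
      tr := fun x y => htr x x.2 y y.2
      faith := fun x hx => by
        refine Subtype.ext (ContinuousLinearMap.ext_on hd ?_)
        rintro _ ⟨g, rfl⟩
        have hg : σ g ∈ A := mem_galg σ (Subgroup.mem_top g)
        have h1 := hsq (x.1 * σ g)
        rw [star_mul, mul_assoc, htr _ (star_mem hg) _ (mul_mem (star_mem x.2) (mul_mem x.2 hg)),
          mul_assoc, mul_assoc, hs, ← map_mul, mul_inv_cancel, map_one, mul_one, hsq] at h1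
        have hx' : x.1 o = 0 := hx
        rw [hx', inner_zero_left, eq_comm, inner_self_eq_zero] at h1
        exact h1
      cyc := by
        refine hd.mono fun v hv => ?_
        induction hv using Submodule.span_induction with
        | mem v hv => obtain ⟨g, rfl⟩ := hv; exact ⟨ρ g, rfl⟩
        | zero => exact ⟨0, by simp⟩
        | add x y _ _ hx hy =>
          obtain ⟨a, rfl⟩ := hx; obtain ⟨b, rfl⟩ := hy; exact ⟨a + b, by simp⟩
        | smul c x _ hx => obtain ⟨a, rfl⟩ := hx; exact ⟨c • a, by simp⟩ }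
  refine ⟨⟨A, t, ρ, fun g => Subtype.ext (hs g), ?_⟩, ho⟩
  rw [StarSubalgebra.eq_top_iff]
  intro x
  have hcl : IsClosed ((galg ρ ⊤).map A.subtype : Set (H →L[ℂ] H)) :=
    (galg_closed σ ⊤).isClosedEmbedding_subtypeVal.isClosedMap _ (galg_closed ρ ⊤)
  obtain ⟨y, hy, hxy⟩ := galg_le σ hcl (fun g hg => ⟨ρ g, mem_galg ρ hg, rfl⟩) x.2
  rwa [← Subtype.ext hxy]

theorem gtr_of_rep {H : Type} [NormedAddCommGroup H] [InnerProductSpace ℂ H] [CompleteSpace H]
    (σ : G →* (H →L[ℂ] H)) (hs : ∀ g, star (σ g) = σ g⁻¹) (o : H) (ho : ‖o‖ = 1)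
    (hc : ∀ g h, ⟪o, σ (g * h) o⟫_ℂ = ⟪o, σ (h * g) o⟫_ℂ) : GTr fun g => ⟪o, σ g o⟫_ℂ := by
  have h1 : ∀ a b, ⟪o, σ (a⁻¹ * b) o⟫_ℂ = ⟪σ a o, σ b o⟫_ℂ := fun a b => by
    rw [map_mul, ← hs, ContinuousLinearMap.mul_apply, ContinuousLinearMap.star_eq_adjoint,
      ContinuousLinearMap.adjoint_inner_right]
  refine ⟨by simp [ho], hc, fun g => ?_, fun f => ?_⟩
  · have := h1 g 1
    rw [mul_one, map_one, ContinuousLinearMap.one_apply] at this
    rw [this, inner_conj_symm]
  · simp only [h1]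
    rw [← inner_lc]
    exact inner_self_nonneg (𝕜 := ℂ)

/-- transfer of a representation with the same moments -/
theorem exists_transfer {D : Type} [CStarAlgebra D] (σ : G →* D) (hs : ∀ g, star (σ g) = σ g⁻¹)
    (f : D →L[ℂ] ℂ) (hf : ∀ y, ‖f y‖ ≤ ‖y‖) (S : Sys G) (K : Subgroup G)
    (h : ∀ g ∈ K, S.t.τ (S.ρ g) = f (σ g)) :
    ∃ Ψ : galg σ K →⋆ₐ[ℂ] S.C, (∀ g (hg : g ∈ K), Ψ ⟨σ g, mem_galg σ hg⟩ = S.ρ g) ∧
      ∀ y, S.t.τ (Ψ y) = f y := by
  let Γ := galg (S.ρ.prod σ) K
  have hst : ∀ g, star (S.ρ.prod σ g) = S.ρ.prod σ g⁻¹ := fun g => Prod.ext (S.st g) (hs g)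
  have h1 : ∀ z ∈ Γ, S.t.τ z.1 = f z.2 := fun z hz =>
    galg_induction _ hst (fun z => S.t.τ z.1 = f z.2) (isClosed_eq (by fun_prop) (by fun_prop))
      (by simp) (fun a b ha hb => by simp [ha, hb]) (fun c a ha => by simp [ha]) h hz
  have h2 : ∀ z ∈ Γ, ‖z.1‖ ≤ ‖z.2‖ := fun z hz => S.t.norm_le_of_pair f hf Γ h1 hz
  have h3 : ∀ z ∈ Γ, z.2 ∈ galg σ K := fun z hz =>
    galg_le (S.ρ.prod σ) (B := (galg σ K).comap (StarAlgHom.snd ℂ S.C D))
      ((galg_closed σ K).preimage continuous_snd) (fun g hg => mem_galg σ hg) hz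
  let p : Γ →⋆ₐ[ℂ] D := (StarAlgHom.snd ℂ S.C D).comp Γ.subtype
  have hp : ∀ z : Γ, ‖p z‖ = ‖z‖ := fun z => by
    change ‖z.1.2‖ = ‖z.1‖
    rw [Prod.norm_def, max_eq_right (h2 _ z.2)]
  have hiso : Isometry p := AddMonoidHomClass.isometry_of_norm p hp
  haveI : CompleteSpace Γ := (galg_closed _ K).completeSpace_coe
  have h4 : galg σ K ≤ p.range :=
    galg_le σ hiso.isClosedEmbedding.isClosed_range fun g hg => ⟨⟨_, mem_galg _ hg⟩, rfl⟩
  let q : Γ →⋆ₐ[ℂ] galg σ K := p.codRestrict _ fun z => h3 _ z.2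
  have hq : Function.Bijective q :=
    ⟨fun a b hab => hiso.injective (congrArg Subtype.val hab), fun y => by
      obtain ⟨z, hz⟩ := h4 y.2
      exact ⟨z, Subtype.ext hz⟩⟩
  let e := StarAlgEquiv.ofBijective q hq
  refine ⟨((StarAlgHom.fst ℂ S.C D).comp Γ.subtype).comp (e.symm : galg σ K →⋆ₐ[ℂ] Γ),
    fun g hg => ?_, fun y => ?_⟩
  · have : e.symm ⟨σ g, mem_galg σ hg⟩ = ⟨_, mem_galg (S.ρ.prod σ) hg⟩ := by
      rw [StarAlgEquiv.symm_apply_eq]; rfl
    change (e.symm ⟨σ g, mem_galg σ hg⟩).1.1 = _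
    rw [this]; rfl
  · change S.t.τ (e.symm y).1.1 = _
    rw [h1 _ (e.symm y).2]
    have : q (e.symm y) = y := e.apply_symm_apply y
    exact congrArg (fun w : galg σ K => f w) this

end Crest.Agent.Nk
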