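import Crest.Agent.Nk.EP
/-! HNN extensions inside a tracial system; traciality of the model. -/
set_option autoImplicit false
set_option linter.deprecated false
set_option linter.unusedSimpArgs false
set_option linter.unusedVariables false
namespace Crest.Agent.Nk
open scoped InnerProductSpace ComplexConjugate
open Filter Topology

variable {C : Type} [CStarAlgebra C]

/-- `u` generates a reduced HNN extension of `B` along `PP` -/
structure HNN (t : TS C) (B : StarSubalgebra ℂ C) (u : Bool → C) (PP : Bool → ℕ → C) : Prop where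
  closed : IsClosed (B : Set C)
  valid : Valid t B PP
  uu : ∀ ε, u (!ε) * u ε = 1
  us : ∀ ε, star (u ε) = u (!ε)
  uP : ∀ ε n, u ε * PP (!ε) n = PP ε n * u ε
  free : Free t B u PP

theorem DD_mem' {PP : Bool → ℕ → C} {ε : Bool} {z : C × C} (hz : z ∈ DD PP ε)
    (B : StarSubalgebra ℂ C) (hB : IsClosed (B : Set C)) (hm : ∀ ε n, PP ε n ∈ B) :
    z.1 ∈ B ∧ z.2 ∈ B := DD_mem hz B.toSubalgebra.toSubmodule hB hm

theorem Valid.mono {t : TS C} {B B' : Set C} {PP : Bool → ℕ → C} (hV : Valid t B PP) (h : B' ⊆ B)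
    (hm : ∀ ε n, PP ε n ∈ B') : Valid t B' PP :=
  ⟨hV.dec, hV.small, hV.eq, hm, fun ε x hx => hV.exc ε x (h hx), fun ε x hx => hV.orth ε x (h hx)⟩

theorem HNN.mono {t : TS C} {B B' : StarSubalgebra ℂ C} {u : Bool → C} {PP : Bool → ℕ → C}
    (h : HNN t B u PP) (hle : B' ≤ B) (hc : IsClosed (B' : Set C)) (hm : ∀ ε n, PP ε n ∈ B') :
    HNN t B' u PP :=
  ⟨hc, h.valid.mono hle hm, h.uu, h.us, h.uP, fun ε x hx => h.free ε x (hx.mono hle)⟩

theorem HNN.dec {t : TS C} {B : StarSubalgebra ℂ C} {u : Bool → C} {PP : Bool → ℕ → C}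
    (h : HNN t B u PP) : ∀ ε, ∀ a ∈ (B : Set C), ∃ d, ∃ d' ∈ (B : Set C), a - d ∈ (B : Set C) ∧
      ZZ t PP ε (a - d) ∧ u (!ε) * d = d' * u (!ε) := by
  intro ε a ha
  obtain ⟨z, hz, hc⟩ := h.valid.decomp ε ha
  obtain ⟨h1, h2⟩ := DD_mem' hz B h.closed h.valid.mem
  exact ⟨z.1, z.2, h2, sub_mem ha h1, hc,
    DD_int hz (StarAlgHom.id ℂ C) (u (!ε)) fun n => by simpa using h.uP (!ε) n⟩

theorem HNN.mem_WW {t : TS C} {B : StarSubalgebra ℂ C} {u : Bool → C} {PP : Bool → ℕ → C}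
    (h : HNN t B u PP) {z : C} (hz : z ∈ StarAlgebra.adjoin ℂ ((B : Set C) ∪ Set.range u)) :
    z ∈ WW (B : Set C) u (ZZ t PP) :=
  mem_WW_of_adjoin (one_mem B) (fun a ha b hb => mul_mem ha hb) (fun a ha => star_mem ha)
    h.uu h.us h.dec hz

theorem HNN.free' {t : TS C} {B : StarSubalgebra ℂ C} {u : Bool → C} {PP : Bool → ℕ → C}
    (h : HNN t B u PP) {ε : Bool} {x a : C} (hx : Red B u (ZZ t PP) ε x) (ha : a ∈ B) :
    t.τ (a * x) = 0 := by
  rw [t.τ_comm]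
  exact h.free ε _ (hx.mul_right subset_rfl fun b hb => mul_mem hb ha)

namespace Mdl
variable {t : TS C} {PP : Bool → ℕ → C} (M : Mdl t PP)

/-- graph of the model representation -/
def gr (B : Set C) : Set (C × (M.H →L[ℂ] M.H)) := {z | z.1 ∈ B ∧ z.2 = M.pi z.1}

theorem pair_red {B : Set C} {u : Bool → C} {ε : Bool} {z : C × (M.H →L[ℂ] M.H)}
    (hz : Red (M.gr B) (fun ε => (u ε, M.v ε)) (fun ε z => t.Cen (PP ε) z.1) ε z) :
    Red B u (ZZ t PP) ε z.1 ∧ Red (M.pi '' B) M.v (M.MZ B) ε z.2 :=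
  ⟨hz.map Prod.fst (fun _ _ => rfl) (fun _ => rfl) (fun a ha => ha.1) (fun _ _ _ h => h),
    hz.map Prod.snd (fun _ _ => rfl) (B' := M.pi '' B) (Z' := M.MZ B) (fun _ => rfl)
      (fun a ha => ⟨a.1, ha.1, ha.2.symm⟩)
      (fun _ a ha h => ⟨a.1, ha.1, ha.2.symm, h⟩)⟩

theorem pair_norm {B : StarSubalgebra ℂ C} {u : Bool → C} (h : HNN t B u PP)
    {z : C × (M.H →L[ℂ] M.H)}
    (hz : z ∈ StarAlgebra.adjoin ℂ (M.gr B ∪ Set.range fun ε => (u ε, M.v ε))) :
    ‖z.1‖ ≤ ‖z.2‖ := by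
  refine t.norm_le_of_pair (fun y => ⟪M.om, y M.om⟫_ℂ) (fun y => ?_) _ (fun w hw => ?_) hz
  · have h1 := norm_inner_le_norm (𝕜 := ℂ) M.om (y M.om)
    have h2 := y.le_opNorm M.om
    rw [M.norm_om] at h1 h2
    linarith
  · have hW : w ∈ WW (M.gr B) (fun ε => (u ε, M.v ε)) (fun ε z => t.Cen (PP ε) z.1) := by
      refine mem_WW_of_adjoin (B := M.gr B) (v := fun ε => (u ε, M.v ε))
        (Z := fun ε z => t.Cen (PP ε) z.1) ⟨one_mem B, (map_one M.pi).symm⟩
        (fun a ha b hb => ⟨mul_mem ha.1 hb.1, ?_⟩)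
        (fun a ha => ⟨star_mem ha.1, ?_⟩) (fun ε => ?_) (fun ε => ?_) (fun ε a ha => ?_) hw
      · rw [Prod.snd_mul, Prod.fst_mul, map_mul, ha.2, hb.2]
      · rw [Prod.snd_star, Prod.fst_star, map_star, ha.2]
      · rw [Prod.mk_mul_mk, h.uu, M.vv]; rfl
      · rw [Prod.star_def, h.us, M.vs]
      · obtain ⟨z, hz, hc⟩ := h.valid.decomp ε ha.1
        obtain ⟨h1, h2⟩ := DD_mem' hz B h.closed h.valid.mem
        refine ⟨(z.1, M.pi z.1), (z.2, M.pi z.2), ⟨h2, rfl⟩, ⟨sub_mem ha.1 h1, by simp [ha.2]⟩, hc,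
          Prod.ext (DD_int hz (StarAlgHom.id ℂ C) (u (!ε)) fun n => by simpa using h.uP (!ε) n)
            (DD_int hz M.pi (M.v (!ε)) fun n => by simpa using M.vP (!ε) n)⟩
    refine WW_induction (fun w => t.τ w.1 = ⟪M.om, w.2 M.om⟫_ℂ) (by simp) (fun x y hx hy => ?_)
      (fun c x hx => ?_) (fun a ha => ?_) (fun a ha ε x hx => ?_) hW
    · simp [hx, hy, inner_add_right]
    · simp [hx, inner_smul_right]
    · rw [ha.2, M.tr]
    · obtain ⟨h1, h2⟩ := M.pair_red hx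
      have := M.red_zero h2 1 a.1
      rw [Prod.fst_mul, h.free' h1 ha.1, Prod.snd_mul, ha.2, ContinuousLinearMap.mul_apply]
      simpa using this.symm

theorem model_WW {B : StarSubalgebra ℂ C} (hc : IsClosed (B : Set C)) (hV : Valid t B PP)
    {y : M.H →L[ℂ] M.H} (hy : y ∈ StarAlgebra.adjoin ℂ (M.pi '' B ∪ Set.range M.v)) :
    y ∈ WW (M.pi '' B) M.v (M.MZ B) := by
  refine mem_WW_of_adjoin (B := M.pi '' B) ⟨1, one_mem B, by simp⟩ ?_ ?_ M.vv M.vs ?_ hy
  · rintro _ ⟨a, ha, rfl⟩ _ ⟨b, hb, rfl⟩; exact ⟨a * b, mul_mem ha hb, by simp⟩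
  · rintro _ ⟨a, ha, rfl⟩; exact ⟨star a, star_mem ha, map_star _ _⟩
  · rintro ε _ ⟨a, ha, rfl⟩
    obtain ⟨z, hz, hcen⟩ := hV.decomp ε ha
    obtain ⟨h1, h2⟩ := DD_mem' hz B hc hV.mem
    exact ⟨M.pi z.1, M.pi z.2, ⟨_, h2, rfl⟩, ⟨a - z.1, sub_mem ha h1, by simp⟩,
      ⟨a - z.1, sub_mem ha h1, by simp, hcen⟩,
      DD_int hz M.pi (M.v (!ε)) fun n => by simpa using M.vP (!ε) n⟩

theorem inner_pi (a : C) (x y : M.H) : ⟪x, M.pi a y⟫_ℂ = ⟪M.pi (star a) x, y⟫_ℂ := by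
  rw [map_star, ContinuousLinearMap.star_eq_adjoint, ContinuousLinearMap.adjoint_inner_left]

theorem inner_v (ε : Bool) (x y : M.H) : ⟪x, M.v ε y⟫_ℂ = ⟪M.v (!ε) x, y⟫_ℂ := by
  rw [← M.vs, ContinuousLinearMap.star_eq_adjoint, ContinuousLinearMap.adjoint_inner_left]

theorem trace_B {B : StarSubalgebra ℂ C} (hc : IsClosed (B : Set C)) (hV : Valid t B PP)
    {y : M.H →L[ℂ] M.H} (hy : y ∈ StarAlgebra.adjoin ℂ (M.pi '' B ∪ Set.range M.v)) {b : C}
    (hb : b ∈ B) : ⟪M.om, (M.pi b * y) M.om⟫_ℂ = ⟪M.om, (y * M.pi b) M.om⟫_ℂ := by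
  refine WW_induction (fun y => ⟪M.om, (M.pi b * y) M.om⟫_ℂ = ⟪M.om, (y * M.pi b) M.om⟫_ℂ)
    (by simp) (fun x y hx hy => ?_) (fun c x hx => ?_) ?_ ?_ (M.model_WW hc hV hy)
  · simp only [mul_add, add_mul, ContinuousLinearMap.add_apply, inner_add_right, hx, hy]
  · simp only [mul_smul_comm, smul_mul_assoc, ContinuousLinearMap.smul_apply, inner_smul_right, hx]
  · rintro _ ⟨a, ha, rfl⟩
    rw [← map_mul, ← map_mul, M.tr, M.tr, t.τ_comm]
  · rintro _ ⟨a, ha, rfl⟩ ε x hx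
    have h1 := M.red_zero hx 1 (b * a)
    have h2 := M.red_zero (hx.mul_right subset_rfl (b := M.pi b) (by
      rintro _ ⟨c, hc, rfl⟩; exact ⟨c * b, mul_mem hc hb, by simp⟩)) 1 a
    simp only [map_one, ContinuousLinearMap.one_apply, map_mul, ContinuousLinearMap.mul_apply]
      at h1 h2 ⊢
    rw [h1, h2]

theorem ve_apply {ε : Bool} {x : M.H} (h : M.e (!ε) x = 0) : M.e ε (M.v ε x) = M.v ε x := by
  have := congrArg (fun T : M.H →L[ℂ] M.H => T x) (M.ve ε)
  simp only [ContinuousLinearMap.mul_apply, ContinuousLinearMap.sub_apply,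
    ContinuousLinearMap.one_apply, h, sub_zero] at this
  exact this.symm

theorem vv_apply (ε : Bool) (x : M.H) : M.v (!ε) (M.v ε x) = x := by
  rw [← ContinuousLinearMap.mul_apply, M.vv, ContinuousLinearMap.one_apply]

theorem zero_apply {ε ε' : Bool} {a : C} (h : M.e ε * M.pi a * M.e ε' = 0) {x : M.H}
    (hx : M.e ε' x = x) : M.e ε (M.pi a x) = 0 := by
  have := congrArg (fun T : M.H →L[ℂ] M.H => T x) h
  simpa [hx] using this

theorem trace_v {B : StarSubalgebra ℂ C} (hc : IsClosed (B : Set C)) (hV : Valid t B PP)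
    {y : M.H →L[ℂ] M.H} (hy : y ∈ StarAlgebra.adjoin ℂ (M.pi '' B ∪ Set.range M.v)) (η : Bool) :
    ⟪M.v η M.om, y (M.v η M.om)⟫_ℂ = ⟪M.om, y M.om⟫_ℂ := by
  set o := M.v η M.om with ho
  have hoe : M.e η o = o := M.ve_apply (by simpa using M.eo (!η) 1)
  have hd : ∀ z ∈ DD PP η, M.v (!η) (M.pi z.1 o) = M.pi z.2 M.om := by
    intro z hz
    have := DD_int hz M.pi (M.v (!η)) fun n => by simpa using M.vP (!η) n
    rw [← ContinuousLinearMap.mul_apply, this, ContinuousLinearMap.mul_apply, ho, M.vv_apply]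
  have hd' : ∀ z ∈ DD PP η, M.pi z.1 o = M.v η (M.pi z.2 M.om) := by
    intro z hz
    have := M.vv_apply (!η) (M.pi z.1 o)
    rw [Bool.not_not, hd z hz] at this
    exact this.symm
  have O1 : ∀ b c : C, ⟪M.pi b M.om, M.pi c o⟫_ℂ = 0 := by
    intro b c
    rw [M.inner_pi, ← hoe, ← proj_inner (M.ep η), ← ContinuousLinearMap.mul_apply (M.pi _),
      ← map_mul, M.eo, inner_zero_left]
  have hVV : ∀ ε y, Red (M.pi '' B) M.v (M.MZ B) ε y → ∃ z ∈ DD PP η, (ε = η → z = 0) ∧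
      M.e ε (y o - M.pi z.2 M.om) = y o - M.pi z.2 M.om := by
    intro ε y hy
    induction hy with
    | base ε a ha =>
      obtain ⟨a, ha, rfl⟩ := ha
      by_cases h : ε = η
      · subst h
        refine ⟨0, zero_mem _, fun _ => rfl, ?_⟩
        simp only [Prod.snd_zero, map_zero, ContinuousLinearMap.zero_apply, sub_zero,
          ContinuousLinearMap.mul_apply]
        exact M.ve_apply (M.zero_apply (by simpa using M.ee (!ε) a) hoe)
      · have h' : ε = !η := by cases ε <;> cases η <;> simp_all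
        subst h'
        obtain ⟨z, hz, hcen⟩ := hV.decomp η ha
        refine ⟨z, hz, fun h' => absurd h' h, ?_⟩
        rw [← hd z hz, ContinuousLinearMap.mul_apply, ← map_sub, ← ContinuousLinearMap.sub_apply,
          ← map_sub]
        exact M.ve_apply (by simpa using M.zero_apply (M.cen_zero hcen) hoe)
    | step ε ε' a x ha hz _ ih =>
      obtain ⟨a, ha', rfl, h⟩ := M.letter ha hz
      obtain ⟨z, -, -, hz⟩ := ih
      refine ⟨0, zero_mem _, fun _ => rfl, ?_⟩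
      simp only [Prod.snd_zero, map_zero, ContinuousLinearMap.zero_apply, sub_zero,
        ContinuousLinearMap.mul_apply]
      refine M.ve_apply ?_
      have h1 := M.zero_apply (M.ez h) hz
      have h2 := M.eo (!ε) (a * z.2)
      rw [map_mul, ContinuousLinearMap.mul_apply] at h2
      rw [map_sub, map_sub, h2, sub_zero] at h1
      exact h1
  refine WW_induction (fun y => ⟪o, y o⟫_ℂ = ⟪M.om, y M.om⟫_ℂ)
    (by simp) (fun x y hx hy => ?_) (fun c x hx => ?_) ?_ ?_ (M.model_WW hc hV hy)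
  · simp only [ContinuousLinearMap.add_apply, inner_add_right, hx, hy]
  · simp only [ContinuousLinearMap.smul_apply, inner_smul_right, hx]
  · rintro _ ⟨a, ha, rfl⟩
    obtain ⟨z, hz, hcen⟩ := hV.decomp η ha
    have h1 : ⟪o, M.pi (a - z.1) o⟫_ℂ = 0 := by
      rw [← hoe, proj_inner (M.ep η), hoe, M.zero_apply (M.cen_zero hcen) hoe, inner_zero_right]
    have h2 := hcen.τ_eq (hV.dec η)
    rw [map_sub, ContinuousLinearMap.sub_apply, inner_sub_right, sub_eq_zero] at h1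
    rw [map_sub, sub_eq_zero] at h2
    rw [h1, hd' z hz, M.inner_v, ho, M.vv_apply, M.tr, M.tr, h2, DD_tr t hV.eq hz]
  · rintro _ ⟨a0, ha0, rfl⟩ ε x hx
    have h0 := M.red_zero hx 1 a0
    simp only [map_one, ContinuousLinearMap.one_apply] at h0
    simp only [ContinuousLinearMap.mul_apply]
    rw [h0]
    obtain ⟨z, hz, hz0, hz1⟩ := hVV ε x hx
    by_cases h : ε = η
    · subst h
      rw [hz0 rfl] at hz1
      simp only [Prod.snd_zero, map_zero, ContinuousLinearMap.zero_apply, sub_zero] at hz1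
      obtain ⟨w, hw, hcen⟩ := hV.decomp ε (star_mem ha0)
      have h1 : ⟪M.pi (star a0 - w.1) o, x o⟫_ℂ = 0 := by
        rw [← hz1, ← proj_inner (M.ep ε), M.zero_apply (M.cen_zero hcen) hoe, inner_zero_left]
      rw [map_sub, ContinuousLinearMap.sub_apply, inner_sub_left, sub_eq_zero] at h1
      have h2 := M.inner_v (!ε) (M.pi w.2 M.om) (x o)
      rw [Bool.not_not] at h2
      rw [M.inner_pi, h1, hd' w hw, ← h2]
      cases hx with
      | base _ a ha =>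
        obtain ⟨a, ha, rfl⟩ := ha
        rw [ContinuousLinearMap.mul_apply, M.vv_apply, O1]
      | step _ ε' a y ha hz' hy =>
        obtain ⟨a, ha', rfl, h⟩ := M.letter ha hz'
        obtain ⟨z', hz', hz0', hz1'⟩ := hVV ε' y hy
        rw [ContinuousLinearMap.mul_apply, ContinuousLinearMap.mul_apply, M.vv_apply,
          ← sub_add_cancel (y o) (M.pi z'.2 M.om), map_add, inner_add_right, ← hz1', M.inner_pi,
          ← proj_inner (M.ep ε'), ← ContinuousLinearMap.mul_apply (M.pi _), ← map_mul, M.eo,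
          inner_zero_left, zero_add]
        by_cases h3 : ε' = ε
        · rw [hz0' h3]; simp
        · have h4 : ε' = !ε := by cases ε <;> cases ε' <;> simp_all
          have h5 := h h4
          rw [h4] at h5
          have h6 := (DD_cen t (hV.dec _) hw ((DD_cen t (hV.dec _) hz' h5).star (hV.dec _))).τ_eq
            (hV.dec _)
          rw [← inner_conj_symm, ← ContinuousLinearMap.mul_apply, ← map_mul,
            ← star_star (a * z'.2), ← M.inner_pi, ← ContinuousLinearMap.mul_apply, ← map_mul, M.tr,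
            h6, map_zero]
    · have h' : ε = !η := by cases ε <;> cases η <;> simp_all
      subst h'
      rw [← sub_add_cancel (x o) (M.pi z.2 M.om), map_add, inner_add_right, ← hoe,
        proj_inner (M.ep η), hoe, M.zero_apply (M.ee η a0) hz1, inner_zero_right, zero_add,
        ← inner_conj_symm, ← ContinuousLinearMap.mul_apply, ← map_mul]
      have := O1 (a0 * z.2) 1
      simp only [map_one, ContinuousLinearMap.one_apply] at this
      rw [this, map_zero]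

end Mdl

/-- asymptotic vanishing of reduced words -/
theorem HNN.ep1 {t : TS C} {B : StarSubalgebra ℂ C} {u : Bool → C} {PP : Bool → ℕ → C}
    (h : HNN t B u PP) {R : ℕ → C} (hm : ∀ m, R m ∈ B) (hR : t.Small R)
    (hs : ∀ m, star (R m) = R m) (h1 : ∀ m, ‖R m‖ ≤ 1)
    (hC : ∀ ε, ∀ a ∈ B, ∀ b ∈ B, ∀ η > 0, ∃ j, ∀ᶠ m in atTop,
      ‖R m * a * PP ε j‖ * ‖PP (!ε) j * b * R m‖ ≤ η)
    {ε : Bool} {y : C} (hy : Red B u (ZZ t PP) ε y) {a : C} (ha : a ∈ B) :
    Tendsto (fun m => R m * (a * y) * R m) atTop (𝓝 0) := by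
  obtain ⟨M⟩ := exists_mdl t PP h.valid.dec h.valid.small h.valid.eq
  obtain ⟨z, hz, rfl⟩ := hy.lift (D := C × (M.H →L[ℂ] M.H)) Prod.fst (fun _ _ => rfl)
    (B' := M.gr B) (v' := fun ε => (u ε, M.v ε)) (Z' := fun ε z => t.Cen (PP ε) z.1)
    (fun _ => rfl) (fun a ha => ⟨(a, M.pi a), ⟨ha, rfl⟩, rfl, fun _ h => h⟩)
  have hc := M.core h.valid hR hs h1 hC (M.pair_red hz).2 ha
  refine squeeze_zero_norm (fun m => ?_) (tendsto_zero_iff_norm_tendsto_zero.1 hc)
  set Γ := StarAlgebra.adjoin ℂ (M.gr B ∪ Set.range fun ε => (u ε, M.v ε))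
  have hB : ∀ a ∈ M.gr B, a ∈ Γ := fun a ha => StarAlgebra.subset_adjoin ℂ _ (Or.inl ha)
  have hzΓ : z ∈ Γ := hz.mem Γ.toSubalgebra.toSubmonoid hB
    (fun ε => StarAlgebra.subset_adjoin ℂ _ (Or.inr ⟨ε, rfl⟩))
  have hRm := hB (R m, M.pi (R m)) ⟨hm m, rfl⟩
  exact M.pair_norm h (mul_mem (mul_mem hRm (mul_mem (hB (a, M.pi a) ⟨ha, rfl⟩) hzΓ)) hRm)

theorem HNN.ep2 {t : TS C} {B : StarSubalgebra ℂ C} {u : Bool → C} {PP : Bool → ℕ → C}
    (h : HNN t B u PP) {R : ℕ → C} (hm : ∀ m, R m ∈ B) (hR : t.Small R)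
    (hs : ∀ m, star (R m) = R m) (h1 : ∀ m, ‖R m‖ ≤ 1)
    (hC : ∀ ε, ∀ a ∈ B, ∀ b ∈ B, ∀ η > 0, ∃ j, ∀ᶠ m in atTop,
      ‖R m * a * PP ε j‖ * ‖PP (!ε) j * b * R m‖ ≤ η) (he : ∀ x ∈ B, Exc R x)
    {x : C} (hx : x ∈ StarAlgebra.adjoin ℂ ((B : Set C) ∪ Set.range u)) : Exc R x :=
  WW_induction (fun x => x ∈ excSub R) (zero_mem _) (fun _ _ => add_mem)
    (fun c _ hx => Submodule.smul_mem _ c hx) he
    (fun a ha ε y hy => exc_of_tendsto (h.ep1 hm hR hs h1 hC hy ha)) (h.mem_WW hx)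

end Crest.Agent.Nk
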