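import Crest.Agent.Nk.Red
/-! Hilbert space lemmas: unitaries matching families of projections. -/
set_option autoImplicit false
set_option linter.deprecated false
set_option linter.unusedSimpArgs false
namespace Crest.Agent.Nk
open scoped InnerProductSpace ComplexConjugate Cardinal
open Filter Topology

variable {H : Type} [NormedAddCommGroup H] [InnerProductSpace ℂ H] [CompleteSpace H]

/-- fixed space of an operator -/
def fix (p : H →L[ℂ] H) : Submodule ℂ H := LinearMap.eqLocus (p : H →ₗ[ℂ] H) LinearMap.id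

omit [CompleteSpace H] in
theorem mem_fix {p : H →L[ℂ] H} {x : H} : x ∈ fix p ↔ p x = x := Iff.rfl

instance (p : H →L[ℂ] H) : CompleteSpace (fix p) :=
  (isClosed_eq p.continuous continuous_id).completeSpace_coe

theorem proj_inner {p : H →L[ℂ] H} (hp : IsStarProjection p) (x y : H) :
    ⟪p x, y⟫_ℂ = ⟪x, p y⟫_ℂ := by
  have := hp.isSelfAdjoint.star_eq
  rw [ContinuousLinearMap.star_eq_adjoint] at this
  conv_lhs => rw [← this]
  exact ContinuousLinearMap.adjoint_inner_left _ _ _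

theorem exists_basis_fix {J : Type} (hJ : #H ≤ #J) (p : H →L[ℂ] H) (w : J → H)
    (hw : Orthonormal ℂ w) (hp : ∀ j, p (w j) = w j) : Nonempty (HilbertBasis J ℂ (fix p)) := by
  let w' : J → fix p := fun j => ⟨w j, hp j⟩
  have hw' : Orthonormal ℂ w' := (fix p).subtypeₗᵢ.orthonormal_comp_iff.1 hw
  obtain ⟨s, b, hs, hb⟩ := hw'.toSubtypeRange.exists_hilbertBasis_extension
  have h1 : #s ≤ #J := (Cardinal.mk_subtype_le _).trans ((Cardinal.mk_subtype_le _).trans hJ)
  have h2 : #J ≤ #s := by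
    refine Cardinal.mk_le_of_injective (f := fun j => (⟨w' j, hs ⟨j, rfl⟩⟩ : s)) ?_
    intro i j hij
    exact hw'.linearIndependent.injective (congrArg Subtype.val hij)
  obtain ⟨e⟩ := Cardinal.eq.1 (le_antisymm h2 h1)
  refine ⟨HilbertBasis.mk (b.orthonormal.comp e e.injective) ?_⟩
  rw [e.surjective.range_comp, b.dense_span]

theorem exists_unitary {K : Type} (a b : K → H →L[ℂ] H) (ha : ∀ k, IsStarProjection (a k))
    (hb : ∀ k, IsStarProjection (b k)) (hao : ∀ k l, k ≠ l → a k * a l = 0)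
    (hbo : ∀ k l, k ≠ l → b k * b l = 0) (hat : ∀ x, (∀ k, a k x = 0) → x = 0)
    (hbt : ∀ x, (∀ k, b k x = 0) → x = 0)
    (hiso : ∀ k, Nonempty (fix (a k) ≃ₗᵢ[ℂ] fix (b k))) :
    ∃ U : H ≃ₗᵢ[ℂ] H, ∀ k x, U (a k x) = b k (U x) := by
  classical
  have orth : ∀ (c : K → H →L[ℂ] H), (∀ k, IsStarProjection (c k)) →
      (∀ k l, k ≠ l → c k * c l = 0) → ∀ k l, k ≠ l → ∀ x ∈ fix (c k), ∀ y ∈ fix (c l),
      ⟪x, y⟫_ℂ = 0 := by
    intro c hc hco k l hkl x hx y hy
    rw [← mem_fix.1 hx, ← mem_fix.1 hy, proj_inner (hc k), ← ContinuousLinearMap.mul_apply,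
      hco k l hkl]
    simp
  have tot : ∀ (c : K → H →L[ℂ] H), (∀ k, IsStarProjection (c k)) →
      (∀ x, (∀ k, c k x = 0) → x = 0) → (⨆ k, fix (c k)).topologicalClosure = ⊤ := by
    intro c hc hct
    rw [Submodule.topologicalClosure_eq_top_iff, eq_bot_iff]
    intro x hx
    refine hct x fun k => ?_
    have h1 : c k x ∈ fix (c k) := by
      rw [mem_fix, ← ContinuousLinearMap.mul_apply, (hc k).isIdempotentElem.eq]
    have h2 := hx _ (Submodule.mem_iSup_of_mem k h1)
    rw [← mem_fix.1 h1, proj_inner (hc k), inner_self_eq_zero] at h2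
    exact h2
  let iso := fun k => (hiso k).some
  let V' : ∀ k, fix (a k) →ₗᵢ[ℂ] H := fun k => (fix (b k)).subtypeₗᵢ.comp (iso k).toLinearIsometry
  have hV : IsHilbertSum ℂ (fun k => fix (a k)) (fun k => (fix (a k)).subtypeₗᵢ) :=
    IsHilbertSum.mkInternal _ (fun k l hkl x y => orth a ha hao k l hkl _ x.2 _ y.2)
      (tot a ha hat).ge
  have hV' : IsHilbertSum ℂ (fun k => fix (a k)) V' := by
    refine IsHilbertSum.mk (fun k l hkl x y => orth b hb hbo k l hkl _ (iso k x).2 _ (iso l y).2) ?_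
    refine (tot b hb hbt).ge.trans (Submodule.topologicalClosure_mono (iSup_mono fun k => ?_))
    intro y hy
    exact ⟨(iso k).symm ⟨y, hy⟩, by simp [V']⟩
  let U := hV.linearIsometryEquiv.trans hV'.linearIsometryEquiv.symm
  have hU : ∀ k, ∀ x ∈ fix (a k), U x ∈ fix (b k) := by
    intro k x hx
    have h1 : hV.linearIsometryEquiv x = lp.single 2 k ⟨x, hx⟩ := by
      rw [← LinearIsometryEquiv.eq_symm_apply]
      exact (hV.linearIsometryEquiv_symm_apply_single (i := k) ⟨x, hx⟩).symm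
    have h2 : U x = V' k ⟨x, hx⟩ := by
      simp only [U, LinearIsometryEquiv.trans_apply, h1]
      exact hV'.linearIsometryEquiv_symm_apply_single _
    rw [h2]; exact (iso k _).2
  refine ⟨U, fun k x => ?_⟩
  have hx : x ∈ (⨆ k, fix (a k)).topologicalClosure := by rw [tot a ha hat]; trivial
  refine closure_minimal (t := {x | U (a k x) = b k (U x)}) (fun y hy => ?_)
    (isClosed_eq (by fun_prop) (by fun_prop)) hx
  induction hy using Submodule.iSup_induction' with
  | mem l y hy =>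
    change U (a k y) = b k (U y)
    by_cases h : k = l
    · subst h; rw [mem_fix.1 hy, mem_fix.1 (hU k y hy)]
    · rw [← mem_fix.1 (hU l y hy), ← mem_fix.1 hy, ← ContinuousLinearMap.mul_apply,
        ← ContinuousLinearMap.mul_apply (b k), hao k l h, hbo k l h]
      simp
  | zero => simp
  | add y z _ _ hy hz =>
    change U (a k (y + z)) = b k (U (y + z))
    have hy' : U (a k y) = b k (U y) := hy
    have hz' : U (a k z) = b k (U z) := hz
    simp only [map_add, hy', hz']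

/-- the `ℓ²` sum of copies of a Hilbert space -/
abbrev L2 (I Y : Type) [NormedAddCommGroup Y] := lp (fun _ : I => Y) 2

theorem card_L2 (I Y : Type) [NormedAddCommGroup Y] :
    #(L2 I Y) ≤ max #(I × Y) ℵ₀ ^ ℵ₀ := by
  refine le_trans ?_ (Cardinal.mk_bounded_set_le (I × Y) ℵ₀)
  have hc : ∀ f : L2 I Y, #{z : I × Y | z.2 ≠ 0 ∧ f z.1 = z.2} ≤ ℵ₀ := by
    intro f
    rw [Cardinal.le_aleph0_iff_set_countable]
    have h1 := ((lp.memℓp f).summable (by norm_num)).countable_support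
    refine (h1.image fun i => (i, f i)).mono ?_
    rintro ⟨i, y⟩ ⟨h2, h3⟩
    refine ⟨i, ?_, by simp at h3; simp [h3]⟩
    simp only at h2 h3
    rw [Function.mem_support, h3]
    exact (Real.rpow_pos_of_pos (norm_pos_iff.2 h2) _).ne'
  refine Cardinal.mk_le_of_injective (f := fun f => ⟨_, hc f⟩) fun f g hfg => ?_
  have h := congrArg Subtype.val hfg
  simp only at h
  ext i
  by_cases h1 : f i = 0
  · by_cases h2 : g i = 0
    · rw [h1, h2]
    · have : (i, g i) ∈ {z : I × Y | z.2 ≠ 0 ∧ f z.1 = z.2} := by rw [h]; exact ⟨h2, rfl⟩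
      exact this.2
  · have : (i, f i) ∈ {z : I × Y | z.2 ≠ 0 ∧ g z.1 = z.2} := by rw [← h]; exact ⟨h1, rfl⟩
    exact this.2.symm

theorem exists_index (Y : Type) [NormedAddCommGroup Y] :
    ∃ J : Type, #(L2 (Option (ℕ × Bool × J)) Y) ≤ #J := by
  refine ⟨ℕ → Y ⊕ ℕ, (card_L2 _ _).trans ?_⟩
  set μ := #(ℕ → Y ⊕ ℕ) with hμ
  have h0 : μ = (#Y + ℵ₀) ^ ℵ₀ := by simp [hμ]
  have h1 : #Y + ℵ₀ ≤ μ := by
    rw [h0]; exact Cardinal.self_le_power _ Cardinal.one_le_aleph0
  have h2 : ℵ₀ ≤ μ := le_trans (by simp) h1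
  have h3 : #Y ≤ μ := le_trans (by simp) h1
  have h4 : max #(Option (ℕ × Bool × (ℕ → Y ⊕ ℕ)) × Y) ℵ₀ ≤ μ := by
    refine max_le ?_ h2
    simp only [Cardinal.mk_prod, Cardinal.lift_id, Cardinal.mk_option, ← hμ]
    refine Cardinal.mul_le_of_le h2 (Cardinal.add_le_of_le h2 ?_ (le_trans Cardinal.one_le_aleph0 h2)) h3
    refine Cardinal.mul_le_of_le h2 (by simpa using h2) (Cardinal.mul_le_of_le h2 ?_ le_rfl)
    exact le_trans (Cardinal.lt_aleph0_of_finite Bool).le h2
  refine (Cardinal.power_le_power_right h4).trans (le_of_eq ?_)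
  rw [h0, ← Cardinal.power_mul, Cardinal.aleph0_mul_aleph0]

end Crest.Agent.Nk
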