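import Crest.Agent.Nk.Glob
/-! Kadison transitivity for one vector and the kernel of a pure state. -/
set_option autoImplicit false
set_option linter.deprecated false
set_option linter.unusedSimpArgs false
set_option linter.unusedVariables false
set_option linter.unusedSectionVars false
set_option linter.style.haveILetI false
namespace Crest.Agent.Nk
open scoped InnerProductSpace ComplexConjugate
open Filter Topology

theorem exists_resolvent {D : Type} [CStarAlgebra D] (x : D) :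
    ∃ b : D, (1 + star x * x) * b = 1 ∧ b * (1 + star x * x) = 1 ∧ ‖b‖ ≤ 1 ∧ star b = b := by
  have ha : IsSelfAdjoint (star x * x) := IsSelfAdjoint.star_mul_self x
  have h0 : ∀ s ∈ spectrum ℝ (star x * x), 0 ≤ s := fun s hs => spectrum_star_mul_self_nonneg s hs
  have hc : ContinuousOn (fun s : ℝ => (1 + s)⁻¹) (spectrum ℝ (star x * x)) :=
    ContinuousOn.inv₀ (by fun_prop) fun s hs => by have := h0 s hs; positivity
  have e : 1 + star x * x = cfc (fun s : ℝ => 1 + s) (star x * x) := by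
    rw [cfc_const_add _ _ _ (by fun_prop), cfc_id' ℝ _ ha, map_one]
  refine ⟨cfc (fun s : ℝ => (1 + s)⁻¹) (star x * x), ?_, ?_, ?_, IsSelfAdjoint.star_eq (cfc_predicate _ _)⟩
  · rw [e, ← cfc_mul _ _ _ (by fun_prop) hc, ← cfc_one ℝ _ ha]
    exact cfc_congr fun s hs => mul_inv_cancel₀ (by have := h0 s hs; positivity)
  · rw [e, ← cfc_mul _ _ _ hc (by fun_prop), ← cfc_one ℝ _ ha]
    exact cfc_congr fun s hs => inv_mul_cancel₀ (by have := h0 s hs; positivity)
  · refine norm_cfc_le zero_le_one fun s hs => ?_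
    have := h0 s hs
    rw [Real.norm_eq_abs, abs_of_pos (by positivity)]
    exact inv_le_one_of_one_le₀ (by linarith)

theorem exists_preimage_of_approx {E F : Type} [NormedAddCommGroup E] [NormedSpace ℂ E]
    [CompleteSpace E] [NormedAddCommGroup F] [NormedSpace ℂ F] (f : E →L[ℂ] F) {C : ℝ} (C0 : 0 ≤ C)
    (hC : ∀ y, ∃ x, ‖y - f x‖ ≤ 1 / 2 * ‖y‖ ∧ ‖x‖ ≤ C * ‖y‖) (y : F) :
    ∃ x, f x = y ∧ ‖x‖ ≤ 2 * C * ‖y‖ := by
  choose g hg using hC
  let h y := y - f (g y)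
  have hle : ∀ y, ‖h y‖ ≤ 1 / 2 * ‖y‖ := fun y => (hg y).1
  have hnle : ∀ n : ℕ, ‖h^[n] y‖ ≤ (1 / 2) ^ n * ‖y‖ := by
    intro n
    induction n with
    | zero => simp
    | succ n IH =>
      rw [Function.iterate_succ']
      apply le_trans (hle _) _
      rw [pow_succ', mul_assoc]
      gcongr
  let u n := g (h^[n] y)
  have ule : ∀ n, ‖u n‖ ≤ (1 / 2) ^ n * (C * ‖y‖) := fun n ↦ by
    apply le_trans (hg _).2
    calc
      C * ‖h^[n] y‖ ≤ C * ((1 / 2) ^ n * ‖y‖) := by gcongr; exact hnle n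
      _ = (1 / 2) ^ n * (C * ‖y‖) := by ring
  have sNu : Summable fun n => ‖u n‖ := by
    refine .of_nonneg_of_le (fun n => norm_nonneg _) ule ?_
    exact Summable.mul_right _ (summable_geometric_of_lt_one (by simp) (by norm_num))
  have su : Summable u := sNu.of_norm
  have fsumeq : ∀ n : ℕ, f (∑ i ∈ Finset.range n, u i) = y - h^[n] y := by
    intro n
    induction n with
    | zero => simp
    | succ n IH => rw [Finset.sum_range_succ, f.map_add, IH, Function.iterate_succ_apply', sub_add]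
  have L₁ : Tendsto (fun n => f (∑ i ∈ Finset.range n, u i)) atTop (𝓝 (f (tsum u))) :=
    (f.continuous.tendsto _).comp su.hasSum.tendsto_sum_nat
  simp only [fsumeq] at L₁
  have L₂ : Tendsto (fun n => y - h^[n] y) atTop (𝓝 (y - 0)) := by
    refine tendsto_const_nhds.sub (squeeze_zero_norm hnle ?_)
    rw [← zero_mul ‖y‖]
    refine (_root_.tendsto_pow_atTop_nhds_zero_of_lt_one ?_ ?_).mul tendsto_const_nhds <;> norm_num
  refine ⟨tsum u, by simpa using tendsto_nhds_unique L₁ L₂, ?_⟩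
  calc ‖tsum u‖ ≤ ∑' n, ‖u n‖ := norm_tsum_le_tsum_norm sNu
    _ ≤ ∑' n, (1 / 2) ^ n * (C * ‖y‖) :=
        sNu.tsum_le_tsum ule <| Summable.mul_right _ summable_geometric_two
    _ = (∑' n, (1 / 2) ^ n) * (C * ‖y‖) := tsum_mul_right
    _ = 2 * C * ‖y‖ := by rw [tsum_geometric_two, mul_assoc]

variable {A : Type} [CStarAlgebra A] {H : Type} [NormedAddCommGroup H] [InnerProductSpace ℂ H]
  [CompleteSpace H]

/-- no nontrivial closed invariant subspaces -/
def Irr (π : A →⋆ₐ[ℂ] (H →L[ℂ] H)) : Prop :=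
  ∀ V : Submodule ℂ H, IsClosed (V : Set H) → (∀ a : A, ∀ v ∈ V, π a v ∈ V) → V = ⊥ ∨ V = ⊤

theorem inner_star (T : H →L[ℂ] H) (x y : H) : ⟪x, star T y⟫_ℂ = ⟪T x, y⟫_ℂ := by
  rw [ContinuousLinearMap.star_eq_adjoint, ContinuousLinearMap.adjoint_inner_right]

variable {π : A →⋆ₐ[ℂ] (H →L[ℂ] H)} (hπ : Irr π)
include hπ

theorem Irr.schur_sa {Y : H →L[ℂ] H} (hY : IsSelfAdjoint Y) (hc : ∀ a, Commute (π a) Y) :
    ∃ c : ℂ, Y = c • 1 := by
  have key : ∀ s ∈ spectrum ℝ Y, ∀ t ∈ spectrum ℝ Y, ¬ s < t := by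
    intro s hs t ht hst
    set f : ℝ → ℝ := fun x => max (x - (s + t) / 2) 0 with hf
    set g : ℝ → ℝ := fun x => max ((s + t) / 2 - x) 0 with hg
    have hfc : Continuous f := by fun_prop
    have hgc : Continuous g := by fun_prop
    have hz : ∀ k : ℝ → ℝ, Continuous k → cfc k Y = 0 → ∀ x ∈ spectrum ℝ Y, k x = 0 := by
      intro k hk h x hx
      have h1 : cfc k Y = cfc (fun _ : ℝ => (0 : ℝ)) Y := by rw [h, cfc_const_zero]
      exact eqOn_of_cfc_eq_cfc h1 hk.continuousOn (by fun_prop) hY hx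
    have hfg : cfc f Y * cfc g Y = 0 := by
      rw [← cfc_mul _ _ _ hfc.continuousOn hgc.continuousOn, ← cfc_const_zero ℝ Y]
      refine cfc_congr fun x _ => ?_
      rcases le_total x ((s + t) / 2) with h | h
      · simp [hf, max_eq_right (sub_nonpos.2 h)]
      · simp [hg, max_eq_right (sub_nonpos.2 h)]
    rcases hπ (cfc f Y).ker (cfc f Y).isClosed_ker (fun a v hv => by
      have h1 : cfc f Y v = 0 := hv
      change cfc f Y (π a v) = 0
      rw [← ContinuousLinearMap.mul_apply, ((hc a).symm.cfc_real f).eq,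
        ContinuousLinearMap.mul_apply, h1, map_zero]) with h | h
    · have h1 : cfc g Y = 0 := by
        ext v
        have : cfc g Y v ∈ (cfc f Y).ker := by
          change cfc f Y (cfc g Y v) = 0
          rw [← ContinuousLinearMap.mul_apply, hfg]; rfl
        rwa [h] at this
      have := hz g hgc h1 s hs
      have h2 := le_max_left ((s + t) / 2 - s) 0
      simp only [hg] at this
      linarith
    · have h1 : cfc f Y = 0 := by
        ext v
        have : v ∈ (cfc f Y).ker := by rw [h]; trivial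
        exact this
      have := hz f hfc h1 t ht
      have h2 := le_max_left (t - (s + t) / 2) 0
      simp only [hf] at this
      linarith
  obtain ⟨c, hc⟩ : ∃ c : ℝ, ∀ s ∈ spectrum ℝ Y, s = c := by
    rcases (spectrum ℝ Y).eq_empty_or_nonempty with h | ⟨c, h⟩
    · exact ⟨0, by simp [h]⟩
    · exact ⟨c, fun s hs => le_antisymm (not_lt.1 (key c h s hs)) (not_lt.1 (key s hs c h))⟩
  refine ⟨c, ?_⟩
  rw [← cfc_id' ℝ Y hY, cfc_congr (g := fun _ => c) hc, cfc_const c Y hY,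
    Algebra.algebraMap_eq_smul_one, Complex.coe_smul]

theorem Irr.schur {X : H →L[ℂ] H} (hc : ∀ a, Commute (π a) X) : ∃ c : ℂ, X = c • 1 := by
  have hs : ∀ a, Commute (π a) (star X) := fun a => by
    simpa [map_star] using (hc (star a)).star_star
  obtain ⟨c, h1⟩ := hπ.schur_sa (IsSelfAdjoint.add_star_self X) fun a => (hc a).add_right (hs a)
  obtain ⟨d, h2⟩ := hπ.schur_sa (Y := Complex.I • (X - star X))
    (by rw [IsSelfAdjoint, star_smul, star_sub, star_star, Complex.star_def, Complex.conj_I,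
      neg_smul, ← smul_neg, neg_sub]) fun a => ((hc a).sub_right (hs a)).smul_right _
  refine ⟨(c - Complex.I * d) / 2, ?_⟩
  have : X = (1 / 2 : ℂ) • ((X + star X) - Complex.I • (Complex.I • (X - star X))) := by
    rw [smul_smul, Complex.I_mul_I]; module
  rw [this, h1, h2]; module

theorem Irr.two {ξ η η₁ ζ : H} (h : ∀ a, ⟪η₁, π a ξ⟫_ℂ + ⟪ζ, π a η⟫_ℂ = 0) (T : H →L[ℂ] H) :
    ⟪η₁, T ξ⟫_ℂ + ⟪ζ, T η⟫_ℂ = 0 := by
  let e := WithLp.prodContinuousLinearEquiv 2 ℂ H H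
  let D : (H →L[ℂ] H) → (WithLp 2 (H × H) →L[ℂ] WithLp 2 (H × H)) := fun T =>
    (e.symm : H × H →L[ℂ] _) ∘L (T.prodMap T) ∘L (e : _ →L[ℂ] H × H)
  have hD : ∀ T x y, D T (WithLp.toLp 2 (x, y)) = WithLp.toLp 2 (T x, T y) := fun _ _ _ => rfl
  let f : A →ₗ[ℂ] WithLp 2 (H × H) :=
    { toFun := fun a => WithLp.toLp 2 (π a ξ, π a η)
      map_add' := fun a b => by simp [← WithLp.toLp_add]
      map_smul' := fun c a => by simp [← WithLp.toLp_smul] }
  let K := f.range.topologicalClosure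
  haveI : CompleteSpace K := f.range.isClosed_topologicalClosure.completeSpace_coe
  have hK : ∀ a, ∀ x ∈ K, D (π a) x ∈ K := fun a x hx =>
    map_mem_closure (D (π a)).continuous hx (by
      rintro _ ⟨b, rfl⟩; exact ⟨a * b, by simp [f, hD]⟩)
  have hKo : ∀ a, ∀ x ∈ Kᗮ, D (π a) x ∈ Kᗮ := by
    rintro a ⟨x, y⟩ hx ⟨x', y'⟩ hx'
    have := hx _ (hK (star a) _ hx')
    simp only [hD, WithLp.prod_inner_apply, map_star] at this ⊢
    rwa [← star_star (π a), inner_star, inner_star]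
  have hp : ∀ a x, K.starProjection (D (π a) x) = D (π a) (K.starProjection x) := fun a x =>
    Submodule.eq_starProjection_of_mem_orthogonal (hK a _ (K.starProjection_apply_mem x)) (by
      rw [← map_sub]; exact hKo a _ (K.sub_starProjection_mem_orthogonal x))
  let q : H × H →L[ℂ] H × H := (e : _ →L[ℂ] H × H) ∘L K.starProjection ∘L (e.symm : H × H →L[ℂ] _)
  have hq : ∀ a x y, q (π a x, π a y) = (π a (q (x, y)).1, π a (q (x, y)).2) := fun a x y =>
    congrArg e (hp a (WithLp.toLp 2 (x, y)))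
  have hent : ∀ (i : H × H →L[ℂ] H) (j : H →L[ℂ] H × H),
      (∀ (T : H →L[ℂ] H) z, i (T z.1, T z.2) = T (i z)) →
      (∀ (T : H →L[ℂ] H) x, j (T x) = (T (j x).1, T (j x).2)) → ∃ c : ℂ, ∀ x, i (q (j x)) = c • x := by
    intro i j hi hj
    obtain ⟨c, hc⟩ := hπ.schur (X := i ∘L q ∘L j) fun a => by
      ext x
      change π a (i (q (j x))) = i (q (j (π a x)))
      rw [hj, hq, hi]
    exact ⟨c, fun x => by simpa using congrArg (fun T : H →L[ℂ] H => T x) hc⟩
  obtain ⟨c11, h11⟩ := hent (.fst ℂ H H) (.inl ℂ H H) (fun _ _ => rfl) (by simp)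
  obtain ⟨c12, h12⟩ := hent (.fst ℂ H H) (.inr ℂ H H) (fun _ _ => rfl) (by simp)
  obtain ⟨c21, h21⟩ := hent (.snd ℂ H H) (.inl ℂ H H) (fun _ _ => rfl) (by simp)
  obtain ⟨c22, h22⟩ := hent (.snd ℂ H H) (.inr ℂ H H) (fun _ _ => rfl) (by simp)
  have hqq : ∀ x y, q (x, y) = (c11 • x + c12 • y, c21 • x + c22 • y) := by
    intro x y
    rw [← h11, ← h12, ← h21, ← h22, ← map_add, ← map_add (ContinuousLinearMap.snd ℂ H H), ← map_add]
    simp
  have h1 : WithLp.toLp 2 (ξ, η) ∈ K := f.range.le_topologicalClosure ⟨1, by simp [f]⟩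
  have h2 : q (ξ, η) = (ξ, η) := congrArg e (Submodule.starProjection_eq_self_iff.2 h1)
  have h3 : q (T ξ, T η) = (T ξ, T η) := by
    rw [hqq] at h2 ⊢
    simp only [← map_smul, ← map_add]
    rw [(Prod.mk.inj h2).1, (Prod.mk.inj h2).2]
  have h4 : WithLp.toLp 2 (T ξ, T η) ∈ K :=
    Submodule.starProjection_eq_self_iff.1 (e.injective h3)
  have h5 : WithLp.toLp 2 (η₁, ζ) ∈ Kᗮ := by
    rw [Submodule.orthogonal_closure, Submodule.mem_orthogonal']
    rintro _ ⟨a, rfl⟩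
    exact h a
  exact (Submodule.mem_orthogonal' _ _).1 h5 _ h4

theorem Irr.kt0 (T : H →L[ℂ] H) (ξ ζ : H) {ε : ℝ} (hε : 0 < ε) :
    ∃ a, ‖T ξ - π a ξ‖ < ε ∧ ‖star T ζ - star (π a) ζ‖ < ε := by
  let g : A → H × H := fun a => (π a ξ, star (π a) ζ)
  have hg : ∀ (r : ℝ) a, g ((r : ℂ) • a) = r • g a := fun r a => by
    simp only [g, map_smul, star_smul]; simp
  have hg' : ∀ a b, g (a + b) = g a + g b := fun a b => by simp [g]
  have : (T ξ, star T ζ) ∈ closure (Set.range g) := by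
    by_contra hcon
    have hconv : Convex ℝ (Set.range g) := by
      rintro _ ⟨a, rfl⟩ _ ⟨b, rfl⟩ r s _ _ _
      exact ⟨(r : ℂ) • a + (s : ℂ) • b, by rw [hg', hg, hg]⟩
    obtain ⟨f, u, h1, h2⟩ := RCLike.geometric_hahn_banach_closed_point (𝕜 := ℂ) hconv.closure
      isClosed_closure hcon
    have h3 : ∀ a, (f (g a)).re < u := fun a => h1 _ (subset_closure ⟨a, rfl⟩)
    have h4 : ∀ a, (f (g a)).re = 0 := by
      intro a
      by_contra h
      have := h3 (((u / (f (g a)).re : ℝ) : ℂ) • a)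
      rw [hg, ← Complex.coe_smul, map_smul, smul_eq_mul, Complex.re_ofReal_mul,
        div_mul_cancel₀ _ h] at this
      exact lt_irrefl _ this
    set η₁ := (InnerProductSpace.toDual ℂ H).symm (f ∘L .inl ℂ H H)
    set η₂ := (InnerProductSpace.toDual ℂ H).symm (f ∘L .inr ℂ H H)
    have hf : ∀ x y, f (x, y) = ⟪η₁, x⟫_ℂ + ⟪η₂, y⟫_ℂ := fun x y => by
      rw [InnerProductSpace.toDual_symm_apply, InnerProductSpace.toDual_symm_apply]
      simp [← map_add]
    have hre : ∀ X : H →L[ℂ] H, (f (X ξ, star X ζ)).re = (⟪η₁, X ξ⟫_ℂ + ⟪ζ, X η₂⟫_ℂ).re := by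
      intro X
      rw [hf, inner_star, Complex.add_re, Complex.add_re, ← inner_conj_symm (X η₂), Complex.conj_re]
    have h5 := hπ.two (ξ := ξ) (η := η₂) (η₁ := η₁) (ζ := ζ) (fun a => by
      have a1 := h4 a
      have a2 := h4 (Complex.I • a)
      simp only [g] at a1 a2
      rw [hre] at a1 a2
      simp only [map_smul, ContinuousLinearMap.smul_apply, inner_smul_right, ← mul_add] at a2
      rw [Complex.I_mul_re, neg_eq_zero] at a2
      exact Complex.ext a1 a2) T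
    have h6 := h3 0
    rw [h4] at h6
    have h7 : u < (f (T ξ, star T ζ)).re := h2
    rw [hre, h5, Complex.zero_re] at h7
    linarith
  obtain ⟨_, ⟨a, rfl⟩, h⟩ := Metric.mem_closure_iff.1 this ε hε
  rw [Prod.dist_eq, max_lt_iff, dist_eq_norm, dist_eq_norm] at h
  exact ⟨a, h⟩

theorem Irr.kt1 {ξ : H} (hξ : ‖ξ‖ = 1) (ζ : H) : ∃ z, π z ξ = ζ ∧ ‖z‖ ≤ 8 * ‖ζ‖ := by
  have hu : ∀ ζ : H, ‖ζ‖ = 1 → ∃ z, ‖ζ - π z ξ‖ ≤ 1 / 2 ∧ ‖z‖ ≤ 4 := by
    intro ζ hζ
    obtain ⟨a, h1, h2⟩ := hπ.kt0 (InnerProductSpace.rankOne ℂ ζ ξ) ξ ζ (ε := 1 / 10) (by norm_num)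
    rw [ContinuousLinearMap.star_eq_adjoint, InnerProductSpace.adjoint_rankOne] at h2
    simp only [InnerProductSpace.rankOne_apply, inner_self_eq_norm_sq_to_K, hξ, hζ,
      RCLike.ofReal_one, one_pow, one_smul, ← map_star] at h1 h2
    obtain ⟨b, b1, b2, b3, b4⟩ := exists_resolvent a
    obtain ⟨c, c1, c2, c3, c4⟩ := exists_resolvent (star a)
    rw [star_star] at c1 c2
    have h1n : ‖(1 : A)‖ ≤ 1 := (IsStarProjection.one A).norm_le
    have e1 : ‖a * b‖ ≤ 2 := by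
      have : star (a * b) * (a * b) = b * (1 - b) := by
        rw [star_mul, b4, ← b1]; noncomm_ring
      have h3 := norm_sq_eq (a * b)
      rw [this] at h3
      have h4 := (norm_left_le b3 (1 - b)).trans (norm_sub_le 1 b)
      nlinarith [norm_nonneg (a * b)]
    have e2 : ‖a * b * star a‖ ≤ 2 := by
      have h3 : a * b = c * a := by
        calc a * b = c * (1 + a * star a) * (a * b) := by rw [c2, one_mul]
          _ = c * a * ((1 + star a * a) * b) := by noncomm_ring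
          _ = c * a := by rw [b1, mul_one]
      have : a * b * star a = 1 - c := by rw [h3, ← c2]; noncomm_ring
      rw [this]; linarith [norm_sub_le 1 c]
    refine ⟨(2 : ℂ) • (a * b), ?_, by rw [norm_smul]; simp; linarith⟩
    have e3 : ζ - π ((2 : ℂ) • (a * b)) ξ = (ζ - π a ξ) - π (a * b * star a) (ζ - π a ξ) -
        π (a * b) (ξ - π (star a) ζ) := by
      have h3 : a = a * b + a * b * star a * a := by
        conv_lhs => rw [← mul_one a, ← b2]
        noncomm_ring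
      have h4 := congrArg (fun x => π x ξ) h3
      simp only [map_add, map_mul, ContinuousLinearMap.add_apply, ContinuousLinearMap.mul_apply,
        map_smul, ContinuousLinearMap.smul_apply, map_sub] at h4 ⊢
      rw [two_smul]
      conv_rhs => enter [1, 1, 2]; rw [h4]
      abel
    have n1 := (π (a * b * star a)).le_of_opNorm_le ((hom_norm_le π _).trans e2) (ζ - π a ξ)
    have n2 := (π (a * b)).le_of_opNorm_le ((hom_norm_le π _).trans e1) (ξ - π (star a) ζ)
    rw [e3]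
    refine (norm_sub_le _ _).trans ?_
    linarith [norm_sub_le (ζ - π a ξ) (π (a * b * star a) (ζ - π a ξ))]
  let f : A →L[ℂ] H := (ContinuousLinearMap.apply ℂ H ξ) ∘L
    ⟨(π : A →ₗ[ℂ] (H →L[ℂ] H)), hom_cont π⟩
  obtain ⟨z, h1, h2⟩ := exists_preimage_of_approx f (C := 4) (by norm_num) (fun y => by
    by_cases hy : y = 0
    · exact ⟨0, by simp [hy], by simp⟩
    have hy' : (‖y‖ : ℂ) ≠ 0 := by simpa using hy
    obtain ⟨z, h1, h2⟩ := hu ((‖y‖ : ℂ)⁻¹ • y) (by simp [norm_smul, hy])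
    refine ⟨(‖y‖ : ℂ) • z, ?_, ?_⟩
    · have : y - f ((‖y‖ : ℂ) • z) = (‖y‖ : ℂ) • ((‖y‖ : ℂ)⁻¹ • y - π z ξ) := by
        rw [smul_sub, smul_inv_smul₀ hy', map_smul]; rfl
      rw [this, norm_smul, Complex.norm_real, norm_norm]
      nlinarith [norm_nonneg y]
    · rw [norm_smul, Complex.norm_real, norm_norm]
      nlinarith [norm_nonneg y]) ζ
  exact ⟨z, h1, by linarith⟩

theorem Irr.ker {ξ : H} (hξ : ‖ξ‖ = 1) {a : A} (ha : ⟪ξ, π a ξ⟫_ℂ = 0) {ε : ℝ} (hε : 0 < ε) :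
    ∃ l l', π l ξ = 0 ∧ π l' ξ = 0 ∧ ‖a - l - star l'‖ ≤ ε := by
  obtain ⟨b, h1, h2⟩ := hπ.kt0 (InnerProductSpace.rankOne ℂ (π a ξ) ξ) ξ ξ (ε := ε / 72)
    (by positivity)
  rw [ContinuousLinearMap.star_eq_adjoint, InnerProductSpace.adjoint_rankOne] at h2
  have ha' : ⟪π a ξ, ξ⟫_ℂ = 0 := by rw [← inner_conj_symm, ha, map_zero]
  simp only [InnerProductSpace.rankOne_apply, inner_self_eq_norm_sq_to_K, hξ, ha',
    RCLike.ofReal_one, one_pow, one_smul, zero_smul, zero_sub, norm_neg, ← map_star] at h1 h2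
  obtain ⟨w, w1, w2⟩ := hπ.kt1 hξ (π (star b) ξ)
  obtain ⟨z, z1, z2⟩ := hπ.kt1 hξ (π (a - b + star w) ξ)
  refine ⟨a - b + star w - z, star b - w, by simp [z1], by simp [w1], ?_⟩
  have e : a - (a - b + star w - z) - star (star b - w) = z := by simp; abel
  have n1 := (π (star w)).le_of_opNorm_le (hom_norm_le π _) ξ
  rw [norm_star, hξ] at n1
  have n2 := norm_add_le (π a ξ - π b ξ) (π (star w) ξ)
  simp only [map_add, map_sub, ContinuousLinearMap.add_apply, ContinuousLinearMap.sub_apply] at z2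
  rw [e]; linarith

theorem Irr.witness {ξ : H} (hξ : ‖ξ‖ = 1) {r : A} (hr : IsStarProjection r) (h0 : π r ≠ 0) :
    ∃ z z' : A, ‖z‖ ≤ 8 ∧ ‖z'‖ ≤ 8 ∧ π (z * r * z') ξ = ξ := by
  obtain ⟨v, hv⟩ : ∃ v, π r v ≠ 0 := by
    by_contra h
    push Not at h
    exact h0 (ContinuousLinearMap.ext h)
  set ζ := (‖π r v‖ : ℂ)⁻¹ • π r v with hζ
  have h1 : ‖ζ‖ = 1 := by simp [hζ, norm_smul, hv]
  have h2 : π r ζ = ζ := by
    rw [hζ, map_smul, ← ContinuousLinearMap.mul_apply, ← map_mul, hr.isIdempotentElem.eq]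
  obtain ⟨z, z1, z2⟩ := hπ.kt1 h1 ξ
  obtain ⟨w, w1, w2⟩ := hπ.kt1 hξ ζ
  exact ⟨z, w, by simpa [hξ] using z2, by simpa [h1] using w2, by simp [w1, h2, z1]⟩

end Crest.Agent.Nk
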