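import Crest.Agent.Nk.Proj
/-! All irreducible representations of the tower are equivalent; the tower is simple. -/
set_option autoImplicit false
set_option linter.deprecated false
set_option linter.unusedSimpArgs false
set_option linter.unusedVariables false
set_option linter.unusedSectionVars false
set_option linter.style.haveILetI false
namespace Crest.Agent.Nk
open scoped InnerProductSpace ComplexConjugate
open Filter Topology

section
variable {A : Type} [CStarAlgebra A] {H : Type} [NormedAddCommGroup H] [InnerProductSpace ℂ H]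
  [CompleteSpace H] {H' : Type} [NormedAddCommGroup H'] [InnerProductSpace ℂ H'] [CompleteSpace H']

theorem exc_state (π : A →⋆ₐ[ℂ] (H →L[ℂ] H)) {η : H} (hη : ‖η‖ = 1) {p x : A} (hp : star p = p)
    (h : π p η = η) (c : ℂ) : ‖⟪η, π x η⟫_ℂ - c‖ ≤ ‖p * (x - c • 1) * p‖ := by
  have e : ⟪η, π (p * (x - c • 1) * p) η⟫_ℂ = ⟪η, π x η⟫_ℂ - c := by
    rw [map_mul, map_mul, ContinuousLinearMap.mul_apply, ContinuousLinearMap.mul_apply, h, ← hp,
      map_star, inner_star, h]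
    simp [inner_sub_right, inner_smul_right, hη]
  have h1 := norm_inner_le_norm (𝕜 := ℂ) η (π (p * (x - c • 1) * p) η)
  have h2 := (π (p * (x - c • 1) * p)).le_of_opNorm_le (hom_norm_le π _) η
  rw [hη] at h1 h2
  rw [← e]; linarith

theorem norm_sq_rep (π : A →⋆ₐ[ℂ] (H →L[ℂ] H)) (η : H) (x : A) :
    ⟪η, π (star x * x) η⟫_ℂ = ((‖π x η‖ ^ 2 : ℝ) : ℂ) := by
  rw [map_mul, map_star, ContinuousLinearMap.mul_apply, inner_star, inner_self_eq_norm_sq_to_K]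
  simp

theorem equiv_of_fix {π : A →⋆ₐ[ℂ] (H →L[ℂ] H)} {π' : A →⋆ₐ[ℂ] (H' →L[ℂ] H')} (hπ : Irr π)
    (hπ' : Irr π') {ξ : H} {η : H'} (hξ : ‖ξ‖ = 1) (hη : ‖η‖ = 1) {P : ℕ → A} (hP : Dec P)
    (he : ∀ x, Exc P x) (h1 : ∀ n, π (P n) ξ = ξ) (h2 : ∀ n, π' (P n) η = η) :
    ∃ U : H ≃ₗᵢ[ℂ] H', ∀ a v, U (π a v) = π' a (U v) := by
  have hst : ∀ x, ⟪ξ, π x ξ⟫_ℂ = ⟪η, π' x η⟫_ℂ := by
    intro x
    refine eq_of_forall_dist_le fun ε hε => ?_
    obtain ⟨c, hc⟩ := he x (ε / 2) (half_pos hε)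
    obtain ⟨n, hn⟩ := hc.exists
    have a1 := (exc_state π hξ (hP.star_eq n) (h1 n) c).trans hn
    have a2 := (exc_state π' hη (hP.star_eq n) (h2 n) c).trans hn
    have := dist_triangle_right ⟪ξ, π x ξ⟫_ℂ ⟪η, π' x η⟫_ℂ c
    rw [dist_eq_norm _ c, dist_eq_norm _ c] at this
    linarith
  let f : A →ₗ[ℂ] H := ((ContinuousLinearMap.apply ℂ H ξ : _ →L[ℂ] _) : _ →ₗ[ℂ] _) ∘ₗ
    (π : A →ₗ[ℂ] (H →L[ℂ] H))
  let g : A →ₗ[ℂ] H' := ((ContinuousLinearMap.apply ℂ H' η : _ →L[ℂ] _) : _ →ₗ[ℂ] _) ∘ₗ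
    (π' : A →ₗ[ℂ] (H' →L[ℂ] H'))
  have hf : Function.Surjective f := fun v => (hπ.kt1 hξ v).imp fun _ h => h.1
  have hg : Function.Surjective g := fun v => (hπ'.kt1 hη v).imp fun _ h => h.1
  have hn : ∀ x, ‖g (LinearEquiv.refl ℂ A x)‖ = ‖f x‖ := by
    intro x
    have h3 := hst (star x * x)
    rw [norm_sq_rep, norm_sq_rep] at h3
    have h4 : ‖π x ξ‖ ^ 2 = ‖π' x η‖ ^ 2 := by exact_mod_cast h3
    exact ((pow_left_inj₀ (norm_nonneg _) (norm_nonneg _) two_ne_zero).1 h4).symm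
  let U := (LinearEquiv.refl ℂ A).extendOfIsometry f g hf.denseRange hg.denseRange hn
  have hU : ∀ x, U (π x ξ) = π' x η := fun x =>
    LinearEquiv.extendOfIsometry_eq (LinearEquiv.refl ℂ A) f g hf.denseRange hg.denseRange hn x
  refine ⟨U, fun a v => ?_⟩
  obtain ⟨b, rfl, -⟩ := hπ.kt1 hξ v
  rw [← ContinuousLinearMap.mul_apply, ← map_mul, hU, hU, map_mul, ContinuousLinearMap.mul_apply]

theorem exists_fix (π : A →⋆ₐ[ℂ] (H →L[ℂ] H)) {P : ℕ → A} (hP : Dec P) {v : H} {κ : ℝ}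
    (hκ : 0 < κ) (h : ∀ n, κ ≤ ‖π (P n) v‖) : ∃ η, ‖η‖ = 1 ∧ ∀ n, π (P n) η = η := by
  have hpy : ∀ m n, m ≤ n → ‖π (P n) v‖ ^ 2 + ‖π (P m) v - π (P n) v‖ ^ 2 = ‖π (P m) v‖ ^ 2 := by
    intro m n hmn
    have := norm_add_sq_eq_norm_sq_add_norm_sq_of_inner_eq_zero (𝕜 := ℂ) (π (P n) v)
      (π (P m) v - π (P n) v) (by
        rw [proj_inner ((hP.proj n).map π), map_sub, ← ContinuousLinearMap.mul_apply,
          ← ContinuousLinearMap.mul_apply, ← map_mul, ← map_mul, hP.mul_ge hmn, hP.mul_ge le_rfl,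
          sub_self, inner_zero_right])
    rw [add_sub_cancel] at this
    simp only [sq, this]
  have hanti : Antitone fun n => ‖π (P n) v‖ ^ 2 := fun m n hmn => by
    have := hpy m n hmn
    simp only; nlinarith [sq_nonneg ‖π (P m) v - π (P n) v‖]
  have hc := (tendsto_atTop_ciInf hanti ⟨0, by rintro _ ⟨n, rfl⟩; positivity⟩).cauchySeq
  have hcau : CauchySeq fun n => π (P n) v := by
    rw [Metric.cauchySeq_iff'] at hc ⊢
    intro ε hε
    obtain ⟨N, hN⟩ := hc (ε ^ 2) (by positivity)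
    refine ⟨N, fun n hn => ?_⟩
    have h1 := hN n hn
    have h2 := hpy N n hn
    rw [Real.dist_eq, abs_lt] at h1
    rw [dist_comm, dist_eq_norm]
    exact lt_of_pow_lt_pow_left₀ 2 hε.le (by linarith [h1.1])
  obtain ⟨w, hw⟩ := cauchySeq_tendsto_of_complete hcau
  have h1 : κ ≤ ‖w‖ := ge_of_tendsto' hw.norm h
  have h2 : w ≠ 0 := norm_pos_iff.1 (hκ.trans_le h1)
  refine ⟨(‖w‖ : ℂ)⁻¹ • w, by simp [norm_smul, h2], fun n => ?_⟩
  rw [map_smul]; congr 1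
  refine tendsto_nhds_unique (((π (P n)).continuous.tendsto w).comp hw) (hw.congr' ?_)
  filter_upwards [eventually_ge_atTop n] with m hm
  rw [Function.comp_apply, ← ContinuousLinearMap.mul_apply, ← map_mul, hP.mul_le hm]

theorem fix_of_not_orth (π : A →⋆ₐ[ℂ] (H →L[ℂ] H)) {ξ : H} (hξ : ‖ξ‖ = 1) {P Q : ℕ → A}
    (hP : Dec P) (hQ : Dec Q) (he : ∀ x, Exc Q x) (h1 : ∀ n, π (Q n) ξ = ξ) {x : A}
    (hx : ¬ Tendsto (fun n => P n * x * Q n) atTop (𝓝 0)) : ∃ η, ‖η‖ = 1 ∧ ∀ n, π (P n) η = η := by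
  have hmono : ∀ m n, m ≤ n → ‖P n * x * Q n‖ ≤ ‖P m * x * Q n‖ := fun m n h => by
    rw [mul_assoc, mul_assoc]; exact hP.norm_left_mono h _
  obtain ⟨κ, hκ, h⟩ : ∃ κ > 0, ∀ n, κ ≤ ‖P n * x * Q n‖ := by
    by_contra hcon
    push Not at hcon
    refine hx (NormedAddGroup.tendsto_nhds_zero.2 fun ε hε => ?_)
    obtain ⟨m, hm⟩ := hcon ε hε
    filter_upwards [eventually_ge_atTop m] with n hn
    exact ((hmono m n hn).trans (hQ.norm_right_mono hn _)).trans_lt hm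
  refine exists_fix π hP (v := π x ξ) hκ fun m => ?_
  rw [← ContinuousLinearMap.mul_apply, ← map_mul]
  refine (pow_le_pow_iff_left₀ hκ.le (norm_nonneg _) two_ne_zero).1
    (le_of_forall_pos_le_add fun δ hδ => ?_)
  obtain ⟨c, hc⟩ := he (star (P m * x) * (P m * x)) (δ / 2) (half_pos hδ)
  obtain ⟨n, hn, hmn⟩ := (hc.and (eventually_ge_atTop m)).exists
  have a1 := (exc_state π hξ (hQ.star_eq n) (h1 n) c).trans hn
  rw [norm_sq_rep] at a1
  have a2 := pow_le_pow_left₀ hκ.le ((h n).trans (hmono m n hmn)) 2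
  have e : star (P m * x * Q n) * (P m * x * Q n) =
      Q n * (star (P m * x) * (P m * x) - c • 1) * Q n + c • Q n := by
    rw [conj_sub_smul (hQ.proj n), sub_add_cancel, star_mul, hQ.star_eq]; simp only [mul_assoc]
  rw [norm_sq_eq, e] at a2
  have a3 := a2.trans (norm_add_le _ _)
  rw [norm_smul] at a3
  have a4 := norm_sub_norm_le c ((‖π (P m * x) ξ‖ ^ 2 : ℝ) : ℂ)
  rw [norm_sub_rev, Complex.norm_real, Real.norm_of_nonneg (sq_nonneg _)] at a4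
  nlinarith [hQ.norm_le n, norm_nonneg c, norm_nonneg (Q n)]

theorem exists_unital {π : A →⋆ₙₐ[ℂ] (H →L[ℂ] H)} (h0 : π ≠ 0)
    (h : ∀ V : Submodule ℂ H, IsClosed (V : Set H) → (∀ a : A, ∀ v ∈ V, π a v ∈ V) → V = ⊥ ∨ V = ⊤) :
    ∃ π' : A →⋆ₐ[ℂ] (H →L[ℂ] H), (∀ a, π' a = π a) ∧ Irr π' ∧ ∃ ξ : H, ‖ξ‖ = 1 := by
  have h1 : π 1 = 1 := by
    rcases h (π 1).ker (π 1).isClosed_ker (fun a v hv => by
      have h1 : π 1 v = 0 := hv
      change π 1 (π a v) = 0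
      rw [← ContinuousLinearMap.mul_apply, ← map_mul, one_mul, ← mul_one a, map_mul,
        ContinuousLinearMap.mul_apply, h1, map_zero]) with h | h
    · ext v
      have : π 1 v - v ∈ (π 1).ker := by
        change π 1 (π 1 v - v) = 0
        rw [map_sub, ← ContinuousLinearMap.mul_apply, ← map_mul, one_mul, sub_self]
      rw [h] at this
      exact sub_eq_zero.1 this
    · refine absurd ?_ h0
      ext a v
      have : v ∈ (π 1).ker := by rw [h]; trivial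
      have h1 : π 1 v = 0 := this
      rw [← mul_one a, map_mul, ContinuousLinearMap.mul_apply, h1, map_zero]; rfl
  refine ⟨{ toFun := π, map_one' := h1, map_mul' := map_mul π, map_zero' := map_zero π,
            map_add' := map_add π, map_star' := map_star π,
            commutes' := fun c => by
              rw [Algebra.algebraMap_eq_smul_one, map_smul, h1, Algebra.algebraMap_eq_smul_one] },
    fun _ => rfl, h, ?_⟩
  obtain ⟨v, hv⟩ : ∃ v : H, v ≠ 0 := by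
    by_contra hc
    push Not at hc
    exact h0 (by ext a v; exact (hc _).trans (hc _).symm)
  exact ⟨(‖v‖ : ℂ)⁻¹ • v, by simp [norm_smul, hv]⟩

end

theorem joint {α β : Type} (p : ℕ → ℕ → ℕ → α → Prop) (q : ℕ → ℕ → ℕ → β → Prop)
    (hp : ∀ m, ∀ᶠ n in atTop, ∃ m', m < m' ∧ ∃ a, p m n m' a)
    (hq : ∀ m, ∀ᶠ n in atTop, ∃ m', m < m' ∧ ∃ b, q m n m' b) :
    ∃ (n s t : ℕ → ℕ) (a : ℕ → α) (b : ℕ → β), ∀ k, k ≤ n k ∧ k ≤ s k ∧ k ≤ t k ∧
      p (s k) (n k) (s (k + 1)) (a k) ∧ q (t k) (n k) (t (k + 1)) (b k) := by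
  have : ∀ k (z : ℕ × ℕ), ∃ (n : ℕ) (w : ℕ × ℕ) (a : α) (b : β), k ≤ n ∧ z.1 < w.1 ∧ z.2 < w.2 ∧
      p z.1 n w.1 a ∧ q z.2 n w.2 b := by
    intro k z
    obtain ⟨n, ⟨⟨s, h1, a, h2⟩, t, h3, b, h4⟩, h5⟩ :=
      (((hp z.1).and (hq z.2)).and (eventually_ge_atTop k)).exists
    exact ⟨n, (s, t), a, b, h5, h1, h3, h2, h4⟩
  choose n w a b h1 h2 h3 h4 h5 using this
  let z : ℕ → ℕ × ℕ := fun k => Nat.rec (0, 0) w k
  have hz : ∀ k, k ≤ (z k).1 ∧ k ≤ (z k).2 := by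
    intro k
    induction k with
    | zero => simp
    | succ k ih => exact ⟨ih.1.trans_lt (h2 k _), ih.2.trans_lt (h3 k _)⟩
  exact ⟨fun k => n k (z k), fun k => (z k).1, fun k => (z k).2, fun k => a k (z k),
    fun k => b k (z k), fun k => ⟨h1 _ _, (hz k).1, (hz k).2, h4 _ _, h5 _ _⟩⟩

theorem dec_of_seq {C : Type} [CStarAlgebra C] (t : TS C) {F r a : ℕ → C} {n s : ℕ → ℕ}
    (hr : ∀ n, IsStarProjection (r n)) (hrs : t.Small r) (hn : ∀ k, k ≤ n k)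
    (h : ∀ k, IsStarProjection (a k) ∧ t.τ (a k) = t.τ (r (n k)) ∧ F (s k) * a k = a k ∧
      a k * F (s (k + 1)) = F (s (k + 1))) :
    Dec (fun k => Nat.casesOn k 1 a : ℕ → C) ∧ t.Small (fun k => Nat.casesOn k 1 a : ℕ → C) := by
  refine ⟨⟨fun k => ?_, fun k => ?_, rfl⟩, ?_⟩
  · cases k
    exacts [IsStarProjection.one C, (h _).1]
  · cases k with
    | zero => exact one_mul _
    | succ k =>
      change a k * a (k + 1) = a (k + 1)
      rw [← (h (k + 1)).2.2.1, ← mul_assoc, (h k).2.2.2]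
  · rw [TS.Small, ← tendsto_add_atTop_iff_nat 1]
    refine (hrs.comp (tendsto_atTop_mono hn tendsto_id)).congr fun k => ?_
    have := (h k).2.1
    rw [t.τ_proj (h k).1, t.τ_proj (hr _)] at this
    have h2 : t.n2 (a k) ^ 2 = t.n2 (r (n k)) ^ 2 := by exact_mod_cast this
    exact ((pow_left_inj₀ (t.n2_nonneg _) (t.n2_nonneg _) two_ne_zero).1 h2).symm

variable {Λ : Type} [LinearOrder Λ] [WellFoundedLT Λ] {S : Sys (GG Λ)} {PP : Λ → Bool → ℕ → S.C}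
  (hS : ∀ g ∈ KK ∅, S.t.τ (S.ρ g) = m0 Λ g)
  (hP : ∀ α, HNN S.t (AA S (Set.Iio α)) (uu S α) (PP α))
  (hC : ∀ (k : Task Λ) (T : Set Λ), T.Countable → ∃ α, T ⊆ Set.Iio α ∧
    ∀ PP', Valid S.t (AA S (Set.Iio α)) PP' → Coded S (Set.Iio α) k PP' → PP α = PP')
include hC

theorem exists_stage (R : Bool → ℕ → S.C) (T : Set Λ) (hT : T.Countable) :
    ∃ α, T ⊆ Set.Iio α ∧ (∀ ε n, R ε n ∈ AA S (Set.Iio α)) ∧
      (Valid S.t (AA S (Set.Iio α)) R → PP α = R) := by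
  choose σ _ h1 h2 using fun ε n => AA_countable (mem_AA_univ (R ε n))
  choose k h3 h4 using fun ε n => AA_code (h2 ε n)
  obtain ⟨α, h5, h6⟩ := hC k (T ∪ ⋃ ε, ⋃ n, σ ε n)
    (hT.union (Set.countable_iUnion fun ε => Set.countable_iUnion fun n => h1 ε n))
  have h7 : ∀ ε n, σ ε n ⊆ Set.Iio α := fun ε n β hβ => h5 (Or.inr (Set.mem_iUnion₂.2 ⟨ε, n, hβ⟩))
  exact ⟨α, Set.subset_union_left.trans h5, fun ε n => AA_mono (h7 ε n) (h2 ε n),
    fun hV => h6 R hV fun ε n => ⟨fun i g hg => KK_mono (h7 ε n) (h3 ε n i g hg), h4 ε n⟩⟩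

theorem exists_triv (T : Set Λ) (hT : T.Countable) : ∃ γ, PP γ = triv S.C ∧ T ⊆ Set.Iio γ := by
  obtain ⟨α, h1, -, h2⟩ := exists_stage hC (triv S.C) T hT
  exact ⟨α, h2 (valid_triv _ _), h1⟩

include hS hP

theorem irr_equiv {H : Type} [NormedAddCommGroup H] [InnerProductSpace ℂ H]
    [CompleteSpace H] {H' : Type} [NormedAddCommGroup H'] [InnerProductSpace ℂ H'] [CompleteSpace H']
    {π : S.C →⋆ₐ[ℂ] (H →L[ℂ] H)} {π' : S.C →⋆ₐ[ℂ] (H' →L[ℂ] H')} (hπ : Irr π)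
    (hπ' : Irr π') {ξ : H} {ξ' : H'} (hξ : ‖ξ‖ = 1) (hξ' : ‖ξ'‖ = 1) :
    ∃ U : H ≃ₗᵢ[ℂ] H', ∀ a v, U (π a v) = π' a (U v) := by
  haveI := S.t.nontrivial
  obtain ⟨r, hr⟩ := half S hS (· = 0) (fun x y hx hy => by rw [hx, hy, add_zero]) one_ne_zero
  obtain ⟨r1, hr1⟩ := half S hS (π · = 0) (fun x y hx hy => by rw [map_add, hx, hy, add_zero])
    (fun h => by
      have := congrArg (fun T : H →L[ℂ] H => ‖T ξ‖) h
      simp [hξ] at this)
  obtain ⟨r2, hr2⟩ := half S hS (π' · = 0) (fun x y hx hy => by rw [map_add, hx, hy, add_zero])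
    (fun h => by
      have := congrArg (fun T : H' →L[ℂ] H' => ‖T ξ'‖) h
      simp [hξ'] at this)
  have hrs := small_of_sq S.t fun n => (hr n).2.2.1
  obtain ⟨F, T, f1, f2, f3⟩ := exists_proj hP (exists_triv hC) hπ hξ
    (fun n => ⟨(hr1 n).1, (hr1 n).2.2.2⟩) (small_of_sq S.t fun n => (hr1 n).2.2.1)
    (fun n => ⟨(hr n).1, (hr n).2.1, (hr n).2.2.2⟩) hrs
  obtain ⟨G, T', g1, g2, g3⟩ := exists_proj hP (exists_triv hC) hπ' hξ'
    (fun n => ⟨(hr2 n).1, (hr2 n).2.2.2⟩) (small_of_sq S.t fun n => (hr2 n).2.2.1)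
    (fun n => ⟨(hr n).1, (hr n).2.1, (hr n).2.2.2⟩) hrs
  obtain ⟨n, s, t, a, b, h⟩ := joint _ _ f2 g2
  obtain ⟨p1, p2⟩ := dec_of_seq S.t (fun n => (hr n).1) hrs (fun k => (h k).1)
    fun k => (h k).2.2.2.1.2
  obtain ⟨q1, q2⟩ := dec_of_seq S.t (fun n => (hr n).1) hrs (fun k => (h k).1)
    fun k => (h k).2.2.2.2.2
  set P : ℕ → S.C := fun k => Nat.casesOn k 1 a with hPd
  set Q : ℕ → S.C := fun k => Nat.casesOn k 1 b with hQd
  have p3 := f3 P p1 (fun k => by cases k; exacts [one_mem _, (h _).2.2.2.1.1]) p2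
    fun k => ⟨s k, (h k).2.1, (h k).2.2.2.1.2.2.2.1⟩
  have q3 := g3 Q q1 (fun k => by cases k; exacts [one_mem _, (h _).2.2.2.2.1]) q2
    fun k => ⟨t k, (h k).2.2.1, (h k).2.2.2.2.2.2.2.1⟩
  have p4 : ∀ k, π (P k) ξ = ξ := by
    intro k
    cases k with
    | zero => simp [hPd]
    | succ k =>
      change π (a k) ξ = ξ
      rw [← f1 (s (k + 1)), ← ContinuousLinearMap.mul_apply, ← map_mul, (h k).2.2.2.1.2.2.2.2]
  have q4 : ∀ k, π' (Q k) ξ' = ξ' := by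
    intro k
    cases k with
    | zero => simp [hQd]
    | succ k =>
      change π' (b k) ξ' = ξ'
      rw [← g1 (t (k + 1)), ← ContinuousLinearMap.mul_apply, ← map_mul, (h k).2.2.2.2.2.2.2.2]
  have pq : ∀ k, S.t.τ (P k) = S.t.τ (Q k) := by
    intro k
    cases k
    exacts [rfl, (h _).2.2.2.1.2.2.1.trans (h _).2.2.2.2.2.2.1.symm]
  suffices ∃ η, ‖η‖ = 1 ∧ ∀ n, π' (P n) η = η by
    obtain ⟨η, h1, h2⟩ := this
    exact equiv_of_fix hπ hπ' hξ h1 p1 p3 p4 h2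
  by_cases ho : ∀ x, Tendsto (fun n => P n * x * Q n) atTop (𝓝 0)
  · obtain ⟨α, -, h1, h2⟩ := exists_stage hC (fun ε => Bool.rec Q P ε) ∅ Set.countable_empty
    have h3 := h2 ⟨fun ε => by cases ε; exacts [q1, p1], fun ε => by cases ε; exacts [q2, p2], pq, h1,
      fun ε x _ => by cases ε; exacts [q3 x, p3 x], fun ε x _ => by
        cases ε
        · simpa [p1.star_eq, q1.star_eq, mul_assoc] using (ho (star x)).star
        · exact ho x⟩
    refine ⟨π' (uu S α true) ξ', ?_, fun n => ?_⟩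
    · have h4 := norm_sq_rep π' ξ' (uu S α true)
      rw [(hP α).us, (hP α).uu, map_one, ContinuousLinearMap.one_apply,
        inner_self_eq_norm_sq_to_K, hξ'] at h4
      have h5 : (1 : ℝ) = ‖π' (uu S α true) ξ'‖ ^ 2 := by
        exact Complex.ofReal_injective (by rw [← h4]; simp)
      exact (pow_eq_one_iff_of_nonneg (norm_nonneg _) two_ne_zero).1 h5.symm
    · have h4 : uu S α true * Q n = P n * uu S α true := by
        have := (hP α).uP true n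
        rwa [h3] at this
      rw [← ContinuousLinearMap.mul_apply, ← map_mul, ← h4, map_mul, ContinuousLinearMap.mul_apply,
        q4]
  · push Not at ho
    obtain ⟨x, hx⟩ := ho
    exact fix_of_not_orth π' hξ' p1 q1 q3 q4 hx

theorem simple (I : TwoSidedIdeal S.C) : I = ⊥ ∨ I = ⊤ := by
  by_contra hcon
  push Not at hcon
  obtain ⟨r, hr⟩ := half S hS (· ∈ I) (fun x y => I.add_mem)
    (fun h => hcon.2 ((TwoSidedIdeal.one_mem_iff I).1 h))
  obtain ⟨x, hx, hx0⟩ : ∃ x ∈ I, x ≠ 0 := by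
    by_contra h
    push Not at h
    exact hcon.1 (eq_bot_iff.2 fun x hx => (TwoSidedIdeal.mem_bot _).2 (h x hx))
  obtain ⟨T, -, hT, hxT⟩ := AA_countable (mem_AA_univ (star x * x))
  obtain ⟨γ, h1, h2⟩ := exists_triv hC T hT
  have hH := hP γ
  rw [h1] at hH
  have h3 := triv_conj hH (fun n => AA_mono (Set.empty_subset _) (hr n).2.1)
    (small_of_sq S.t fun n => (hr n).2.2.1) (fun n => (hr n).1.isSelfAdjoint.star_eq)
    (fun n => (hr n).1.norm_le) (AA_mono h2 hxT) true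
  have hc : 0 < S.t.n2 x ^ 2 := pow_pos (S.t.n2_pos hx0) 2
  obtain ⟨n, hn⟩ := ((NormedAddGroup.tendsto_nhds_zero.1 h3) _ hc).exists
  rw [conj_sub_smul (hr n).1, S.t.τ_star_self] at hn
  set c : ℂ := ((S.t.n2 x ^ 2 : ℝ) : ℂ) with hcd
  have hc0 : c ≠ 0 := by rw [hcd]; exact_mod_cast hc.ne'
  set w := r n * (uu S γ true * (star x * x) * uu S γ (!true)) * r n with hw
  have hwI : w ∈ I := I.mul_mem_right _ _ (I.mul_mem_left _ _ (I.mul_mem_right _ _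
    (I.mul_mem_left _ _ (I.mul_mem_left _ _ hx))))
  have h4 : ‖r n - c⁻¹ • w‖ < 1 := by
    have : r n - c⁻¹ • w = -(c⁻¹ • (w - c • r n)) := by rw [smul_sub, inv_smul_smul₀ hc0, neg_sub]
    rw [this, norm_neg, norm_smul, norm_inv, hcd, Complex.norm_real, Real.norm_of_nonneg hc.le,
      inv_mul_lt_iff₀ hc, mul_one]
    exact hn
  have h5 : (Units.oneSub _ h4 : S.C) * r n = (c⁻¹ • 1) * w := by
    rw [Units.val_oneSub, sub_mul, sub_mul, (hr n).1.isIdempotentElem.eq, smul_mul_assoc, hw,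
      mul_assoc _ (r n), (hr n).1.isIdempotentElem.eq]
    simp
  refine (hr n).2.2.2 ?_
  rw [← Units.inv_mul_cancel_left (Units.oneSub _ h4) (r n), h5]
  exact I.mul_mem_left _ _ (I.mul_mem_left _ _ hwI)

omit hC hP in
theorem not_finite : ¬ FiniteDimensional ℂ S.C := by
  intro hfin
  haveI := S.t.nontrivial
  obtain ⟨r, hr⟩ := half S hS (· = 0) (fun x y hx hy => by rw [hx, hy, add_zero]) one_ne_zero
  let f : S.C →ₗ[ℂ] S.t.Y := ((ContinuousLinearMap.apply ℂ S.t.Y S.t.om : _ →L[ℂ] _) : _ →ₗ[ℂ] _) ∘ₗ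
    (S.t.lam : S.C →ₗ[ℂ] (S.t.Y →L[ℂ] S.t.Y))
  obtain ⟨K, -, hK⟩ := f.exists_antilipschitzWith (LinearMap.ker_eq_bot'.2 S.t.faith)
  have h1 := (small_of_sq S.t fun n => (hr n).2.2.1).const_mul (K : ℝ)
  rw [mul_zero] at h1
  obtain ⟨n, hn⟩ := (h1.eventually (gt_mem_nhds one_pos)).exists
  have h2 : ‖r n‖ ≤ K * S.t.n2 (r n) := ZeroHomClass.bound_of_antilipschitz f hK (r n)
  have h3 := norm_sq_eq (r n)
  rw [(hr n).1.isSelfAdjoint.star_eq, (hr n).1.isIdempotentElem.eq] at h3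
  have h4 := norm_pos_iff.2 (hr n).2.2.2
  nlinarith

end Crest.Agent.Nk
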