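import Crest.Agent.Nk.Hilb
/-! The ping-pong model of an HNN extension over a diagonal. -/
set_option autoImplicit false
set_option linter.deprecated false
set_option linter.unusedSimpArgs false
namespace Crest.Agent.Nk
open scoped InnerProductSpace ComplexConjugate Cardinal
open Filter Topology

variable {C : Type} [CStarAlgebra C]

/-- ping-pong model -/
structure Mdl (t : TS C) (PP : Bool → ℕ → C) where
  H : Type
  [i1 : NormedAddCommGroup H]
  [i2 : InnerProductSpace ℂ H]
  [i3 : CompleteSpace H]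
  pi : C →⋆ₐ[ℂ] (H →L[ℂ] H)
  v : Bool → H →L[ℂ] H
  e : Bool → H →L[ℂ] H
  om : H
  norm_om : ‖om‖ = 1
  tr : ∀ x, ⟪om, pi x om⟫_ℂ = t.τ x
  vv : ∀ ε, v (!ε) * v ε = 1
  vs : ∀ ε, star (v ε) = v (!ε)
  ep : ∀ ε, IsStarProjection (e ε)
  ve : ∀ ε, v ε * (1 - e (!ε)) = e ε * v ε
  ee : ∀ ε x, e ε * pi x * e (!ε) = 0
  eb : ∀ ε x (δ : ℝ), 0 ≤ δ →
    (∀ n, ‖t.τ (x * dif (PP ε) n)‖ ≤ δ * t.n2 (dif (PP ε) n) ^ 2) → ‖e ε * pi x * e ε‖ ≤ δ
  ec : ∀ ε n, e ε * pi (PP ε n) = pi (PP ε n) * e ε
  vP : ∀ ε n, v ε * pi (PP (!ε) n) = pi (PP ε n) * v ε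
  eo : ∀ ε x, e ε (pi x om) = 0

attribute [instance] Mdl.i1 Mdl.i2 Mdl.i3

section diag
variable {I Y : Type} [NormedAddCommGroup Y] [InnerProductSpace ℂ Y] [CompleteSpace Y]

omit [CompleteSpace Y] in
theorem map_apply (T : I → Y →L[ℂ] Y) {K : ℝ} (hK : 0 ≤ K) (hT : ∀ i, ‖T i‖ ≤ K) (x : L2 I Y)
    (i : I) : (lp.mapCLM 2 T hK hT x : L2 I Y) i = T i (x i) := rfl

theorem star_eq_of_coord (S S' : L2 I Y →L[ℂ] L2 I Y) (T : I → Y →L[ℂ] Y)
    (h : ∀ x i, S x i = T i (x i)) (h' : ∀ x i, S' x i = star (T i) (x i)) : star S = S' := by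
  rw [ContinuousLinearMap.star_eq_adjoint, eq_comm, ContinuousLinearMap.eq_adjoint_iff]
  intro x y
  rw [lp.inner_eq_tsum, lp.inner_eq_tsum]
  refine tsum_congr fun i => ?_
  rw [h, h', ContinuousLinearMap.star_eq_adjoint, ContinuousLinearMap.adjoint_inner_left]

/-- amplification of a representation -/
noncomputable def amp (I : Type) (lam : C →⋆ₐ[ℂ] (Y →L[ℂ] Y)) : C →⋆ₐ[ℂ] (L2 I Y →L[ℂ] L2 I Y) where
  toFun x := lp.mapCLM 2 (fun _ => lam x) (norm_nonneg (lam x)) (fun _ => le_rfl)
  map_one' := by ext x i; simp [map_apply]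
  map_mul' a b := by ext x i; simp [map_apply]
  map_zero' := by ext x i; simp [map_apply]
  map_add' a b := by ext x i; simp [map_apply]
  commutes' r := by ext x i; simp [map_apply, Algebra.algebraMap_eq_smul_one]
  map_star' a := by
    symm
    exact star_eq_of_coord _ _ (fun _ => lam a) (fun _ _ => rfl)
      (fun x i => by rw [map_apply, map_star])

theorem amp_apply (lam : C →⋆ₐ[ℂ] (Y →L[ℂ] Y)) (a : C) (x : L2 I Y) (i : I) :
    amp I lam a x i = lam a (x i) := rfl

/-- rank one operator -/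
noncomputable def rk (w : Y) : Y →L[ℂ] Y := (innerSL ℂ w).smulRight w

omit [CompleteSpace Y] in
theorem rk_apply (w x : Y) : rk w x = ⟪w, x⟫_ℂ • w := rfl

omit [CompleteSpace Y] in
theorem norm_rk {w : Y} (hw : ‖w‖ ≤ 1) : ‖rk w‖ ≤ 1 := by
  rw [rk, ContinuousLinearMap.norm_smulRight_apply, innerSL_apply_norm]
  nlinarith [norm_nonneg w]

theorem star_rk (w : Y) : star (rk w) = rk w := by
  rw [ContinuousLinearMap.star_eq_adjoint, eq_comm, ContinuousLinearMap.eq_adjoint_iff]
  intro x y
  rw [rk_apply, rk_apply, inner_smul_left, inner_smul_right, inner_conj_symm, mul_comm]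

end diag

theorem exists_mdl (t : TS C) (PP : Bool → ℕ → C) (hP : ∀ ε, Dec (PP ε))
    (hs : ∀ ε, t.Small (PP ε)) (heq : ∀ n, t.τ (PP true n) = t.τ (PP false n)) :
    Nonempty (Mdl t PP) := by
  classical
  obtain ⟨J, hJ⟩ := exists_index t.Y
  let I := Option (ℕ × Bool × J)
  let ω : Bool → ℕ → t.Y := fun ε n => ((t.n2 (dif (PP ε) n) : ℂ))⁻¹ • t.lam (dif (PP ε) n) t.om
  have hω1 : ∀ ε n, dif (PP ε) n ≠ 0 → ‖ω ε n‖ = 1 := by
    intro ε n h
    have := t.n2_pos h
    simp only [ω]
    rw [norm_smul, norm_inv, Complex.norm_real, Real.norm_eq_abs, abs_of_pos this]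
    exact inv_mul_cancel₀ this.ne'
  have hω0 : ∀ ε n, dif (PP ε) n = 0 → ω ε n = 0 := by
    intro ε n h; simp [ω, h]
  have hωP : ∀ ε n m, t.lam (PP ε m) (ω ε n) = if m ≤ n then ω ε n else 0 := by
    intro ε n m
    simp only [ω, map_smul, ← ContinuousLinearMap.mul_apply, ← map_mul]
    split_ifs with h
    · rw [(hP ε).mul_dif_le h]
    · rw [(hP ε).mul_dif_gt (not_le.1 h)]; simp
  have hωd : ∀ ε n, t.lam (dif (PP ε) n) (ω ε n) = ω ε n := by
    intro ε n
    simp only [ω, map_smul, ← ContinuousLinearMap.mul_apply, ← map_mul,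
      ((hP ε).dif_proj n).isIdempotentElem.eq]
  let w : Bool → I → t.Y := fun ε i => match i with
    | none => 0
    | some z => if z.2.1 = ε then ω ε z.1 else 0
  have hw : ∀ ε i, w ε i = 0 ∨ ∃ n, dif (PP ε) n ≠ 0 ∧ w ε i = ω ε n := by
    intro ε i
    rcases i with _ | z
    · exact Or.inl rfl
    · simp only [w]
      split_ifs with h
      · by_cases h0 : dif (PP ε) z.1 = 0
        · exact Or.inl (hω0 _ _ h0)
        · exact Or.inr ⟨_, h0, rfl⟩
      · exact Or.inl rfl
  have hw1 : ∀ ε i, ‖w ε i‖ ≤ 1 := by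
    intro ε i
    rcases hw ε i with h | ⟨n, h0, h⟩
    · simp [h]
    · rw [h, hω1 ε n h0]
  have hww : ∀ ε i, ⟪w ε i, w ε i⟫_ℂ • w ε i = w ε i := by
    intro ε i
    rcases hw ε i with h | ⟨n, h0, h⟩
    · simp [h]
    · rw [h, inner_self_eq_norm_sq_to_K, hω1 ε n h0]; simp
  have hwne : ∀ ε i, w ε i = 0 ∨ w (!ε) i = 0 := by
    intro ε i
    rcases i with _ | z
    · exact Or.inl rfl
    · simp only [w]
      by_cases h : z.2.1 = ε
      · right; rw [if_neg (by rw [h]; simp)]
      · left; rw [if_neg h]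
  let e : Bool → L2 I t.Y →L[ℂ] L2 I t.Y := fun ε =>
    lp.mapCLM 2 (fun i => rk (w ε i)) zero_le_one (fun i => norm_rk (hw1 ε i))
  have he : ∀ ε x i, e ε x i = ⟪w ε i, x i⟫_ℂ • w ε i := fun _ _ _ => rfl
  let π := amp I t.lam
  have hπ : ∀ a x i, π a x i = t.lam a (x i) := fun _ _ _ => rfl
  have hep : ∀ ε, IsStarProjection (e ε) := by
    intro ε
    refine ⟨?_, ?_⟩
    · ext x i
      rw [ContinuousLinearMap.mul_apply, he, he, inner_smul_right, mul_smul, hww]
    · exact star_eq_of_coord _ _ (fun i => rk (w ε i)) (fun _ _ => rfl)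
        (fun x i => by rw [star_rk]; rfl)
  have hec : ∀ ε n, e ε * π (PP ε n) = π (PP ε n) * e ε := by
    intro ε n
    ext x i
    rw [ContinuousLinearMap.mul_apply, ContinuousLinearMap.mul_apply, he, hπ, hπ, he, map_smul,
      ← proj_inner (((hP ε).proj n).map t.lam)]
    rcases hw ε i with h | ⟨k, -, h⟩
    · simp [h]
    · rw [h, hωP]; split_ifs <;> simp
  have hecd : ∀ ε n, Commute (π (dif (PP ε) n)) (e ε) := by
    intro ε n
    rw [dif, map_sub]
    exact Commute.sub_left (hec ε n).symm (hec ε _).symm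
  have hdp : ∀ ε n, IsStarProjection (π (dif (PP ε) n)) := fun ε n => ((hP ε).dif_proj n).map π
  have htot : ∀ ε (x : L2 I t.Y), (∀ n, π (dif (PP ε) n) x = 0) → x = 0 := by
    intro ε x hx
    have h1 : ∀ N, π (PP ε N) x = x := by
      intro N
      induction N with
      | zero => rw [(hP ε).zero]; simp
      | succ N ih =>
        have := hx N
        rw [dif, map_sub, ContinuousLinearMap.sub_apply, sub_eq_zero] at this
        rw [← this, ih]
    ext i
    have h2 := t.strong_of_n2 (hP ε).norm_le (hs ε) (x i)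
    have h3 : (fun N => t.lam (PP ε N) (x i)) = fun _ => x i := by
      funext N; rw [← hπ, h1]
    rw [h3] at h2
    exact tendsto_nhds_unique tendsto_const_nhds h2
  -- the four families
  let f : Bool → Bool → L2 I t.Y →L[ℂ] L2 I t.Y := fun ε s => if s then e ε else 1 - e ε
  have hfp : ∀ ε s, IsStarProjection (f ε s) := by
    intro ε s; cases s
    · exact (hep ε).one_sub
    · exact hep ε
  have hfc : ∀ ε s n, Commute (π (dif (PP ε) n)) (f ε s) := by
    intro ε s n; cases s
    · exact (Commute.one_right _).sub_right (hecd ε n)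
    · exact hecd ε n
  have hfo : ∀ ε s, f ε s * f ε (!s) = 0 := by
    intro ε s; cases s
    · exact (hep ε).one_sub_mul_self
    · exact (hep ε).mul_one_sub_self
  have hfs : ∀ ε s, f ε s + f ε (!s) = 1 := by
    intro ε s; cases s <;> simp [f]
  let fam : Bool → Bool → ℕ × Bool → L2 I t.Y →L[ℂ] L2 I t.Y := fun ε σ k =>
    π (dif (PP ε) k.1) * f ε (xor k.2 σ)
  have hfam1 : ∀ ε σ k, IsStarProjection (fam ε σ k) := fun ε σ k =>
    (hdp ε k.1).mul (hfp ε _) (hfc ε _ _)
  have hfam2 : ∀ ε σ k l, k ≠ l → fam ε σ k * fam ε σ l = 0 := by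
    rintro ε σ ⟨n, s⟩ ⟨m, r⟩ hkl
    simp only [fam]
    by_cases h : n = m
    · subst h
      have hr : xor r σ = !(xor s σ) := by
        have : s ≠ r := fun h => hkl (by rw [h])
        revert this; cases s <;> cases r <;> cases σ <;> simp
      rw [hr, mul_assoc, (hfc ε _ n).eq, ← mul_assoc (f ε _), hfo]; simp
    · rw [(hfc ε _ n).eq, mul_assoc, ← mul_assoc (π _), ← map_mul, (hP ε).dif_mul_dif h]; simp
  have hfam4 : ∀ ε σ n, fam ε σ (n, true) + fam ε σ (n, false) = π (dif (PP ε) n) := by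
    intro ε σ n
    simp only [fam]
    rw [← mul_add]
    have : f ε (xor true σ) + f ε (xor false σ) = 1 := by
      have := hfs ε (xor true σ)
      cases σ <;> simpa using this
    rw [this, mul_one]
  have hfam3 : ∀ ε σ x, (∀ k, fam ε σ k x = 0) → x = 0 := by
    intro ε σ x hx
    refine htot ε x fun n => ?_
    rw [← hfam4 ε σ n, ContinuousLinearMap.add_apply, hx, hx, add_zero]
  have hon : ∀ (z : ℕ × Bool) (y : t.Y), ‖y‖ = 1 →
      Orthonormal ℂ (fun j : J => (lp.single 2 (some (z.1, z.2, j)) y : L2 I t.Y)) := by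
    intro z y hy
    refine ⟨fun j => by rw [lp.norm_single (by norm_num), hy], fun j k hjk => ?_⟩
    simp only []
    rw [lp.inner_single_left, lp.single_apply_ne, inner_zero_right]
    intro h
    exact hjk (congrArg (fun z : ℕ × Bool × J => z.2.2) (Option.some.inj h))
  have hbas : ∀ ε s n, dif (PP ε) n ≠ 0 →
      Nonempty (HilbertBasis J ℂ (fix (π (dif (PP ε) n) * f ε s))) := by
    intro ε s n h0
    cases s
    · refine exists_basis_fix hJ _ _ (hon (0, !ε) (ω ε n) (hω1 ε n h0)) fun j => ?_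
      ext i
      simp only [f, ContinuousLinearMap.mul_apply, hπ, Bool.false_eq_true, if_false,
        ContinuousLinearMap.sub_apply, ContinuousLinearMap.one_apply, lp.coeFn_sub, Pi.sub_apply,
        he]
      by_cases hi : i = some (0, !ε, j)
      · subst hi
        have : w ε (some (0, !ε, j)) = 0 := by simp [w]
        rw [this, lp.single_apply_self]; simp [hωd]
      · rw [lp.single_apply_ne _ _ _ hi]; simp
    · refine exists_basis_fix hJ _ _ (hon (n, ε) (ω ε n) (hω1 ε n h0)) fun j => ?_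
      ext i
      simp only [f, ContinuousLinearMap.mul_apply, hπ, if_true, he]
      by_cases hi : i = some (n, ε, j)
      · subst hi
        have h1 : w ε (some (n, ε, j)) = ω ε n := by simp [w]
        have h2 := hww ε (some (n, ε, j))
        rw [h1] at h2
        rw [h1, lp.single_apply_self, h2, hωd]
      · rw [lp.single_apply_ne _ _ _ hi]; simp
  have hz : ∀ n, dif (PP false) n = 0 ↔ dif (PP true) n = 0 := by
    intro n
    have h1 : t.τ (dif (PP true) n) = t.τ (dif (PP false) n) := by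
      simp only [dif, map_sub, heq]
    rw [t.τ_proj ((hP _).dif_proj n), t.τ_proj ((hP _).dif_proj n)] at h1
    have h2 : t.n2 (dif (PP true) n) ^ 2 = t.n2 (dif (PP false) n) ^ 2 := by exact_mod_cast h1
    constructor
    · intro h; rw [h, t.n2_zero] at h2; exact t.n2_eq_zero (by simpa using h2)
    · intro h; rw [h, t.n2_zero] at h2; exact t.n2_eq_zero (by simpa using h2.symm)
  obtain ⟨U, hU⟩ := exists_unitary (fam false true) (fam true false) (hfam1 _ _) (hfam1 _ _)
    (hfam2 _ _) (hfam2 _ _) (hfam3 _ _) (hfam3 _ _) (by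
      rintro ⟨n, s⟩
      by_cases h0 : dif (PP false) n = 0
      · have h1 := (hz n).1 h0
        have e1 : fam false true (n, s) = 0 := by simp [fam, h0]
        have e2 : fam true false (n, s) = 0 := by simp [fam, h1]
        rw [e1, e2]; exact ⟨LinearIsometryEquiv.refl _ _⟩
      · obtain ⟨b1⟩ := hbas false (xor s true) n h0
        obtain ⟨b2⟩ := hbas true (xor s false) n (fun h => h0 ((hz n).2 h))
        exact ⟨b1.repr.trans b2.repr.symm⟩)
  have hUd : ∀ n x, U (π (dif (PP false) n) x) = π (dif (PP true) n) (U x) := by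
    intro n x
    rw [← hfam4 false true n, ← hfam4 true false n, ContinuousLinearMap.add_apply,
      ContinuousLinearMap.add_apply, map_add, hU, hU]
  have hUP : ∀ n x, U (π (PP false n) x) = π (PP true n) (U x) := by
    intro n x
    induction n with
    | zero => rw [(hP _).zero, (hP _).zero]; simp
    | succ n ih =>
      have := hUd n x
      simp only [dif, map_sub, ContinuousLinearMap.sub_apply, ih, sub_right_inj] at this
      exact this
  have hUe : ∀ x, U ((1 - e false) x) = e true (U x) := by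
    intro x
    rw [← sub_eq_zero]
    refine htot true _ fun n => ?_
    have := hU (n, true) x
    simp only [fam, f, Bool.xor_self, Bool.xor_false, Bool.false_eq_true, if_false, if_true,
      ContinuousLinearMap.mul_apply] at this
    rw [map_sub, ← hUd, this, sub_self]
  let v : Bool → L2 I t.Y →L[ℂ] L2 I t.Y := fun ε =>
    if ε then (U : L2 I t.Y →L[ℂ] L2 I t.Y) else (U.symm : L2 I t.Y →L[ℂ] L2 I t.Y)
  have hv1 : ∀ x, v true x = U x := fun _ => rfl
  have hv0 : ∀ x, v false x = U.symm x := fun _ => rfl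
  refine ⟨⟨L2 I t.Y, π, v, e, lp.single 2 none t.om, ?_, fun x => ?_, fun ε => ?_, fun ε => ?_,
    hep, fun ε => ?_, fun ε x => ?_, fun ε x δ hδ h => ?_, hec, fun ε n => ?_, fun ε x => ?_⟩⟩
  · rw [lp.norm_single (by norm_num), t.norm_om]
  · rw [lp.inner_single_left, hπ, lp.single_apply_self]; rfl
  · refine ContinuousLinearMap.ext fun x => ?_
    cases ε <;> simp [hv1, hv0]
  · cases ε
    · simpa [v] using U.symm.star_eq_symm
    · simpa [v] using U.star_eq_symm
  · refine ContinuousLinearMap.ext fun x => ?_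
    cases ε
    · simp only [Bool.not_false, ContinuousLinearMap.mul_apply, hv0]
      apply U.injective
      have := hUe (U.symm x)
      rw [ContinuousLinearMap.sub_apply, map_sub] at this
      simp only [ContinuousLinearMap.one_apply, LinearIsometryEquiv.apply_symm_apply] at this
      simp only [ContinuousLinearMap.sub_apply, ContinuousLinearMap.one_apply,
        LinearIsometryEquiv.apply_symm_apply, ← this, sub_sub_cancel]
    · exact hUe x
  · ext y i
    simp only [ContinuousLinearMap.mul_apply, he, hπ]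
    rcases hwne ε i with h | h <;> simp [h]
  · have hb : ∀ i, ‖⟪w ε i, t.lam x (w ε i)⟫_ℂ • rk (w ε i)‖ ≤ δ := by
      intro i
      rw [norm_smul]
      refine (mul_le_of_le_one_right (norm_nonneg _) (norm_rk (hw1 ε i))).trans ?_
      rcases hw ε i with h0 | ⟨n, h0, h1⟩
      · simpa [h0] using hδ
      · have hpos := t.n2_pos h0
        have h2 := h n
        rw [t.τ_mul_proj ((hP ε).dif_proj n), mul_assoc, t.τ_star_mul, map_mul,
          ContinuousLinearMap.mul_apply] at h2
        rw [h1]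
        simp only [ω, map_smul, inner_smul_left, inner_smul_right, norm_mul, map_inv₀, norm_inv,
          Complex.conj_ofReal, Complex.norm_real, Real.norm_eq_abs, abs_of_pos hpos]
        rw [← mul_assoc, ← mul_inv, inv_mul_le_iff₀ (by positivity)]
        nlinarith
    have : e ε * π x * e ε = lp.mapCLM 2 (fun i => ⟪w ε i, t.lam x (w ε i)⟫_ℂ • rk (w ε i)) hδ hb := by
      ext y i
      simp only [ContinuousLinearMap.mul_apply, he, hπ, map_apply, map_smul, inner_smul_right,
        ContinuousLinearMap.smul_apply, rk_apply, smul_smul, mul_comm]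
    rw [this]; exact lp.norm_mapCLM_le _ _ _ _
  · refine ContinuousLinearMap.ext fun x => ?_
    cases ε
    · simp only [Bool.not_false, ContinuousLinearMap.mul_apply, hv0]
      apply U.injective
      rw [hUP]; simp
    · exact hUP n x
  · ext i
    rw [he, hπ]
    rcases i with _ | z
    · simp [w]
    · rw [lp.single_apply_ne _ _ _ (by simp)]; simp

end Crest.Agent.Nk
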