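import Crest.Agent.Nk.Base
/-! Excising projections for a pure state of the tower. -/
set_option autoImplicit false
set_option linter.deprecated false
set_option linter.unusedSimpArgs false
set_option linter.unusedVariables false
set_option linter.unusedSectionVars false
set_option linter.style.haveILetI false
namespace Crest.Agent.Nk
open scoped InnerProductSpace ComplexConjugate
open Filter Topology

section
variable {C : Type} [CStarAlgebra C] {t : TS C} {B : StarSubalgebra ℂ C} {u : Bool → C}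

theorem triv_claim (R : ℕ → C) : ∀ ε, ∀ a ∈ B, ∀ b ∈ B, ∀ η > 0, ∃ j, ∀ᶠ m in atTop,
    ‖R m * a * triv C ε j‖ * ‖triv C (!ε) j * b * R m‖ ≤ η :=
  fun ε a _ b _ η hη => ⟨1, Eventually.of_forall fun m => by simpa [triv] using hη.le⟩

theorem HNN.uu' {PP : Bool → ℕ → C} (h : HNN t B u PP) (ε : Bool) : u ε * u (!ε) = 1 := by
  simpa using h.uu (!ε)

theorem HNN.norm_u {PP : Bool → ℕ → C} (h : HNN t B u PP) (ε : Bool) : ‖u ε‖ ≤ 1 := by
  have h1 := norm_sq_eq (u ε)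
  rw [h.us, h.uu] at h1
  nlinarith [(IsStarProjection.one C).norm_le, norm_nonneg (u ε)]

theorem triv_conj (h : HNN t B u (triv C)) {R : ℕ → C} (hm : ∀ m, R m ∈ B) (hR : t.Small R)
    (hs : ∀ m, star (R m) = R m) (h1 : ∀ m, ‖R m‖ ≤ 1) {y : C} (hy : y ∈ B) (ε : Bool) :
    Tendsto (fun m => R m * (u ε * y * u (!ε) - t.τ y • 1) * R m) atTop (𝓝 0) := by
  have hw : Red (B : Set C) u (ZZ t (triv C)) ε (u ε * (y - t.τ y • 1) * (u (!ε) * 1)) :=
    Red.step ε (!ε) _ _ (sub_mem hy (SMulMemClass.smul_mem _ (one_mem B))) (fun _ n => by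
      unfold triv; split_ifs <;> simp [t.τ_one]) (Red.base _ 1 (one_mem B))
  have := h.ep1 hm hR hs h1 (triv_claim R) hw (one_mem B)
  simpa only [one_mul, mul_one, mul_sub (u ε), sub_mul _ _ (u (!ε)), mul_smul_comm, smul_mul_assoc,
    h.uu'] using this

theorem triv_lt (h : HNN t B u (triv C)) {R : ℕ → C} (hm : ∀ m, R m ∈ B) (hR : t.Small R)
    (hs : ∀ m, star (R m) = R m) (h1 : ∀ m, ‖R m‖ ≤ 1) {y : C} (hy : y ∈ B) (hn : t.n2 y < 1)
    (ε : Bool) : ∀ᶠ m in atTop, ‖y * u ε * R m‖ < 1 := by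
  have h2 := triv_conj h hm hR hs h1 (mul_mem (star_mem hy) hy) (!ε)
  have h3 : t.n2 y ^ 2 < 1 := by nlinarith [t.n2_nonneg y]
  filter_upwards [(NormedAddGroup.tendsto_nhds_zero.1 h2) _ (sub_pos.2 h3)] with m hm
  have e : star (y * u ε * R m) * (y * u ε * R m) =
      R m * (u (!ε) * (star y * y) * u (!!ε) - t.τ (star y * y) • 1) * R m +
        t.τ (star y * y) • (R m * R m) := by
    simp only [star_mul, hs, h.us, Bool.not_not, mul_sub, sub_mul, mul_smul_comm, smul_mul_assoc,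
      mul_one, mul_assoc, sub_add_cancel]
  have h4 := norm_sq_eq (y * u ε * R m)
  have h5 : ‖t.τ (star y * y) • (R m * R m)‖ ≤ t.n2 y ^ 2 := by
    rw [norm_smul, t.τ_star_self, Complex.norm_real, Real.norm_of_nonneg (sq_nonneg _)]
    exact mul_le_of_le_one_right (sq_nonneg _) ((norm_left_le (h1 m) _).trans (h1 m))
  have h6 := (h4.trans (congrArg norm e)).trans_le (norm_add_le _ _)
  exact (sq_lt_one_iff₀ (norm_nonneg _)).1 (by linarith)

theorem n2_lt_one (t : TS C) {x y : C} (h1 : star x * y = 0) (h : ‖x + y‖ ≤ 1) (hy : y ≠ 0) :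
    t.n2 x < 1 := by
  have h2 : star y * x = 0 := by simpa using congrArg star h1
  have h3 := t.τ_star_self (x + y)
  rw [star_add, add_mul, mul_add, mul_add, h1, h2, add_zero, zero_add, map_add, t.τ_star_self,
    t.τ_star_self] at h3
  have h4 : t.n2 x ^ 2 + t.n2 y ^ 2 = t.n2 (x + y) ^ 2 := by exact_mod_cast h3
  have h5 := (t.n2_le _).trans h
  have h6 := t.n2_pos hy
  have h7 := t.n2_nonneg (x + y)
  exact (sq_lt_one_iff₀ (t.n2_nonneg _)).1 (by nlinarith)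

theorem sandwich_mem [hB : IsClosed (B : Set C)] (t : TS C) {q km gm kp gp : C} (m1 : q ∈ B)
    (m2 : km ∈ B) (m3 : gm ∈ B) (m4 : kp ∈ B) (m5 : gp ∈ B) (hq : IsStarProjection q)
    (h1 : gm * km = gm) (h2 : kp * gp = gp) (h3 : km * kp = 0) (h4 : ‖(1 - q) * kp‖ < 1)
    (h5 : ‖km * q‖ < 1) (h6 : ‖1 - kp‖ ≤ 1) :
    ∃ P ∈ B, IsStarProjection P ∧ gm * P = 0 ∧ P * gp = gp ∧ t.τ P = t.τ q := by
  obtain ⟨P, a1, a2, a3, a4⟩ := exists_sandwich (D := B) (q := ⟨q, m1⟩) (km := ⟨km, m2⟩)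
    (gm := ⟨gm, m3⟩) (kp := ⟨kp, m4⟩) (gp := ⟨gp, m5⟩)
    ⟨Subtype.ext hq.isIdempotentElem.eq, Subtype.ext hq.isSelfAdjoint.star_eq⟩ (Subtype.ext h1)
    (Subtype.ext h2) (Subtype.ext h3) h4 h5 h6
  exact ⟨P, P.2, a1.map B.subtype, congrArg Subtype.val a2, congrArg Subtype.val a3,
    a4 (fun x => t.τ x) fun x y => t.τ_comm _ _⟩

end

variable {Λ : Type} [LinearOrder Λ] [WellFoundedLT Λ] {S : Sys (GG Λ)} {PP : Λ → Bool → ℕ → S.C}
  {H : Type} [NormedAddCommGroup H] [InnerProductSpace ℂ H] [CompleteSpace H]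

theorem exists_F (hP : ∀ α, HNN S.t (AA S (Set.Iio α)) (uu S α) (PP α))
    {π : S.C →⋆ₐ[ℂ] (H →L[ℂ] H)} (hπ : Irr π) {ξ : H} (hξ : ‖ξ‖ = 1) {r : ℕ → S.C}
    (hr : ∀ n, IsStarProjection (r n) ∧ π (r n) ≠ 0) (hrs : S.t.Small r) :
    ∃ T : Set Λ, T.Countable ∧ (∀ β ∈ T, ∀ ε n, PP β ε n ∈ AA S (T ∩ Set.Iio β)) ∧
      ∃ F : ℕ → S.C, (∀ m, F m ∈ AA S T ∧ star (F m) = F m ∧ ‖F m‖ ≤ 1 ∧ ‖1 - F m‖ ≤ 1 ∧
        F m * F (m + 1) = F (m + 1) ∧ π (F m) ξ = ξ) ∧ S.t.Small F ∧ ∀ x ∈ AA S T, Exc F x := by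
  choose σ0 _ h01 h02 using fun x : S.C => AA_countable (mem_AA_univ x)
  choose σ1 h11 h12 h13 using fun β ε n => AA_countable ((hP β).valid.mem ε n)
  have hξξ : ⟪ξ, ξ⟫_ℂ = 1 := by rw [inner_self_eq_norm_sq_to_K, hξ]; simp
  choose l l' hl hl' hll using fun (g : GG Λ) (i : ℕ) =>
    hπ.ker hξ (a := S.ρ g - ⟪ξ, π (S.ρ g) ξ⟫_ℂ • 1)
      (by simp [inner_sub_right, inner_smul_right, hξ]) (ε := 1 / ((i : ℝ) + 1)) (by positivity)
  choose z z' hz hz' hzz using fun j => hπ.witness hξ (hr j).1 (hr j).2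
  obtain ⟨T, hT, hcl⟩ := closing_off (fun g => (⋃ i, σ0 (l g i) ∪ σ0 (l' g i)) ∪
    (⋃ j, σ0 (1 - z j * r j * z' j)) ∪ ⋃ β ∈ {β | g = FreeGroup.of (Sum.inr β)}, ⋃ ε, ⋃ n, σ1 β ε n)
    (fun g => ((Set.countable_iUnion fun i => (h01 _).union (h01 _)).union
      (Set.countable_iUnion fun j => h01 _)).union (Set.Countable.biUnion
        (Set.Subsingleton.countable fun a ha b hb =>
          Sum.inr_injective (FreeGroup.of_injective (ha.symm.trans hb)))
        fun β _ => Set.countable_iUnion fun ε => Set.countable_iUnion fun n => h12 β ε n))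
  let 𝓛 : Set S.C := (⋃ g ∈ (KK T : Set (GG Λ)), Set.range (l g) ∪ Set.range (l' g)) ∪
    Set.range fun j => 1 - z j * r j * z' j
  have hc : 𝓛.Countable := ((KK_countable hT).biUnion fun g _ =>
    (Set.countable_range _).union (Set.countable_range _)).union (Set.countable_range _)
  obtain ⟨L, hL⟩ := hc.exists_eq_range ⟨_, Or.inr ⟨0, rfl⟩⟩
  have hLm : ∀ x ∈ 𝓛, x ∈ AA S T ∧ π x ξ = 0 := by
    rintro x (hx | ⟨j, rfl⟩)
    · obtain ⟨g, hg, hx⟩ := Set.mem_iUnion₂.1 hx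
      rcases hx with ⟨i, rfl⟩ | ⟨i, rfl⟩
      · exact ⟨AA_mono (fun β hβ => hcl g hg (Or.inl (Or.inl (Set.mem_iUnion.2 ⟨i, Or.inl hβ⟩))))
          (h02 _), hl g i⟩
      · exact ⟨AA_mono (fun β hβ => hcl g hg (Or.inl (Or.inl (Set.mem_iUnion.2 ⟨i, Or.inr hβ⟩))))
          (h02 _), hl' g i⟩
    · exact ⟨AA_mono (fun β hβ => hcl 1 (one_mem _) (Or.inl (Or.inr (Set.mem_iUnion.2 ⟨j, hβ⟩))))
        (h02 _), by rw [map_sub, ContinuousLinearMap.sub_apply, hzz]; simp⟩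
  let f : S.C →L[ℂ] H := (ContinuousLinearMap.apply ℂ H ξ) ∘L
    ⟨(π : S.C →ₗ[ℂ] (H →L[ℂ] H)), hom_cont π⟩
  have hf : ∀ x, f x = π x ξ := fun _ => rfl
  obtain ⟨F, hF, hlim⟩ := exists_fun (AA S T) f (fun x y hy => by
    rw [hf] at hy ⊢; simp [hy]) L (fun n => (hLm _ (by rw [hL]; exact ⟨n, rfl⟩)).1)
    (fun n => (hLm _ (by rw [hL]; exact ⟨n, rfl⟩)).2)
  have hlim' : ∀ x ∈ 𝓛, ∀ ε > 0, ∀ᶠ m in atTop, ‖x * F m‖ < ε := by
    intro x hx
    rw [hL] at hx
    obtain ⟨n, rfl⟩ := hx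
    exact NormedAddGroup.tendsto_nhds_zero.1 (hlim n)
  refine ⟨T, hT, fun β hβ ε n => AA_mono (fun γ hγ => And.intro (hcl _ (of_mem_KK (ok_inr.2 hβ))
    (Or.inr (Set.mem_biUnion (show β ∈ {γ | FreeGroup.of (Sum.inr β) = FreeGroup.of (Sum.inr γ)} from rfl)
      (Set.mem_iUnion₂.2 ⟨ε, n, hγ⟩)))) (h11 β ε n hγ)) (h13 β ε n), F,
    fun m => ⟨(hF m).1, (hF m).2.1, (hF m).2.2.1, (hF m).2.2.2.1, (hF m).2.2.2.2.1, ?_⟩, ?_, ?_⟩
  · have := (hF m).2.2.2.2.2
    rw [hf, map_sub, map_one, ContinuousLinearMap.sub_apply, sub_eq_zero] at this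
    exact this.symm
  · rw [TS.Small, Metric.tendsto_nhds]
    intro ε hε
    obtain ⟨j, hj⟩ := (hrs.eventually (gt_mem_nhds (show 0 < ε / 128 by positivity))).exists
    filter_upwards [hlim' _ (Or.inr ⟨j, rfl⟩) _ (half_pos hε)] with m hm
    rw [Real.dist_0_eq_abs, abs_of_nonneg (S.t.n2_nonneg _)]
    have e : F m = (1 - z j * r j * z' j) * F m + z j * r j * z' j * F m := by noncomm_ring
    have a1 := S.t.n2_add ((1 - z j * r j * z' j) * F m) (z j * r j * z' j * F m)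
    have a2 := S.t.n2_le ((1 - z j * r j * z' j) * F m)
    have a3 := S.t.n2_mul_right (z j * r j) (z' j * F m)
    have a4 := (S.t.n2_mul_left (z j) (r j)).trans
      (mul_le_mul_of_nonneg_right (hz j) (S.t.n2_nonneg _))
    have a5 := (norm_right_le (hF m).2.2.1 (z' j)).trans (hz' j)
    have a6 := mul_le_mul a4 a5 (norm_nonneg _) (by have := S.t.n2_nonneg (r j); positivity)
    rw [← e] at a1
    rw [← mul_assoc] at a3
    linarith
  · intro x hx
    have h1 : ∀ m, ‖F m‖ ≤ 1 := fun m => (hF m).2.2.1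
    refine (isClosed_exc h1).closure_subset (a := x)
      (galg_sub_of_submodule S.ρ S.st (excSub F) (fun g hg ε hε => ⟨⟪ξ, π (S.ρ g) ξ⟫_ℂ, ?_⟩) hx)
    obtain ⟨i, hi⟩ := exists_nat_one_div_lt (show 0 < ε / 3 by positivity)
    filter_upwards [hlim' _ (Or.inl (Set.mem_biUnion hg (Or.inl ⟨i, rfl⟩))) (ε / 3) (by positivity),
      hlim' _ (Or.inl (Set.mem_biUnion hg (Or.inr ⟨i, rfl⟩))) (ε / 3) (by positivity)] with m a1 a2
    set a := S.ρ g - ⟪ξ, π (S.ρ g) ξ⟫_ℂ • (1 : S.C)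
    have e : F m * a * F m = F m * (a - l g i - star (l' g i)) * F m + F m * (l g i * F m) +
        star (l' g i * F m) * F m := by rw [star_mul, (hF m).2.1]; noncomm_ring
    have b1 := ((norm_right_le (h1 m) _).trans (norm_left_le (h1 m) _)).trans (hll g i)
    have b2 := norm_left_le (h1 m) (l g i * F m)
    have b3 := norm_right_le (h1 m) (star (l' g i * F m))
    rw [norm_star] at b3
    rw [e]
    refine (norm_add₃_le).trans ?_
    linarith

theorem exists_proj (hP : ∀ α, HNN S.t (AA S (Set.Iio α)) (uu S α) (PP α))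
    (htr : ∀ T : Set Λ, T.Countable → ∃ γ, PP γ = triv S.C ∧ T ⊆ Set.Iio γ)
    {π : S.C →⋆ₐ[ℂ] (H →L[ℂ] H)} (hπ : Irr π) {ξ : H} (hξ : ‖ξ‖ = 1) {r' : ℕ → S.C}
    (hr' : ∀ n, IsStarProjection (r' n) ∧ π (r' n) ≠ 0) (hrs' : S.t.Small r') {r : ℕ → S.C}
    (hr : ∀ n, IsStarProjection (r n) ∧ r n ∈ AA S ∅ ∧ r n ≠ 0) (hrs : S.t.Small r) :
    ∃ F : ℕ → S.C, ∃ T : Set Λ, (∀ m, π (F m) ξ = ξ) ∧
      (∀ m, ∀ᶠ n in atTop, ∃ m', m < m' ∧ ∃ p ∈ AA S T, IsStarProjection p ∧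
        S.t.τ p = S.t.τ (r n) ∧ F m * p = p ∧ p * F m' = F m') ∧
      ∀ R : ℕ → S.C, Dec R → (∀ k, R k ∈ AA S T) → S.t.Small R →
        (∀ k, ∃ m, k ≤ m ∧ F m * R (k + 1) = R (k + 1)) → ∀ x, Exc R x := by
  obtain ⟨T, hT, hcl, F, hF, hFs, hFe⟩ := exists_F hP hπ hξ hr' hrs'
  obtain ⟨γ, hγ, hTγ⟩ := htr T hT
  have hH : HNN S.t (AA S T) (uu S γ) (triv S.C) := by
    have := hP γ
    rw [hγ] at this
    exact this.mono (AA_mono hTγ) (AA_closed _) (valid_triv S.t _).mem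
  have h1 : ∀ m, ‖F m‖ ≤ 1 := fun m => (hF m).2.2.1
  have hs : ∀ m, star (F m) = F m := fun m => (hF m).2.1
  have hle : AA S T ≤ AA S (insert γ T) := AA_mono (Set.subset_insert _ _)
  have hFF : ∀ a b, a < b → F a * F b = F b := by
    intro a b h
    induction b, h using Nat.le_induction with
    | base => exact (hF a).2.2.2.2.1
    | succ b _ ih => rw [← (hF b).2.2.2.2.1, ← mul_assoc, ih]
  have hu := uu_mem (S := S) (Set.mem_insert γ T)
  have hrT : ∀ n, r n ∈ AA S T := fun n => AA_mono (Set.empty_subset _) (hr n).2.1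
  refine ⟨F, insert γ T, fun m => (hF m).2.2.2.2.2, fun m => ?_, fun R hR hm hRs hk x => ?_⟩
  · have hkm : 1 - F (m + 1) ∈ AA S T := sub_mem (one_mem _) (hF _).1
    have e0 : (1 - F (m + 1)) * F (m + 2) = 0 := by rw [sub_mul, hFF _ _ (by omega)]; simp
    have hn : S.t.n2 (1 - F (m + 1)) < 1 := by
      have e1 : star (1 - F (m + 1)) * F (m + 2) = 0 := by rw [star_sub, star_one, hs, e0]
      refine n2_lt_one S.t e1 (norm_add_le_of_orth e1 (by rw [hs, e0]) (hF _).2.2.2.1 (h1 _))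
        fun h => ?_
      have := (hF (m + 2)).2.2.2.2.2
      rw [h, map_zero, ContinuousLinearMap.zero_apply] at this
      rw [← this, norm_zero] at hξ
      exact zero_ne_one hξ
    filter_upwards [triv_lt hH hrT hrs (fun n => (hr n).1.isSelfAdjoint.star_eq)
      (fun n => (hr n).1.norm_le) hkm hn false] with n hn1
    have hrr := (hr n).1.isIdempotentElem.eq
    have hrst := (hr n).1.isSelfAdjoint.star_eq
    have hn2 : S.t.n2 (1 - r n) < 1 := n2_lt_one S.t (y := r n)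
      (by rw [star_sub, star_one, hrst, sub_mul, hrr, one_mul, sub_self])
      (by simpa using (IsStarProjection.one S.C).norm_le) (hr n).2.2
    obtain ⟨m', hm1, hm2⟩ := ((triv_lt hH (fun m => (hF m).1) hFs hs h1
      (sub_mem (one_mem _) (hrT n)) hn2 true).and (eventually_ge_atTop (m + 2))).exists
    have u1 : uu S γ false * uu S γ true = 1 := hH.uu true
    have u2 : uu S γ true * uu S γ false = 1 := hH.uu false
    obtain ⟨p, p1, p2, p3, p4, p5⟩ := sandwich_mem (B := AA S (insert γ T)) S.t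
      (q := uu S γ false * r n * uu S γ true) (km := 1 - F (m + 1)) (gm := 1 - F m) (kp := F m')
      (gp := F (m' + 1)) (mul_mem (mul_mem (hu _) (hle (hrT n))) (hu _)) (hle hkm)
      (hle (sub_mem (one_mem _) (hF _).1)) (hle (hF _).1) (hle (hF _).1)
      ⟨by
        rw [IsIdempotentElem, mul_assoc, mul_assoc, mul_assoc, ← mul_assoc (uu S γ true), u2,
          one_mul, ← mul_assoc (r n), hrr],
       by rw [IsSelfAdjoint, star_mul, star_mul, hH.us, hH.us, hrst, mul_assoc]; rfl⟩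
      (by rw [mul_sub, mul_one, sub_mul, hFF _ _ (Nat.lt_succ_self m)]; simp) (hFF _ _ (Nat.lt_succ_self _))
      (by rw [sub_mul, hFF _ _ (by omega)]; simp)
      (by
        have e : (1 - uu S γ false * r n * uu S γ true) * F m' =
            uu S γ false * ((1 - r n) * uu S γ true * F m') := by
          conv_lhs => rw [← u1]
          noncomm_ring
        rw [e]; exact (norm_left_le (hH.norm_u _) _).trans_lt hm1)
      (by
        rw [← mul_assoc, ← mul_assoc]; exact (norm_right_le (hH.norm_u _) _).trans_lt hn1)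
      (hF _).2.2.2.1
    refine ⟨m' + 1, by omega, p, p1, p2, ?_, ?_, p4⟩
    · rw [p5, S.t.τ_comm, ← mul_assoc, u2, one_mul]
    · rw [sub_mul, one_mul, sub_eq_zero] at p3; exact p3.symm
  · refine exc_closed hP (T := insert γ T) ?_ hR hm hRs (fun x hx ε hε => ?_) x
    · rintro β (rfl | hβ) ε n
      · rw [hγ]; exact (valid_triv S.t _).mem ε n
      · exact AA_mono (Set.inter_subset_inter_left _ (Set.subset_insert _ _)) (hcl β hβ ε n)
    · have : Exc F x := closure_minimal (t := excSub F) (fun y hy => hH.ep2 (fun m => (hF m).1)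
        hFs hs h1 (triv_claim F) hFe hy) (isClosed_exc h1) (AA_insert hx)
      obtain ⟨c, hc⟩ := this ε hε
      obtain ⟨N, hN⟩ := eventually_atTop.1 hc
      refine ⟨c, eventually_atTop.2 ⟨N + 1, fun k hk' => ?_⟩⟩
      obtain ⟨k, rfl⟩ : ∃ j, k = j + 1 := ⟨k - 1, by omega⟩
      obtain ⟨m, a1, a2⟩ := hk k
      have a3 : R (k + 1) * F m = R (k + 1) := by simpa [hs, hR.star_eq] using congrArg star a2
      have e : R (k + 1) * (x - c • 1) * R (k + 1) =
          R (k + 1) * (F m * (x - c • 1) * F m) * R (k + 1) := by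
        rw [← mul_assoc, ← mul_assoc, a3, mul_assoc _ (F m), a2]
      rw [e]
      exact ((norm_right_le (hR.norm_le _) _).trans (norm_left_le (hR.norm_le _) _)).trans
        (hN m (by omega))

end Crest.Agent.Nk
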