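import Crest.Agent.Nk.Seq
/-! Reduced words of an HNN extension. -/
set_option autoImplicit false
set_option linter.deprecated false
set_option linter.unusedSimpArgs false
namespace Crest.Agent.Nk

/-- reduced words `v ε₁ a₁ v ε₂ a₂ ⋯ v εₖ aₖ`, `k ≥ 1` -/
inductive Red {C : Type} [Ring C] (B : Set C) (v : Bool → C) (Z : Bool → C → Prop) :
    Bool → C → Prop
  | base (ε : Bool) (a : C) : a ∈ B → Red B v Z ε (v ε * a)
  | step (ε ε' : Bool) (a x : C) : a ∈ B → (ε' = !ε → Z ε' a) → Red B v Z ε' x →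
      Red B v Z ε (v ε * a * x)

section ring
variable {C : Type} [Ring C] {B : Set C} {v : Bool → C} {Z : Bool → C → Prop}

theorem Red.mono {B' : Set C} (h : B ⊆ B') {ε : Bool} {x : C} (hx : Red B v Z ε x) :
    Red B' v Z ε x := by
  induction hx with
  | base ε a ha => exact .base ε a (h ha)
  | step ε ε' a x ha hz _ ih => exact .step ε ε' a x (h ha) hz ih

theorem Red.mul_right {B' : Set C} (h : B ⊆ B') {b : C} (hb : ∀ a ∈ B, a * b ∈ B') {ε : Bool}
    {x : C} (hx : Red B v Z ε x) : Red B' v Z ε (x * b) := by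
  induction hx with
  | base ε a ha => rw [mul_assoc]; exact .base ε _ (hb a ha)
  | step ε ε' a x ha hz _ ih => rw [mul_assoc]; exact .step ε ε' a _ (h ha) hz ih

theorem Red.append {B' : Set C} (h : B ⊆ B') {z : C} (hz : ∀ a ∈ B, a * z ∈ B' ∧ ∀ δ, Z δ (a * z))
    {ε ε' : Bool} {x y : C} (hx : Red B v Z ε x) (hy : Red B' v Z ε' y) :
    Red B' v Z ε (x * z * y) := by
  induction hx with
  | base ε a ha =>
    rw [mul_assoc (v ε)]; exact .step ε ε' _ y (hz a ha).1 (fun _ => (hz a ha).2 _) hy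
  | step ε ε'' a x ha hz' _ ih =>
    have e : v ε * a * x * z * y = v ε * a * (x * z * y) := by simp only [mul_assoc]
    rw [e]; exact .step ε ε'' a _ (h ha) hz' ih

theorem Red.mem (S : Submonoid C) (hB : ∀ a ∈ B, a ∈ S) (hv : ∀ ε, v ε ∈ S) {ε : Bool} {x : C}
    (hx : Red B v Z ε x) : x ∈ S := by
  induction hx with
  | base ε a ha => exact mul_mem (hv ε) (hB a ha)
  | step ε ε' a x ha _ _ ih => exact mul_mem (mul_mem (hv ε) (hB a ha)) ih

theorem Red.map {D : Type} [Ring D] (f : C → D) (hf : ∀ x y, f (x * y) = f x * f y)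
    {B' : Set D} {v' : Bool → D} {Z' : Bool → D → Prop} (hv : ∀ ε, f (v ε) = v' ε)
    (hB : ∀ a ∈ B, f a ∈ B') (hZ : ∀ ε, ∀ a ∈ B, Z ε a → Z' ε (f a)) {ε : Bool} {x : C}
    (hx : Red B v Z ε x) : Red B' v' Z' ε (f x) := by
  induction hx with
  | base ε a ha => rw [hf, hv]; exact .base ε _ (hB a ha)
  | step ε ε' a x ha hz _ ih =>
    rw [hf, hf, hv]; exact .step ε ε' _ _ (hB a ha) (fun h => hZ _ a ha (hz h)) ih

theorem Red.lift {D : Type} [Ring D] (f : D → C) (hf : ∀ x y, f (x * y) = f x * f y)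
    {B' : Set D} {v' : Bool → D} {Z' : Bool → D → Prop} (hv : ∀ ε, f (v' ε) = v ε)
    (hB : ∀ a ∈ B, ∃ a' ∈ B', f a' = a ∧ ∀ ε, Z ε a → Z' ε a') {ε : Bool} {x : C}
    (hx : Red B v Z ε x) : ∃ y, Red B' v' Z' ε y ∧ f y = x := by
  induction hx with
  | base ε a ha =>
    obtain ⟨a', h1, h2, -⟩ := hB a ha
    exact ⟨_, .base ε a' h1, by rw [hf, hv, h2]⟩
  | step ε ε' a x ha hz _ ih =>
    obtain ⟨a', h1, h2, h3⟩ := hB a ha
    obtain ⟨y, hy, rfl⟩ := ih
    exact ⟨_, .step ε ε' a' y h1 (fun h => h3 _ (hz h)) hy, by rw [hf, hf, hv, h2]⟩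

end ring

section alg
variable {C : Type} [Ring C] [Algebra ℂ C] {B : Set C} {v : Bool → C} {Z : Bool → C → Prop}

/-- span of `B` and of the reduced words -/
def WW (B : Set C) (v : Bool → C) (Z : Bool → C → Prop) : Submodule ℂ C :=
  Submodule.span ℂ (B ∪ {y | ∃ a ∈ B, ∃ ε x, Red B v Z ε x ∧ y = a * x})

theorem mem_WW_of_mem {a : C} (ha : a ∈ B) : a ∈ WW B v Z := Submodule.subset_span (Or.inl ha)

theorem mem_WW_red {a : C} (ha : a ∈ B) {ε : Bool} {x : C} (hx : Red B v Z ε x) :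
    a * x ∈ WW B v Z := Submodule.subset_span (Or.inr ⟨a, ha, ε, x, hx, rfl⟩)

theorem WW_induction (p : C → Prop) (h0 : p 0) (hadd : ∀ x y, p x → p y → p (x + y))
    (hsm : ∀ (c : ℂ) x, p x → p (c • x)) (hB : ∀ a ∈ B, p a)
    (hR : ∀ a ∈ B, ∀ ε x, Red B v Z ε x → p (a * x)) {w : C} (hw : w ∈ WW B v Z) : p w := by
  induction hw using Submodule.span_induction with
  | mem x hx =>
    rcases hx with hx | ⟨a, ha, ε, x, hx, rfl⟩
    exacts [hB x hx, hR a ha ε x hx]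
  | zero => exact h0
  | add x y _ _ hx hy => exact hadd x y hx hy
  | smul c x _ hx => exact hsm c x hx

theorem WW_mul_B (hmul : ∀ a ∈ B, ∀ b ∈ B, a * b ∈ B) {b : C} (hb : b ∈ B) {w : C}
    (hw : w ∈ WW B v Z) : b * w ∈ WW B v Z := by
  refine WW_induction (fun w => b * w ∈ WW B v Z) (by simp) (fun x y hx hy => ?_)
    (fun c x hx => ?_) (fun a ha => mem_WW_of_mem (hmul b hb a ha)) (fun a ha ε x hx => ?_) hw
  · rw [mul_add]; exact add_mem hx hy
  · rw [mul_smul_comm]; exact Submodule.smul_mem _ _ hx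
  · rw [← mul_assoc]; exact mem_WW_red (hmul b hb a ha) hx

theorem WW_mul_v (h1 : (1 : C) ∈ B) (hmul : ∀ a ∈ B, ∀ b ∈ B, a * b ∈ B)
    (hv : ∀ ε, v (!ε) * v ε = 1)
    (hdec : ∀ ε, ∀ a ∈ B, ∃ d, ∃ d' ∈ B, a - d ∈ B ∧ Z ε (a - d) ∧ v (!ε) * d = d' * v (!ε))
    (δ : Bool) {w : C} (hw : w ∈ WW B v Z) : v δ * w ∈ WW B v Z := by
  refine WW_induction (fun w => v δ * w ∈ WW B v Z) (by simp) (fun x y hx hy => ?_)
    (fun c x hx => ?_) (fun a ha => ?_) (fun a ha ε x hx => ?_) hw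
  · rw [mul_add]; exact add_mem hx hy
  · rw [mul_smul_comm]; exact Submodule.smul_mem _ _ hx
  · simpa using mem_WW_red h1 (Red.base (v := v) (Z := Z) δ a ha)
  · by_cases h : ε = !δ
    · obtain ⟨d, d', hd', ha', hz, e⟩ := hdec ε a ha
      have hδ : δ = !ε := by rw [h]; simp
      have e1 : v δ * (a * x) = v δ * (a - d) * x + d' * (v (!ε) * x) := by
        rw [← mul_assoc d', ← e, hδ]; noncomm_ring
      rw [e1]
      refine add_mem ?_ ?_
      · simpa using mem_WW_red h1 (Red.step (v := v) δ ε _ x ha' (fun _ => hz) hx)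
      · cases hx with
        | base _ a1 ha1 =>
          rw [← mul_assoc (v (!ε)), hv, one_mul]; exact mem_WW_of_mem (hmul _ hd' _ ha1)
        | step _ ε' a1 y ha1 _ hy =>
          have e2 : d' * (v (!ε) * (v ε * a1 * y)) = d' * a1 * y := by
            rw [mul_assoc (v ε), ← mul_assoc (v (!ε)), hv, one_mul, mul_assoc]
          rw [e2]; exact mem_WW_red (hmul _ hd' _ ha1) hy
    · rw [← mul_assoc]
      simpa using mem_WW_red h1 (Red.step (v := v) δ ε a x ha (fun h' => absurd h' h) hx)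

theorem mem_WW_of_adjoin [StarRing C] [StarModule ℂ C] (h1 : (1 : C) ∈ B)
    (hmul : ∀ a ∈ B, ∀ b ∈ B, a * b ∈ B) (hstar : ∀ a ∈ B, star a ∈ B)
    (hv : ∀ ε, v (!ε) * v ε = 1) (hvs : ∀ ε, star (v ε) = v (!ε))
    (hdec : ∀ ε, ∀ a ∈ B, ∃ d, ∃ d' ∈ B, a - d ∈ B ∧ Z ε (a - d) ∧ v (!ε) * d = d' * v (!ε))
    {z : C} (hz : z ∈ StarAlgebra.adjoin ℂ (B ∪ Set.range v)) : z ∈ WW B v Z := by
  have key : (∀ w ∈ WW B v Z, z * w ∈ WW B v Z) ∧ ∀ w ∈ WW B v Z, star z * w ∈ WW B v Z := by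
    induction hz using StarAlgebra.adjoin_induction with
    | mem x hx =>
      rcases hx with hx | ⟨ε, rfl⟩
      · exact ⟨fun w hw => WW_mul_B hmul hx hw, fun w hw => WW_mul_B hmul (hstar x hx) hw⟩
      · exact ⟨fun w hw => WW_mul_v h1 hmul hv hdec ε hw,
          fun w hw => by rw [hvs]; exact WW_mul_v h1 hmul hv hdec _ hw⟩
    | algebraMap r =>
      refine ⟨fun w hw => ?_, fun w hw => ?_⟩
      · rw [← Algebra.smul_def]; exact Submodule.smul_mem _ _ hw
      · rw [← algebraMap_star_comm, ← Algebra.smul_def]; exact Submodule.smul_mem _ _ hw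
    | add x y _ _ hx hy =>
      refine ⟨fun w hw => ?_, fun w hw => ?_⟩
      · rw [add_mul]; exact add_mem (hx.1 w hw) (hy.1 w hw)
      · rw [star_add, add_mul]; exact add_mem (hx.2 w hw) (hy.2 w hw)
    | mul x y _ _ hx hy =>
      refine ⟨fun w hw => ?_, fun w hw => ?_⟩
      · rw [mul_assoc]; exact hx.1 _ (hy.1 w hw)
      · rw [star_mul, mul_assoc]; exact hy.2 _ (hx.2 w hw)
    | star x _ hx => exact ⟨hx.2, by simpa using hx.1⟩
  simpa using key.1 1 (mem_WW_of_mem h1)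

end alg
end Crest.Agent.Nk
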