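import Crest.Agent.Nk.Basic
/-! Decreasing sequences of projections, excision, conditional expectation onto the diagonal. -/
set_option autoImplicit false
set_option linter.deprecated false
set_option linter.unusedSimpArgs false
namespace Crest.Agent.Nk
open scoped InnerProductSpace ComplexConjugate
open Filter Topology

variable {C : Type} [CStarAlgebra C]

theorem norm_add_le_of_orth {s u : C} (h1 : star s * u = 0) (h2 : s * star u = 0) {M : ℝ}
    (hs : ‖s‖ ≤ M) (hu : ‖u‖ ≤ M) : ‖s + u‖ ≤ M := by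
  have h3 : star u * s = 0 := by simpa using congrArg star h1
  have e : star (s + u) * (s + u) = star s * s + star u * u := by
    rw [star_add, add_mul, mul_add, mul_add, h1, h3]; simp
  have hM : 0 ≤ M := (norm_nonneg _).trans hs
  have h4 := (IsSelfAdjoint.star_mul_self s).norm_add_eq_max (IsSelfAdjoint.star_mul_self u)
    (by rw [mul_assoc, ← mul_assoc s, h2]; simp)
  rw [← e, CStarRing.norm_star_mul_self, CStarRing.norm_star_mul_self,
    CStarRing.norm_star_mul_self] at h4
  refine (mul_self_le_mul_self_iff (norm_nonneg _) hM).2 ?_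
  rw [h4]
  exact max_le (mul_self_le_mul_self (norm_nonneg _) hs) (mul_self_le_mul_self (norm_nonneg _) hu)

theorem norm_mul3 (a b c : C) : ‖a * b * c‖ ≤ ‖a‖ * ‖b‖ * ‖c‖ :=
  (norm_mul_le _ _).trans (mul_le_mul_of_nonneg_right (norm_mul_le _ _) (norm_nonneg _))

theorem norm_left_le {a : C} (ha : ‖a‖ ≤ 1) (b : C) : ‖a * b‖ ≤ ‖b‖ :=
  (norm_mul_le _ _).trans (by nlinarith [norm_nonneg b])

theorem norm_right_le {a : C} (ha : ‖a‖ ≤ 1) (b : C) : ‖b * a‖ ≤ ‖b‖ :=
  (norm_mul_le _ _).trans (by nlinarith [norm_nonneg b])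

/-- decreasing projections starting at `1` -/
structure Dec (P : ℕ → C) : Prop where
  proj : ∀ n, IsStarProjection (P n)
  mul : ∀ n, P n * P (n + 1) = P (n + 1)
  zero : P 0 = 1

/-- successive differences -/
def dif (P : ℕ → C) (n : ℕ) : C := P n - P (n + 1)

namespace Dec
variable {P : ℕ → C} (hP : Dec P)
include hP

theorem star_eq (n : ℕ) : star (P n) = P n := (hP.proj n).isSelfAdjoint.star_eq

theorem norm_le (n : ℕ) : ‖P n‖ ≤ 1 := (hP.proj n).norm_le

theorem mul_le {a b : ℕ} (h : a ≤ b) : P a * P b = P b := by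
  induction b, h using Nat.le_induction with
  | base => exact (hP.proj a).isIdempotentElem.eq
  | succ b _ ih => rw [← hP.mul b, ← mul_assoc, ih]

theorem mul_ge {a b : ℕ} (h : a ≤ b) : P b * P a = P b := by
  simpa [hP.star_eq] using congrArg star (hP.mul_le h)

theorem mul_max (a b : ℕ) : P a * P b = P (max a b) := by
  rcases le_total a b with h | h
  · rw [max_eq_right h, hP.mul_le h]
  · rw [max_eq_left h, hP.mul_ge h]

theorem dif_proj (n : ℕ) : IsStarProjection (dif P n) :=
  (hP.proj (n + 1)).sub_of_mul_eq_right (hP.proj n) (hP.mul n)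

theorem mul_dif_le {N n : ℕ} (h : N ≤ n) : P N * dif P n = dif P n := by
  rw [dif, mul_sub, hP.mul_le h, hP.mul_le (by omega)]

theorem mul_dif_gt {N n : ℕ} (h : n < N) : P N * dif P n = 0 := by
  rw [dif, mul_sub, hP.mul_ge h.le, hP.mul_ge h, sub_self]

theorem dif_star (n : ℕ) : star (dif P n) = dif P n := (hP.dif_proj n).isSelfAdjoint.star_eq

theorem dif_mul_le {N n : ℕ} (h : N ≤ n) : dif P n * P N = dif P n := by
  simpa [hP.star_eq, hP.dif_star] using congrArg star (hP.mul_dif_le h)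

theorem dif_mul_gt {N n : ℕ} (h : n < N) : dif P n * P N = 0 := by
  simpa [hP.star_eq, hP.dif_star] using congrArg star (hP.mul_dif_gt h)

theorem dif_mul_dif {k n : ℕ} (h : k ≠ n) : dif P k * dif P n = 0 := by
  rcases lt_or_gt_of_ne h with h | h
  · rw [dif, sub_mul, hP.mul_dif_le h.le, hP.mul_dif_le h, sub_self]
  · rw [dif, sub_mul, hP.mul_dif_gt h, hP.mul_dif_gt (by omega), sub_self]

theorem norm_left_mono {a b : ℕ} (h : a ≤ b) (x : C) : ‖P b * x‖ ≤ ‖P a * x‖ := by
  rw [← hP.mul_ge h, mul_assoc]; exact norm_left_le (hP.norm_le b) _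

theorem norm_right_mono {a b : ℕ} (h : a ≤ b) (x : C) : ‖x * P b‖ ≤ ‖x * P a‖ := by
  rw [← hP.mul_le h, ← mul_assoc]; exact norm_right_le (hP.norm_le b) _

theorem sum_dif (N : ℕ) : ∑ n ∈ Finset.range N, dif P n = 1 - P N := by
  rw [← hP.zero]; exact Finset.sum_range_sub' P N

theorem norm_sum_le (γ : ℕ → ℂ) {M : ℝ} (hM : 0 ≤ M) (hγ : ∀ n, ‖γ n‖ ≤ M) (N : ℕ) :
    ‖∑ n ∈ Finset.range N, γ n • dif P n‖ ≤ M ∧
      P N * ∑ n ∈ Finset.range N, γ n • dif P n = 0 ∧
      (∑ n ∈ Finset.range N, γ n • dif P n) * P N = 0 := by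
  have h2 : ∀ N, P N * ∑ n ∈ Finset.range N, γ n • dif P n = 0 := fun N => by
    rw [Finset.mul_sum]
    exact Finset.sum_eq_zero fun n hn => by
      rw [mul_smul_comm, hP.mul_dif_gt (Finset.mem_range.1 hn), smul_zero]
  have h3 : ∀ N, (∑ n ∈ Finset.range N, γ n • dif P n) * P N = 0 := fun N => by
    rw [Finset.sum_mul]
    exact Finset.sum_eq_zero fun n hn => by
      rw [smul_mul_assoc, hP.dif_mul_gt (Finset.mem_range.1 hn), smul_zero]
  refine ⟨?_, h2 N, h3 N⟩
  induction N with
  | zero => simpa using hM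
  | succ N ih =>
    rw [Finset.sum_range_succ]
    refine norm_add_le_of_orth ?_ ?_ ih ?_
    · have := congrArg star (h2 N)
      rw [star_mul, hP.star_eq, star_zero] at this
      rw [mul_smul_comm, ← hP.mul_dif_le le_rfl, ← mul_assoc, this, zero_mul, smul_zero]
    · rw [star_smul, hP.dif_star, mul_smul_comm, ← hP.mul_dif_le le_rfl, ← mul_assoc, h3 N,
        zero_mul, smul_zero]
    · rw [norm_smul]
      have := (hP.dif_proj N).norm_le
      have := hγ N
      nlinarith [norm_nonneg (γ N), norm_nonneg (dif P N)]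

/-- diagonal element with prescribed convergent coefficients -/
theorem exists_diag (c : ℕ → ℂ) (c' : ℂ) (hc : Tendsto c atTop (𝓝 c')) {M : ℝ}
    (hM : ∀ n, ‖c n‖ ≤ M) :
    ∃ d ∈ (Submodule.span ℂ (Set.range P)).topologicalClosure,
      ‖d‖ ≤ M ∧ ∀ n, d * dif P n = c n • dif P n := by
  have hM0 : 0 ≤ M := (norm_nonneg _).trans (hM 0)
  have hc' : ‖c'‖ ≤ M := le_of_tendsto' hc.norm hM
  set d : ℕ → C := fun N => ∑ n ∈ Finset.range N, c n • dif P n + c' • P N with hd
  have hd2 : ∀ N, d N = c' • (1 : C) + ∑ n ∈ Finset.range N, (c n - c') • dif P n := by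
    intro N
    simp only [hd, sub_smul, Finset.sum_sub_distrib, ← Finset.smul_sum, hP.sum_dif, smul_sub]
    abel
  have hcau : CauchySeq d := by
    rw [Metric.cauchySeq_iff']
    intro ε hε
    obtain ⟨N, hN⟩ := Metric.tendsto_atTop.1 hc (ε / 2) (half_pos hε)
    refine ⟨N, fun n hn => ?_⟩
    have e : d n - d N = ∑ k ∈ Finset.range n, (if k < N then 0 else c k - c') • dif P k := by
      rw [hd2, hd2, add_sub_add_left_eq_sub, ← Finset.sum_range_add_sum_Ico _ hn,
        ← Finset.sum_range_add_sum_Ico _ hn, add_sub_cancel_left,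
        Finset.sum_eq_zero (s := Finset.range N), zero_add]
      · exact Finset.sum_congr rfl fun k hk => by
          rw [if_neg (not_lt.2 (Finset.mem_Ico.1 hk).1)]
      · intro k hk; rw [if_pos (Finset.mem_range.1 hk), zero_smul]
    rw [dist_eq_norm, e]
    refine (hP.norm_sum_le _ (half_pos hε).le (fun k => ?_) n).1.trans_lt (half_lt_self hε)
    split_ifs with hk
    · simpa using (half_pos hε).le
    · rw [← dist_eq_norm]; exact (hN k (not_lt.1 hk)).le
  obtain ⟨D, hD⟩ := cauchySeq_tendsto_of_complete hcau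
  refine ⟨D, ?_, ?_, fun n => ?_⟩
  · refine mem_closure_of_tendsto hD (Eventually.of_forall fun N => ?_)
    have hm : ∀ n, P n ∈ Submodule.span ℂ (Set.range P) :=
      fun n => Submodule.subset_span ⟨n, rfl⟩
    exact add_mem (Submodule.sum_mem _ fun n _ => Submodule.smul_mem _ _ (sub_mem (hm _) (hm _)))
      (Submodule.smul_mem _ _ (hm _))
  · refine le_of_tendsto' hD.norm fun N => ?_
    obtain ⟨h1, h2, h3⟩ := hP.norm_sum_le c hM0 hM N
    refine norm_add_le_of_orth ?_ ?_ h1 ?_
    · have := congrArg star h2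
      rw [star_mul, hP.star_eq, star_zero] at this
      rw [mul_smul_comm, this, smul_zero]
    · rw [star_smul, hP.star_eq, mul_smul_comm, h3, smul_zero]
    · rw [norm_smul]
      have := hP.norm_le N
      nlinarith [norm_nonneg c', norm_nonneg (P N)]
  · refine tendsto_nhds_unique (hD.mul_const (dif P n)) ?_
    refine tendsto_const_nhds.congr' ?_
    filter_upwards [eventually_gt_atTop n] with N hN
    simp only [hd, add_mul, Finset.sum_mul, smul_mul_assoc, hP.mul_dif_gt hN, smul_zero, add_zero]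
    rw [Finset.sum_eq_single n, (hP.dif_proj n).isIdempotentElem.eq]
    · intro k _ hk; rw [hP.dif_mul_dif hk, smul_zero]
    · intro h; exact absurd (Finset.mem_range.2 hN) h

end Dec

/-- excision of `x` by the sequence `R` -/
def Exc (R : ℕ → C) (x : C) : Prop :=
  ∀ ε > 0, ∃ c : ℂ, ∀ᶠ n in atTop, ‖R n * (x - c • 1) * R n‖ ≤ ε

/-- the excised elements form a subspace -/
def excSub (R : ℕ → C) : Submodule ℂ C where
  carrier := {x | Exc R x}
  add_mem' := by
    intro x y hx hy ε hε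
    obtain ⟨c, hc⟩ := hx (ε / 2) (half_pos hε)
    obtain ⟨d, hd⟩ := hy (ε / 2) (half_pos hε)
    refine ⟨c + d, ?_⟩
    filter_upwards [hc, hd] with n h1 h2
    have e : R n * (x + y - (c + d) • 1) * R n =
        R n * (x - c • 1) * R n + R n * (y - d • 1) * R n := by
      rw [← add_mul, ← mul_add, add_smul]; congr 2; abel
    rw [e]; linarith [norm_add_le (R n * (x - c • 1) * R n) (R n * (y - d • 1) * R n)]
  zero_mem' := fun ε hε => ⟨0, Eventually.of_forall fun n => by simpa using hε.le⟩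
  smul_mem' := by
    intro a x hx ε hε
    obtain ⟨c, hc⟩ := hx (ε / (‖a‖ + 1)) (by positivity)
    refine ⟨a * c, ?_⟩
    filter_upwards [hc] with n h1
    have e : R n * (a • x - (a * c) • 1) * R n = a • (R n * (x - c • 1) * R n) := by
      rw [mul_smul, ← smul_sub, mul_smul_comm, smul_mul_assoc]
    rw [e, norm_smul]
    have h2 : ‖a‖ * (ε / (‖a‖ + 1)) ≤ ε := by
      rw [mul_div_assoc', div_le_iff₀ (by positivity)]; nlinarith
    exact (mul_le_mul_of_nonneg_left h1 (norm_nonneg _)).trans h2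

theorem isClosed_exc {R : ℕ → C} (hR : ∀ n, ‖R n‖ ≤ 1) : IsClosed (excSub R : Set C) := by
  refine isClosed_of_closure_subset fun x hx ε hε => ?_
  obtain ⟨y, hy, hxy⟩ := Metric.mem_closure_iff.1 hx (ε / 2) (half_pos hε)
  obtain ⟨c, hc⟩ := hy (ε / 2) (half_pos hε)
  refine ⟨c, ?_⟩
  filter_upwards [hc] with n h1
  have e : R n * (x - c • 1) * R n = R n * (y - c • 1) * R n + R n * (x - y) * R n := by
    rw [← add_mul, ← mul_add]; congr 2; abel
  have h2 : ‖R n * (x - y) * R n‖ ≤ ‖x - y‖ :=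
    (norm_right_le (hR n) _).trans (norm_left_le (hR n) _)
  rw [dist_eq_norm] at hxy
  rw [e]; linarith [norm_add_le (R n * (y - c • 1) * R n) (R n * (x - y) * R n)]

theorem exc_of_tendsto {R : ℕ → C} {x : C} (h : Tendsto (fun n => R n * x * R n) atTop (𝓝 0)) :
    Exc R x := fun ε hε => ⟨0, by
  filter_upwards [(NormedAddGroup.tendsto_nhds_zero.1 h) ε hε] with n hn
  simpa using hn.le⟩

namespace TS
variable (t : TS C)

/-- centred with respect to the diagonal of `P` -/
def Cen (P : ℕ → C) (a : C) : Prop := ∀ n, t.τ (a * P n) = 0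

/-- 2-norm tends to zero -/
def Small (R : ℕ → C) : Prop := Tendsto (fun n => t.n2 (R n)) atTop (𝓝 0)

theorem cen_of_dif {P : ℕ → C} (hs : t.Small P) {a : C}
    (h : ∀ n, t.τ (a * dif P n) = 0) : t.Cen P a := by
  intro n
  have h1 : ∀ k, t.τ (a * P (n + k)) = t.τ (a * P n) := by
    intro k
    induction k with
    | zero => rfl
    | succ k ih =>
      have := h (n + k)
      rw [dif, mul_sub, map_sub, sub_eq_zero] at this
      rw [← add_assoc, ← this, ih]
  have h2 : Tendsto (fun k => ‖a‖ * t.n2 (P (n + k))) atTop (𝓝 (‖a‖ * 0)) :=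
    (hs.comp ((tendsto_add_atTop_nat n).congr fun k => add_comm k n)).const_mul _
  have h3 : ‖t.τ (a * P n)‖ ≤ ‖a‖ * 0 :=
    ge_of_tendsto' h2 fun k => by
      rw [← h1 k]; exact (t.τ_le_n2 _).trans (t.n2_mul_left _ _)
  simpa using h3

theorem Cen.dif {t : TS C} {P : ℕ → C} {a : C} (h : t.Cen P a) (n : ℕ) : t.τ (a * dif P n) = 0 := by
  rw [Nk.dif, mul_sub, map_sub, h, h, sub_self]

theorem Cen.star {t : TS C} {P : ℕ → C} (hP : Dec P) {a : C} (h : t.Cen P a) :
    t.Cen P (star a) := by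
  intro n
  have := t.τ_star (a * P n)
  rw [h n, star_mul, hP.star_eq, t.τ_comm] at this
  simpa using this

theorem Cen.τ_eq {t : TS C} {P : ℕ → C} (hP : Dec P) {a : C} (h : t.Cen P a) : t.τ a = 0 := by
  simpa [hP.zero] using h 0

/-- an excised centred element is asymptotically killed -/
theorem tendsto_of_cen {P : ℕ → C} (hP : Dec P) {a : C} (he : Exc P a) (hc : t.Cen P a) :
    Tendsto (fun n => P n * a * P n) atTop (𝓝 0) := by
  rw [NormedAddGroup.tendsto_nhds_zero]
  intro ε hε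
  obtain ⟨c, h⟩ := he (ε / 3) (by positivity)
  filter_upwards [h] with n hn
  by_cases h0 : P n = 0
  · simpa [h0] using hε
  have e : P n * (a - c • 1) * P n = P n * a * P n - c • P n := by
    rw [mul_sub, sub_mul, mul_smul_comm, mul_one, smul_mul_assoc,
      (hP.proj n).isIdempotentElem.eq]
  have h1 := t.τ_mul_proj_le (hP.proj n) (P n * (a - c • 1) * P n)
  have e2 : t.τ (P n * (a - c • 1) * P n * P n) = -(c * t.τ (P n)) := by
    rw [mul_assoc _ (P n), (hP.proj n).isIdempotentElem.eq, e, map_sub, map_smul, mul_assoc,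
      t.τ_comm, mul_assoc, (hP.proj n).isIdempotentElem.eq, hc n]
    simp
  rw [e2, norm_neg, norm_mul, t.τ_proj (hP.proj n), Complex.norm_real, Real.norm_eq_abs,
    abs_of_nonneg (sq_nonneg _)] at h1
  have h2 : 0 < t.n2 (P n) ^ 2 := pow_pos (t.n2_pos h0) 2
  have h3 : ‖c‖ ≤ ε / 3 := (le_of_mul_le_mul_right h1 h2).trans hn
  have e3 : P n * a * P n = P n * (a - c • 1) * P n + c • P n := by rw [e]; abel
  rw [e3]
  refine (norm_add_le _ _).trans_lt ?_
  rw [norm_smul]
  have := hP.norm_le n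
  nlinarith [norm_nonneg c, norm_nonneg (P n)]

/-- decomposition along the diagonal -/
theorem decomp {P Q : ℕ → C} (hP : Dec P) (hQ : Dec Q) (hs : t.Small P) {x : C} (he : Exc P x)
    {M : ℝ} (hM0 : 0 ≤ M) (hM : ∀ n, ‖t.τ (x * dif P n)‖ ≤ M * t.n2 (dif P n) ^ 2) :
    ∃ z ∈ (Submodule.span ℂ (Set.range fun n => (P n, Q n))).topologicalClosure,
      ‖z.1‖ ≤ M ∧ t.Cen P (x - z.1) := by
  classical
  set r : ℕ → ℂ := fun n => t.τ (x * dif P n) / t.τ (dif P n) with hr
  have hτ : ∀ n, ‖t.τ (dif P n)‖ = t.n2 (dif P n) ^ 2 := fun n => by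
    rw [t.τ_proj (hP.dif_proj n), Complex.norm_real, Real.norm_eq_abs,
      abs_of_nonneg (sq_nonneg _)]
  have hpos : ∀ n, dif P n ≠ 0 → 0 < t.n2 (dif P n) ^ 2 := fun n h => pow_pos (t.n2_pos h) 2
  have hrM : ∀ n, dif P n ≠ 0 → ‖r n‖ ≤ M := fun n h => by
    rw [hr]; simp only []
    rw [norm_div, hτ, div_le_iff₀ (hpos n h)]; exact hM n
  have hrc : ∀ ε > 0, ∃ c : ℂ, ∀ᶠ n in atTop, dif P n ≠ 0 → ‖r n - c‖ ≤ ε := by
    intro ε hε
    obtain ⟨c, h⟩ := he ε hε
    refine ⟨c, h.mono fun n hn h0 => ?_⟩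
    have hne : t.τ (dif P n) ≠ 0 := by rw [← norm_pos_iff, hτ]; exact hpos n h0
    have e : r n - c = t.τ (P n * (x - c • 1) * P n * dif P n) / t.τ (dif P n) := by
      rw [mul_assoc _ (P n), hP.mul_dif_le le_rfl, mul_assoc, t.τ_comm, mul_assoc,
        hP.dif_mul_le le_rfl, sub_mul, map_sub, smul_mul_assoc, one_mul, map_smul, hr]
      simp only [smul_eq_mul]; field_simp
    rw [e, norm_div, hτ, div_le_iff₀ (hpos n h0)]
    exact (t.τ_mul_proj_le (hP.dif_proj n) _).trans
      (mul_le_mul_of_nonneg_right hn (sq_nonneg _))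
  have hex : ∃ c' : ℂ, ‖c'‖ ≤ M ∧ ∀ ε > 0, ∀ᶠ n in atTop, dif P n ≠ 0 → ‖r n - c'‖ ≤ ε := by
    by_cases hev : ∀ᶠ n in atTop, dif P n = 0
    · exact ⟨0, by simpa using hM0, fun ε _ => hev.mono fun n hn h => absurd hn h⟩
    · have hF : (atTop ⊓ 𝓟 {n | dif P n ≠ 0}).NeBot := by
        rw [← frequently_iff_neBot]; simpa [Filter.Frequently] using hev
      have hcau : Cauchy (map r (atTop ⊓ 𝓟 {n | dif P n ≠ 0})) := by
        rw [Metric.cauchy_iff]
        refine ⟨hF.map _, fun ε hε => ?_⟩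
        obtain ⟨c, hc⟩ := hrc (ε / 3) (by positivity)
        refine ⟨Metric.closedBall c (ε / 3), ?_, fun a ha b hb => ?_⟩
        · rw [mem_map]
          have : ∀ᶠ n in atTop ⊓ 𝓟 {n | dif P n ≠ 0}, ‖r n - c‖ ≤ ε / 3 :=
            eventually_inf_principal.2 hc
          exact this.mono fun n hn => by simpa [dist_eq_norm] using hn
        · have := dist_triangle_right a b c
          rw [Metric.mem_closedBall] at ha hb
          linarith
      obtain ⟨c', hc'⟩ := CompleteSpace.complete hcau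
      have hc2 : Tendsto r (atTop ⊓ 𝓟 {n | dif P n ≠ 0}) (𝓝 c') := hc'
      refine ⟨c', le_of_tendsto hc2.norm (eventually_inf_principal.2
        (Eventually.of_forall hrM)), fun ε hε => ?_⟩
      have := eventually_inf_principal.1 (Metric.tendsto_nhds.1 hc2 ε hε)
      exact this.mono fun n hn h => by rw [← dist_eq_norm]; exact (hn h).le
  obtain ⟨c', hc'M, hc'⟩ := hex
  have hE : Dec (fun n => ((P n, Q n) : C × C)) :=
    ⟨fun n => ⟨Prod.ext (hP.proj n).isIdempotentElem.eq (hQ.proj n).isIdempotentElem.eq,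
      Prod.ext (hP.star_eq n) (hQ.star_eq n)⟩, fun n => Prod.ext (hP.mul n) (hQ.mul n),
      Prod.ext hP.zero hQ.zero⟩
  obtain ⟨z, hz, hzM, hzd⟩ := hE.exists_diag (fun n => if dif P n = 0 then c' else r n) c'
    (by
      rw [Metric.tendsto_nhds]
      intro ε hε
      filter_upwards [hc' (ε / 2) (half_pos hε)] with n hn
      split_ifs with h
      · simpa using hε
      · rw [dist_eq_norm]; exact (hn h).trans_lt (half_lt_self hε)) (M := M)
    (fun n => by split_ifs with h; exacts [hc'M, hrM n h])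
  refine ⟨z, hz, (norm_fst_le z).trans hzM, t.cen_of_dif hs fun n => ?_⟩
  have h1 : z.1 * dif P n = (if dif P n = 0 then c' else r n) • dif P n := congrArg Prod.fst (hzd n)
  rw [sub_mul, map_sub, h1]
  split_ifs with h
  · simp [h]
  · have hne : t.τ (dif P n) ≠ 0 := by rw [← norm_pos_iff, hτ]; exact hpos n h
    rw [map_smul, hr]; simp only [smul_eq_mul]; field_simp; ring

theorem decomp' {P Q : ℕ → C} (hP : Dec P) (hQ : Dec Q) (hs : t.Small P) {x : C} (he : Exc P x) :
    ∃ z ∈ (Submodule.span ℂ (Set.range fun n => (P n, Q n))).topologicalClosure,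
      t.Cen P (x - z.1) := by
  obtain ⟨z, hz, -, h⟩ := t.decomp hP hQ hs he (norm_nonneg x)
    (fun n => t.τ_mul_proj_le (hP.dif_proj n) x)
  exact ⟨z, hz, h⟩

end TS

/-- induction over the closed span of a family -/
theorem closure_span_induction {E ι : Type} [NormedAddCommGroup E] [NormedSpace ℂ E] (f : ι → E)
    (p : E → Prop) (hc : IsClosed {z | p z}) (h0 : p 0) (hadd : ∀ x y, p x → p y → p (x + y))
    (hsm : ∀ (c : ℂ) x, p x → p (c • x)) (hf : ∀ i, p (f i)) {z : E}
    (hz : z ∈ (Submodule.span ℂ (Set.range f)).topologicalClosure) : p z := by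
  refine closure_minimal (t := {z | p z}) (fun x hx => ?_) hc hz
  induction hx using Submodule.span_induction with
  | mem x hx => obtain ⟨i, rfl⟩ := hx; exact hf i
  | zero => exact h0
  | add x y _ _ hx hy => exact hadd x y hx hy
  | smul c x _ hx => exact hsm c x hx

end Crest.Agent.Nk
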