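import Crest.Agent.Nk.Grp
/-! One step of the transfinite construction. -/
set_option autoImplicit false
set_option linter.deprecated false
set_option linter.unusedSimpArgs false
set_option linter.unusedVariables false
set_option linter.unusedSectionVars false
namespace Crest.Agent.Nk
open scoped InnerProductSpace ComplexConjugate
open Filter Topology

/-- the free group on the generators -/
abbrev GG (Λ : Type) := FreeGroup (ℕ ⊕ Λ)

variable {Λ : Type}

/-- letters allowed over `S` -/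
def ok (S : Set Λ) (l : ℕ ⊕ Λ) : Prop := ∀ β, l = Sum.inr β → β ∈ S

/-- subgroup generated by the letters over `S` -/
def KK (S : Set Λ) : Subgroup (GG Λ) := Subgroup.closure (FreeGroup.of '' {l | ok S l})

theorem of_mem_KK {S : Set Λ} {l : ℕ ⊕ Λ} (h : ok S l) : FreeGroup.of l ∈ KK S :=
  Subgroup.subset_closure ⟨l, h, rfl⟩

theorem ok_inl (S : Set Λ) (n : ℕ) : ok S (Sum.inl n) := fun _ h => by cases h

theorem ok_inr {S : Set Λ} {β : Λ} : ok S (Sum.inr β) ↔ β ∈ S :=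
  ⟨fun h => h β rfl, fun h γ e => by cases e; exact h⟩

theorem KK_mono {S T : Set Λ} (h : S ⊆ T) : KK S ≤ KK T :=
  Subgroup.closure_mono (Set.image_mono fun l hl β e => h (hl β e))

theorem KK_univ : KK (Set.univ : Set Λ) = ⊤ := by
  rw [← FreeGroup.closure_range_of, KK]
  congr 1
  ext g; simp [ok]

theorem KK_induction {S : Set Λ} (p : GG Λ → Prop) (h1 : p 1)
    (hl : ∀ l, ok S l → ∀ g, p g → p (FreeGroup.of l * g) ∧ p ((FreeGroup.of l)⁻¹ * g))
    {g : GG Λ} (hg : g ∈ KK S) : p g := by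
  induction hg using Subgroup.closure_induction_left with
  | one => exact h1
  | mul_left x hx y _ hy => obtain ⟨l, h, rfl⟩ := hx; exact (hl l h y hy).1
  | inv_mul_cancel x hx y _ hy => obtain ⟨l, h, rfl⟩ := hx; exact (hl l h y hy).2

theorem KK_fin {S : Set Λ} {g : GG Λ} (hg : g ∈ KK S) :
    ∃ F : Finset Λ, (F : Set Λ) ⊆ S ∧ g ∈ KK (F : Set Λ) := by
  classical
  refine KK_induction (fun g => ∃ F : Finset Λ, (F : Set Λ) ⊆ S ∧ g ∈ KK (F : Set Λ))
    ⟨∅, by simp, one_mem _⟩ ?_ hg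
  rintro l hl g ⟨F, hF, hg⟩
  have : ∃ F' : Finset Λ, (F' : Set Λ) ⊆ S ∧ F ⊆ F' ∧ ok (F' : Set Λ) l := by
    rcases l with n | β
    · exact ⟨F, hF, subset_rfl, ok_inl _ _⟩
    · exact ⟨insert β F, by rw [Finset.coe_insert]; exact Set.insert_subset (ok_inr.1 hl) hF,
        Finset.subset_insert _ _, ok_inr.2 (by simp)⟩
  obtain ⟨F', h1, h2, h3⟩ := this
  have hg' := KK_mono (Finset.coe_subset.2 h2) hg
  exact ⟨⟨F', h1, mul_mem (of_mem_KK h3) hg'⟩, ⟨F', h1, mul_mem (inv_mem (of_mem_KK h3)) hg'⟩⟩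

open Classical in
/-- retraction onto `KK S` -/
noncomputable def rr (S : Set Λ) : GG Λ →* GG Λ :=
  FreeGroup.lift fun l => if ok S l then FreeGroup.of l else 1

theorem rr_mem (S : Set Λ) (g : GG Λ) : rr S g ∈ KK S := by
  refine KK_induction (S := Set.univ) (fun g => rr S g ∈ KK S) (by simp) (fun l _ g hg => ?_)
    (by rw [KK_univ]; trivial)
  have : rr S (FreeGroup.of l) ∈ KK S := by
    rw [rr, FreeGroup.lift_apply_of]
    split_ifs with h
    exacts [of_mem_KK h, one_mem _]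
  simp only [map_mul, map_inv]
  exact ⟨mul_mem this hg, mul_mem (inv_mem this) hg⟩

theorem rr_eq {S : Set Λ} {g : GG Λ} (hg : g ∈ KK S) : rr S g = g := by
  refine KK_induction (fun g => rr S g = g) (by simp) (fun l hl g hg => ?_) hg
  have : rr S (FreeGroup.of l) = FreeGroup.of l := by rw [rr, FreeGroup.lift_apply_of, if_pos hl]
  simp [this, hg]

/-- subalgebra with support in `T` -/
noncomputable def AA (S : Sys (GG Λ)) (T : Set Λ) : StarSubalgebra ℂ S.C := galg S.ρ (KK T)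

/-- stable letters -/
def uu (S : Sys (GG Λ)) (α : Λ) (ε : Bool) : S.C :=
  S.ρ (if ε then FreeGroup.of (Sum.inr α) else (FreeGroup.of (Sum.inr α))⁻¹)

/-- codes for pairs of sequences -/
abbrev Task (Λ : Type) := Bool → ℕ → ℕ → (GG Λ →₀ ℂ)

/-- the pair `PP` is coded by `k` with support in `T` -/
def Coded (S : Sys (GG Λ)) (T : Set Λ) (k : Task Λ) (PP : Bool → ℕ → S.C) : Prop :=
  ∀ ε n, (∀ i, ∀ g ∈ (k ε n i).support, g ∈ KK T) ∧
    Tendsto (fun i => Finsupp.linearCombination ℂ S.ρ (k ε n i)) atTop (𝓝 (PP ε n))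

/-- the trivial pair -/
def triv (C : Type) [CStarAlgebra C] : Bool → ℕ → C := fun _ n => if n = 0 then 1 else 0

theorem triv_ev {C : Type} [CStarAlgebra C] (ε : Bool) : ∀ᶠ n in atTop, triv C ε n = 0 :=
  (eventually_ne_atTop 0).mono fun n hn => if_neg hn

theorem valid_triv {C : Type} [CStarAlgebra C] (t : TS C) (B : StarSubalgebra ℂ C) :
    Valid t B (triv C) := by
  refine ⟨fun ε => ⟨fun n => ?_, fun n => by simp [triv], rfl⟩, fun ε => ?_, fun n => rfl,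
    fun ε n => ?_, fun ε x _ => exc_of_tendsto ?_, fun ε x _ => ?_⟩
  · unfold triv; split_ifs
    exacts [IsStarProjection.one _, IsStarProjection.zero _]
  · exact tendsto_const_nhds.congr' ((triv_ev (C := C) ε).mono fun n hn => by
      simp only [hn, t.n2_zero])
  · unfold triv; split_ifs
    exacts [one_mem B, zero_mem B]
  · exact tendsto_const_nhds.congr' ((triv_ev (C := C) ε).mono fun n hn => by simp [hn])
  · exact tendsto_const_nhds.congr' ((triv_ev (C := C) ε).mono fun n hn => by simp [hn])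

theorem valid_transfer {E C0 C : Type} [CStarAlgebra E] [CStarAlgebra C0] [CStarAlgebra C]
    {t0 : TS C0} {t : TS C} {B0 : Set C0} {B : Set C} (f0 : E →⋆ₐ[ℂ] C0) (f : E →⋆ₐ[ℂ] C)
    (i0 : ∀ x, ‖f0 x‖ = ‖x‖) (i1 : ∀ x, ‖f x‖ = ‖x‖) (hτ : ∀ x, t0.τ (f0 x) = t.τ (f x))
    (r0 : ∀ x, f0 x ∈ B0) (r : ∀ y ∈ B, ∃ x, f x = y) (r' : ∀ x, f x ∈ B) (P : Bool → ℕ → E)
    (h : Valid t0 B0 fun ε n => f0 (P ε n)) : Valid t B fun ε n => f (P ε n) := by
  have inj : Function.Injective f0 := (AddMonoidHomClass.isometry_of_norm f0 i0).injective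
  have hn : ∀ x, t.n2 (f x) = t0.n2 (f0 x) := by
    intro x
    have h1 := hτ (star x * x)
    rw [map_mul f0, map_mul f, map_star f0, map_star f, t0.τ_star_self, t.τ_star_self] at h1
    have h2 : t0.n2 (f0 x) ^ 2 = t.n2 (f x) ^ 2 := by exact_mod_cast h1
    exact ((pow_left_inj₀ (t0.n2_nonneg _) (t.n2_nonneg _) two_ne_zero).1 h2).symm
  refine ⟨fun ε => ⟨fun n => ?_, fun n => ?_, ?_⟩, fun ε => ?_, fun n => ?_, fun ε n => r' _,
    fun ε y hy η hη => ?_, fun ε y hy => ?_⟩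
  · have : IsStarProjection (P ε n) :=
      ⟨inj (by rw [map_mul]; exact ((h.dec ε).proj n).isIdempotentElem.eq),
        inj (by rw [map_star]; exact (h.dec ε).star_eq n)⟩
    exact this.map f
  · rw [← map_mul]; congr 1
    exact inj (by rw [map_mul]; exact (h.dec ε).mul n)
  · rw [← map_one f]; congr 1
    exact inj (by rw [map_one]; exact (h.dec ε).zero)
  · exact (h.small ε).congr fun n => (hn _).symm
  · rw [← hτ, ← hτ]; exact h.eq n
  · obtain ⟨x, rfl⟩ := r y hy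
    obtain ⟨c, hc⟩ := h.exc ε _ (r0 x) η hη
    refine ⟨c, hc.mono fun n hn => ?_⟩
    have e0 : f0 (P ε n) * (f0 x - c • 1) * f0 (P ε n) = f0 (P ε n * (x - c • 1) * P ε n) := by simp
    have e1 : f (P ε n) * (f x - c • 1) * f (P ε n) = f (P ε n * (x - c • 1) * P ε n) := by simp
    simp only [] at hn
    rw [e0, i0] at hn
    rw [e1, i1]; exact hn
  · obtain ⟨x, rfl⟩ := r y hy
    have := h.orth ε _ (r0 x)
    rw [tendsto_zero_iff_norm_tendsto_zero] at this ⊢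
    refine this.congr fun n => ?_
    rw [← map_mul, ← map_mul, ← map_mul, ← map_mul, i0, i1]

variable [LinearOrder Λ]

/-- internal description of stage `α` -/
def Int (S : Sys (GG Λ)) (k : Task Λ) (α : Λ) : Prop :=
  ∃ PP, HNN S.t (AA S (Set.Iio α)) (uu S α) PP ∧
    ∀ PP', Valid S.t (AA S (Set.Iio α)) PP' → Coded S (Set.Iio α) k PP' → PP = PP'

/-- description of stage `α` by moments -/
def Step (k : Task Λ) (α : Λ) (m : GG Λ → ℂ) : Prop :=
  ∃ (S : Sys (GG Λ)) (PP : Bool → ℕ → S.C) (M : Mdl S.t PP) (σ : GG Λ →* (M.H →L[ℂ] M.H)),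
    Valid S.t (AA S (Set.Iio α)) PP ∧
    (∀ PP', Valid S.t (AA S (Set.Iio α)) PP' → Coded S (Set.Iio α) k PP' → PP = PP') ∧
    (∀ g, star (σ g) = σ g⁻¹) ∧ (∀ g ∈ KK (Set.Iio α), σ g = M.pi (S.ρ g)) ∧
    σ (FreeGroup.of (Sum.inr α)) = M.v true ∧
    ∀ g ∈ KK (Set.Iic α), m g = ⟪M.om, σ g M.om⟫_ℂ

theorem Step.congr {k : Task Λ} {α : Λ} {m m' : GG Λ → ℂ} (h : Step k α m)
    (e : ∀ g ∈ KK (Set.Iic α), m' g = m g) : Step k α m' := by
  obtain ⟨S, PP, M, σ, h1, h2, h3, h4, h5, h6⟩ := h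
  exact ⟨S, PP, M, σ, h1, h2, h3, h4, h5, fun g hg => (e g hg).trans (h6 g hg)⟩

theorem exists_step (k : Task Λ) (α : Λ) {m : GG Λ → ℂ} (hm : GTr m) :
    ∃ m', GTr m' ∧ (∀ g ∈ KK (Set.Iio α), m' g = m g) ∧ Step k α m' := by
  classical
  obtain ⟨S, hS⟩ := exists_sys hm
  set B := AA S (Set.Iio α) with hB
  have hBc : IsClosed (B : Set S.C) := galg_closed _ _
  obtain ⟨PP, hV, hT⟩ : ∃ PP, Valid S.t B PP ∧
      ∀ PP', Valid S.t B PP' → Coded S (Set.Iio α) k PP' → PP = PP' := by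
    by_cases h : ∃ PP, Valid S.t B PP ∧ Coded S (Set.Iio α) k PP
    · obtain ⟨PP, h1, h2⟩ := h
      exact ⟨PP, h1, fun PP' _ h3 => funext fun ε => funext fun n =>
        tendsto_nhds_unique (h2 ε n).2 (h3 ε n).2⟩
    · exact ⟨_, valid_triv _ _, fun PP' h1 h2 => absurd ⟨PP', h1, h2⟩ h⟩
  obtain ⟨M⟩ := exists_mdl S.t PP hV.dec hV.small hV.eq
  have hu1 : ∀ g, M.pi (S.ρ g) ∈ unitary (M.H →L[ℂ] M.H) := fun g => by
    rw [Unitary.mem_iff, ← map_star, S.st, ← map_mul, ← map_mul, ← map_mul, ← map_mul]; simp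
  have hu2 : M.v true ∈ unitary (M.H →L[ℂ] M.H) := by
    rw [Unitary.mem_iff, M.vs]; exact ⟨M.vv true, M.vv false⟩
  let σ0 : GG Λ →* unitary (M.H →L[ℂ] M.H) := FreeGroup.lift fun l =>
    if ok (Set.Iio α) l then ⟨_, hu1 (FreeGroup.of l)⟩ else
      if l = Sum.inr α then ⟨_, hu2⟩ else 1
  let σ : GG Λ →* (M.H →L[ℂ] M.H) := (unitary _).subtype.comp σ0
  have hs : ∀ g, star (σ g) = σ g⁻¹ := fun g => by
    change star (σ0 g : M.H →L[ℂ] M.H) = (σ0 g⁻¹ : M.H →L[ℂ] M.H)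
    rw [map_inv, ← Unitary.star_eq_inv, Unitary.coe_star]
  have hl1 : ∀ l, ok (Set.Iio α) l → σ (FreeGroup.of l) = M.pi (S.ρ (FreeGroup.of l)) := by
    intro l hl
    change (σ0 _ : M.H →L[ℂ] M.H) = _
    simp only [σ0, FreeGroup.lift_apply_of, if_pos hl]
  have hl2 : σ (FreeGroup.of (Sum.inr α)) = M.v true := by
    change (σ0 _ : M.H →L[ℂ] M.H) = _
    have hn : ¬ ok (Set.Iio α) (Sum.inr α) := fun h => lt_irrefl α (Set.mem_Iio.1 (ok_inr.1 h))
    simp only [σ0, FreeGroup.lift_apply_of, if_neg hn, if_true]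
  have hl3 : ∀ l, ¬ ok (Set.Iio α) l → l ≠ Sum.inr α → σ (FreeGroup.of l) = 1 := by
    intro l h1 h2
    change (σ0 _ : M.H →L[ℂ] M.H) = _
    simp only [σ0, FreeGroup.lift_apply_of, if_neg h1, if_neg h2]; rfl
  have hK : ∀ g ∈ KK (Set.Iio α), σ g = M.pi (S.ρ g) := by
    intro g hg
    refine KK_induction (fun g => σ g = M.pi (S.ρ g)) (by simp) (fun l hl g hg => ?_) hg
    rw [map_mul, map_mul, map_mul, map_mul, map_mul, map_mul, ← hs, ← S.st, map_star, hl1 l hl, hg]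
    exact ⟨rfl, rfl⟩
  set Γ := StarAlgebra.adjoin ℂ (M.pi '' B ∪ Set.range M.v) with hΓ
  have hσΓ : ∀ g, σ g ∈ Γ := by
    intro g
    refine KK_induction (S := Set.univ) (fun g => σ g ∈ Γ) (by rw [map_one]; exact one_mem _)
      (fun l _ g hg => ?_) (by rw [KK_univ]; trivial)
    have : σ (FreeGroup.of l) ∈ Γ := by
      by_cases h1 : ok (Set.Iio α) l
      · rw [hl1 l h1]
        exact StarAlgebra.subset_adjoin ℂ _ (Or.inl ⟨_, mem_galg _ (of_mem_KK h1), rfl⟩)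
      · by_cases h2 : l = Sum.inr α
        · rw [h2, hl2]; exact StarAlgebra.subset_adjoin ℂ _ (Or.inr ⟨true, rfl⟩)
        · rw [hl3 l h1 h2]; exact one_mem _
    rw [map_mul, map_mul, ← hs]
    exact ⟨mul_mem this hg, mul_mem (star_mem this) hg⟩
  have hconj : ∀ h g, ⟪M.om, σ (h * g * h⁻¹) M.om⟫_ℂ = ⟪M.om, σ g M.om⟫_ℂ := by
    intro h
    refine KK_induction (S := Set.univ)
      (fun h => ∀ g, ⟪M.om, σ (h * g * h⁻¹) M.om⟫_ℂ = ⟪M.om, σ g M.om⟫_ℂ) (by simp)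
      (fun l _ h hh => ?_) (by rw [KK_univ]; trivial)
    have key : ∀ g, ⟪M.om, σ (FreeGroup.of l * g * (FreeGroup.of l)⁻¹) M.om⟫_ℂ =
        ⟪M.om, σ g M.om⟫_ℂ := by
      intro g
      by_cases h1 : ok (Set.Iio α) l
      · rw [mul_assoc, map_mul, hl1 l h1, M.trace_B hBc hV (hσΓ _) (mem_galg _ (of_mem_KK h1)),
          ← hl1 l h1, ← map_mul]
        simp
      · by_cases h2 : l = Sum.inr α
        · rw [map_mul, map_mul, ← hs, h2, hl2, M.vs, ContinuousLinearMap.mul_apply,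
            ContinuousLinearMap.mul_apply, M.inner_v]
          exact M.trace_v hBc hV (hσΓ g) _
        · rw [map_mul, map_mul, ← hs, hl3 l h1 h2]; simp
    refine ⟨fun g => ?_, fun g => ?_⟩
    · rw [← hh g, ← key (h * g * h⁻¹)]; congr 3; group
    · rw [← hh g, ← key]; congr 3; group
  refine ⟨_, gtr_of_rep σ hs M.om M.norm_om fun g h => ?_, fun g hg => ?_,
    S, PP, M, σ, hV, hT, hs, hK, hl2, fun _ _ => rfl⟩
  · rw [← hconj h (g * h)]; congr 3; group
  · rw [hK g hg, M.tr, hS]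

theorem Step.int {k : Task Λ} {α : Λ} {m : GG Λ → ℂ} (h : Step k α m) (S : Sys (GG Λ))
    (hS : ∀ g, S.t.τ (S.ρ g) = m g) : Int S k α := by
  obtain ⟨S0, PP, M, σ, hV, hT, hs, hK, hl, hm⟩ := h
  let f : (M.H →L[ℂ] M.H) →L[ℂ] ℂ :=
    (innerSL ℂ M.om).comp (ContinuousLinearMap.apply ℂ M.H M.om)
  have hf : ∀ y, f y = ⟪M.om, y M.om⟫_ℂ := fun _ => rfl
  obtain ⟨Ψ, hΨ1, hΨ2⟩ := exists_transfer σ hs f (fun y => by
    have h1 := norm_inner_le_norm (𝕜 := ℂ) M.om (y M.om)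
    have h2 := y.le_opNorm M.om
    rw [M.norm_om] at h1 h2
    rw [hf]; linarith) S (KK (Set.Iic α)) (fun g hg => by rw [hS, hm g hg, hf])
  set B0 := AA S0 (Set.Iio α) with hB0
  set B := AA S (Set.Iio α) with hB
  have hle : KK (Set.Iio α) ≤ KK (Set.Iic α) := KK_mono Set.Iio_subset_Iic_self
  haveI hB0c : IsClosed (B0 : Set S0.C) := galg_closed _ _
  have hπ : ∀ b ∈ B0, M.pi b ∈ galg σ (KK (Set.Iic α)) := fun b hb =>
    galg_le S0.ρ (B := (galg σ (KK (Set.Iic α))).comap M.pi)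
      ((galg_closed _ _).preimage (hom_cont M.pi))
      (fun g hg => by
        change M.pi (S0.ρ g) ∈ galg σ _
        rw [← hK g hg]; exact mem_galg σ (hle hg)) hb
  let Φ : B0 →⋆ₐ[ℂ] S.C := Ψ.comp ((M.pi.comp B0.subtype).codRestrict _ fun b => hπ b b.2)
  have hΦ : ∀ b : B0, Φ b = Ψ ⟨M.pi b, hπ b b.2⟩ := fun _ => rfl
  have hΦτ : ∀ b : B0, S0.t.τ (B0.subtype b) = S.t.τ (Φ b) := fun b => by
    rw [hΦ, hΨ2, hf, M.tr]; rfl
  have hΦρ : ∀ g (hg : g ∈ KK (Set.Iio α)), Φ ⟨S0.ρ g, mem_galg _ hg⟩ = S.ρ g := by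
    intro g hg
    rw [hΦ, ← hΨ1 g (hle hg)]; congr 2
    exact (hK g hg).symm
  have hinj : Function.Injective Φ := by
    rw [injective_iff_map_eq_zero]
    intro b hb
    have h1 := hΦτ (star b * b)
    rw [map_mul Φ, hb, mul_zero, map_zero, map_mul, map_star, S0.t.τ_star_self] at h1
    have h2 : S0.t.n2 (B0.subtype b) ^ 2 = 0 := by exact_mod_cast h1
    exact Subtype.ext (S0.t.n2_eq_zero (pow_eq_zero_iff two_ne_zero |>.1 h2))
  have hiso : ∀ b, ‖Φ b‖ = ‖b‖ := NonUnitalStarAlgHom.norm_map Φ hinj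
  have hr : ∀ y ∈ (B : Set S.C), ∃ b, Φ b = y := fun y hy =>
    galg_le S.ρ (B := Φ.range)
      (AddMonoidHomClass.isometry_of_norm Φ hiso).isClosedEmbedding.isClosed_range
      (fun g hg => ⟨_, hΦρ g hg⟩) hy
  have hr' : ∀ b, Φ b ∈ (B : Set S.C) := by
    intro b
    have hcl : IsClosed ((B.comap Φ).map B0.subtype : Set S0.C) :=
      hB0c.isClosedEmbedding_subtypeVal.isClosedMap _ ((galg_closed _ _).preimage (hom_cont Φ))
    obtain ⟨y, hy, e⟩ := galg_le S0.ρ hcl (fun g hg => ⟨⟨_, mem_galg _ hg⟩, by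
      change Φ _ ∈ B
      rw [hΦρ g hg]; exact mem_galg _ hg, rfl⟩) b.2
    rw [← Subtype.ext e]; exact hy
  let P : Bool → ℕ → B0 := fun ε n => ⟨PP ε n, hV.mem ε n⟩
  have hα : FreeGroup.of (Sum.inr α) ∈ KK (Set.Iic α) := of_mem_KK (ok_inr.2 le_rfl)
  have hvm : ∀ ε, M.v ε ∈ galg σ (KK (Set.Iic α)) := by
    intro ε; cases ε
    · have := star_mem (mem_galg σ hα)
      rwa [hl, M.vs] at this
    · rw [← hl]; exact mem_galg σ hα
  have hΨv : ∀ ε, Ψ ⟨M.v ε, hvm ε⟩ = uu S α ε := by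
    intro ε; cases ε
    · rw [uu, if_neg (by simp), ← hΨ1 _ (inv_mem hα)]; congr 2
      rw [← hs, hl, M.vs]; rfl
    · rw [uu, if_pos rfl, ← hΨ1 _ hα]; congr 2; exact hl.symm
  refine ⟨fun ε n => Φ (P ε n), ⟨galg_closed _ _,
    valid_transfer B0.subtype Φ (fun _ => rfl) hiso hΦτ (fun b => b.2) hr hr' P hV,
    fun ε => ?_, fun ε => ?_, fun ε n => ?_, fun ε x hx => ?_⟩, fun PP' hV' hC' => ?_⟩
  · cases ε <;> simp [uu, ← map_mul]
  · cases ε <;> simp [uu, S.st]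
  · rw [← hΨv, hΦ, hΦ, ← map_mul, ← map_mul]; congr 1
    exact Subtype.ext (M.vP ε n)
  · obtain ⟨y, hy, rfl⟩ := hx.lift Ψ (map_mul Ψ) (B' := {y | y.1 ∈ M.pi '' B0})
      (v' := fun ε => ⟨M.v ε, hvm ε⟩) (Z' := fun ε y => M.MZ B0 ε y.1) hΨv (fun a ha => by
        obtain ⟨b, rfl⟩ := hr a ha
        refine ⟨⟨M.pi b, hπ b b.2⟩, ⟨b, b.2, rfl⟩, rfl, fun ε hz => ⟨b, b.2, rfl, fun n => ?_⟩⟩
        have := hz n
        rw [← map_mul, ← hΦτ] at this
        exact this)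
    have h2 := hy.map Subtype.val (fun _ _ => rfl) (B' := M.pi '' B0) (v' := M.v) (Z' := M.MZ B0)
      (fun _ => rfl) (fun a ha => ha) (fun _ _ _ h => h)
    have := M.red_zero h2 1 1
    rw [hΨ2, hf]
    simpa using this
  · choose P' hP' using fun ε n => hr _ (hV'.mem ε n)
    have e : PP' = fun ε n => Φ (P' ε n) := funext fun ε => funext fun n => (hP' ε n).symm
    subst e
    have hV0 := valid_transfer (B := (B0 : Set S0.C)) Φ B0.subtype hiso (fun _ => rfl)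
      (fun b => (hΦτ b).symm) hr' (fun y hy => ⟨⟨y, hy⟩, rfl⟩) (fun b => b.2) P' hV'
    have hC0 : Coded S0 (Set.Iio α) k fun ε n => B0.subtype (P' ε n) := by
      intro ε n
      refine ⟨(hC' ε n).1, ?_⟩
      have hw : ∀ i, ∃ b : B0, (b : S0.C) = Finsupp.linearCombination ℂ S0.ρ (k ε n i) ∧
          Φ b = Finsupp.linearCombination ℂ S.ρ (k ε n i) := by
        intro i
        refine ⟨∑ g ∈ (k ε n i).support.attach,
          (k ε n i g) • ⟨S0.ρ g, mem_galg _ ((hC' ε n).1 i g g.2)⟩, ?_, ?_⟩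
        · change B0.subtype _ = _
          rw [map_sum, Finsupp.linearCombination_apply, Finsupp.sum, ← Finset.sum_attach (k ε n i).support]
          simp
        · rw [map_sum, Finsupp.linearCombination_apply, Finsupp.sum, ← Finset.sum_attach (k ε n i).support]
          exact Finset.sum_congr rfl fun g _ => by rw [map_smul, hΦρ _ ((hC' ε n).1 i g g.2)]
      choose b hb1 hb2 using hw
      have h1 := (hC' ε n).2
      rw [tendsto_iff_norm_sub_tendsto_zero] at h1 ⊢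
      refine h1.congr fun i => ?_
      rw [← hb1, ← hb2, ← map_sub, hiso]; rfl
    have := hT _ hV0 hC0
    funext ε n
    congr 1
    exact Subtype.ext (congrFun (congrFun this ε) n)

end Crest.Agent.Nk
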