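import Crest.Agent.Nk.Step
/-! The transfinite tower and the bookkeeping. -/
set_option autoImplicit false
set_option linter.deprecated false
set_option linter.unusedSimpArgs false
set_option linter.unusedVariables false
set_option linter.unusedSectionVars false
set_option linter.style.haveILetI false
namespace Crest.Agent.Nk
open scoped InnerProductSpace ComplexConjugate Cardinal
open Filter Topology

theorem GTr.comp {G G' : Type} [Group G] [Group G'] {m : G' → ℂ} (hm : GTr m) (φ : G →* G') :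
    GTr fun g => m (φ g) := by
  refine ⟨by simp [hm.one], fun g h => by simp [hm.comm (φ g)], fun g => by simp [hm.herm],
    fun f => ?_⟩
  have := hm.pos (Finsupp.mapDomain φ f)
  rw [Finsupp.sum_mapDomain_index (by simp) (by simp [← Finsupp.sum_add, add_mul])] at this
  refine this.trans_eq (congrArg _ (Finsupp.sum_congr fun a _ => ?_))
  rw [Finsupp.sum_mapDomain_index (by simp) (by simp [mul_add, add_mul])]
  simp

theorem GTr.of_local {G : Type} [Group G] {m : G → ℂ}
    (h : ∀ F : Finset G, ∃ m', GTr m' ∧ ∃ K : Subgroup G, (F : Set G) ⊆ K ∧ ∀ g ∈ K, m g = m' g) :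
    GTr m := by
  classical
  refine ⟨?_, fun g k => ?_, fun g => ?_, fun f => ?_⟩
  · obtain ⟨m', hm, K, -, e⟩ := h ∅
    rw [e 1 (one_mem K), hm.one]
  · obtain ⟨m', hm, K, hF, e⟩ := h {g, k}
    have hg : g ∈ K := hF (by simp)
    have hk : k ∈ K := hF (by simp)
    rw [e _ (mul_mem hg hk), e _ (mul_mem hk hg), hm.comm]
  · obtain ⟨m', hm, K, hF, e⟩ := h {g}
    have hg : g ∈ K := hF (by simp)
    rw [e _ hg, e _ (inv_mem hg), hm.herm]
  · obtain ⟨m', hm, K, hF, e⟩ := h f.support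
    convert hm.pos f using 2
    refine Finsupp.sum_congr fun a ha => Finsupp.sum_congr fun b hb => ?_
    rw [e _ (mul_mem (inv_mem (hF ha)) (hF hb))]

open Classical in
theorem gtr_delta (G : Type) [Group G] : GTr fun g : G => if g = 1 then (1 : ℂ) else 0 := by
  refine ⟨by simp, fun g h => by simp only [mul_eq_one_comm], fun g => ?_, fun f => ?_⟩
  · simp only [inv_eq_one]; split_ifs <;> simp
  · have : (f.sum fun a x => f.sum fun b y => conj x * y * (if a⁻¹ * b = 1 then (1 : ℂ) else 0)) =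
        f.sum fun a x => conj x * x := by
      refine Finsupp.sum_congr fun a ha => ?_
      simp only [inv_mul_eq_one, mul_ite, mul_one, mul_zero]
      rw [Finsupp.sum, Finset.sum_ite_eq, if_pos ha]
    rw [this, Finsupp.sum, Complex.re_sum]
    exact Finset.sum_nonneg fun a _ => by
      rw [Complex.conj_mul']; norm_cast; positivity

variable {Λ : Type}

theorem KK_iUnion {ι : Type} {c : Set ι} (hn : c.Nonempty) {f : ι → Set Λ}
    (hc : DirectedOn (fun i j => f i ⊆ f j) c) {g : GG Λ} (hg : g ∈ KK (⋃ i ∈ c, f i)) :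
    ∃ i ∈ c, g ∈ KK (f i) := by
  obtain ⟨F, h1, h2⟩ := KK_fin hg
  obtain ⟨i, hi, h3⟩ := hc.exists_mem_subset_of_finset_subset_biUnion hn h1
  exact ⟨i, hi, KK_mono h3 h2⟩

theorem exists_tower [LinearOrder Λ] [WellFoundedLT Λ] (task : Λ → Task Λ) {m0 : GG Λ → ℂ}
    (h0 : GTr m0) :
    ∃ S : Sys (GG Λ), (∀ g ∈ KK ∅, S.t.τ (S.ρ g) = m0 g) ∧ ∀ α, Int S (task α) α := by
  classical
  let X := {p : Set Λ × (GG Λ → ℂ) // IsLowerSet p.1 ∧ GTr p.2 ∧ (∀ g ∈ KK ∅, p.2 g = m0 g) ∧
    ∀ α ∈ p.1, Step (task α) α p.2}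
  let r : X → X → Prop := fun p q => p.1.1 ⊆ q.1.1 ∧ ∀ g ∈ KK p.1.1, q.1.2 g = p.1.2 g
  obtain ⟨p, hp⟩ : ∃ p : X, ∀ q, r p q → r q p := by
    refine exists_maximal_of_chains_bounded (fun c hc => ?_)
      (fun h1 h2 => ⟨h1.1.trans h2.1, fun g hg => (h2.2 g (KK_mono h1.1 hg)).trans (h1.2 g hg)⟩)
    rcases c.eq_empty_or_nonempty with rfl | hn
    · exact ⟨⟨(∅, m0), isLowerSet_empty, h0, fun _ _ => rfl, by simp⟩, by simp⟩
    have hd : DirectedOn (fun p q : X => p.1.1 ⊆ q.1.1) c := by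
      intro p hp q hq
      by_cases e : p = q
      · exact ⟨q, hq, e ▸ subset_rfl, subset_rfl⟩
      · rcases hc hp hq e with h | h
        exacts [⟨q, hq, h.1, subset_rfl⟩, ⟨p, hp, subset_rfl, h.1⟩]
    set U : Set Λ := ⋃ p ∈ c, p.1.1 with hU
    let n : GG Λ → ℂ := fun k => if h : ∃ p ∈ c, k ∈ KK p.1.1 then h.choose.1.2 k else 0
    have hn' : ∀ p ∈ c, ∀ k ∈ KK p.1.1, n k = p.1.2 k := by
      intro p hp k hk
      have h : ∃ p ∈ c, k ∈ KK p.1.1 := ⟨p, hp, hk⟩
      simp only [n, dif_pos h]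
      by_cases e : h.choose = p
      · rw [e]
      · rcases hc h.choose_spec.1 hp e with h' | h'
        exacts [(h'.2 k h.choose_spec.2).symm, h'.2 k hk]
    have hsub : ∀ p ∈ c, p.1.1 ⊆ U := fun p hp => Set.subset_biUnion_of_mem (u := fun p : X => p.1.1) hp
    have hag : ∀ p ∈ c, ∀ g ∈ KK p.1.1, n (rr U g) = p.1.2 g := fun p hp g hg => by
      rw [rr_eq (KK_mono (hsub p hp) hg), hn' p hp g hg]
    refine ⟨⟨(U, fun g => n (rr U g)), isLowerSet_iUnion₂ fun p _ => p.2.1, GTr.of_local fun F => ?_,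
      fun g hg => ?_, fun α hα => ?_⟩, fun p hp => ⟨hsub p hp, hag p hp⟩⟩
    · have hd' : DirectedOn (fun p q : X => ((KK p.1.1).comap (rr U) : Set (GG Λ)) ⊆
          (KK q.1.1).comap (rr U)) c :=
        hd.mono fun p q h g hg => KK_mono h hg
      obtain ⟨p, hp, hF⟩ := hd'.exists_mem_subset_of_finset_subset_biUnion hn (s := F)
        (fun g _ => by
          obtain ⟨p, hp, h⟩ := KK_iUnion hn hd (rr_mem U g)
          exact Set.mem_biUnion hp h)
      exact ⟨_, p.2.2.1.comp (rr U), _, hF, fun g hg => hn' p hp _ hg⟩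
    · obtain ⟨p, hp⟩ := hn
      exact (hag p hp g (KK_mono (Set.empty_subset _) hg)).trans (p.2.2.2.1 g hg)
    · obtain ⟨p, hp, hα⟩ := Set.mem_iUnion₂.1 hα
      exact (p.2.2.2.2 α hα).congr fun g hg => hag p hp g (KK_mono (p.2.1.Iic_subset hα) hg)
  have hall : ∀ α, α ∈ p.1.1 := by
    by_contra hcon
    have hne : (p.1.1ᶜ).Nonempty := by
      push Not at hcon; exact hcon
    set α := wellFounded_lt.min _ hne with hα
    have h1 : α ∉ p.1.1 := wellFounded_lt.min_mem _ hne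
    have h2 : p.1.1 = Set.Iio α := by
      ext β
      refine ⟨fun hβ => lt_of_not_ge fun h => h1 (p.2.1 h hβ), fun hβ => ?_⟩
      by_contra h
      exact wellFounded_lt.not_lt_min _ h hβ
    obtain ⟨m', hm', e, hs⟩ := exists_step (task α) α p.2.2.1
    let q : X := ⟨(Set.Iic α, m'), isLowerSet_Iic α, hm',
      fun g hg => (e g (KK_mono (Set.empty_subset _) hg)).trans (p.2.2.2.1 g hg), fun β hβ => by
        rcases (Set.mem_Iic.1 hβ).eq_or_lt with rfl | h
        · exact hs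
        · exact (p.2.2.2.2 β (by rw [h2]; exact h)).congr fun g hg =>
            e g (KK_mono (Set.Iic_subset_Iio.2 h) hg)⟩
    have := hp q ⟨by rw [h2]; exact Set.Iio_subset_Iic_self, by rw [h2]; exact e⟩
    exact h1 (this.1 (Set.mem_Iic.2 le_rfl))
  obtain ⟨S, hS⟩ := exists_sys p.2.2.1
  exact ⟨S, fun g hg => (hS g).trans (p.2.2.2.1 g hg), fun α => (p.2.2.2.2 α (hall α)).int S hS⟩

/-- the index set -/
abbrev LL : Type := (𝔠 : Cardinal.{0}).ord.ToType

theorem exists_task : ∃ task : LL → Task LL, ∀ (k : Task LL) (T : Set LL), T.Countable →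
    ∃ α, task α = k ∧ T ⊆ Set.Iio α := by
  have hL : #LL = 𝔠 := Cardinal.mk_ord_toType _
  have hc : ℵ₀ ≤ (𝔠 : Cardinal.{0}) := Cardinal.aleph0_le_continuum
  haveI : Infinite LL := Cardinal.infinite_iff.2 (by rw [hL]; exact hc)
  have hG : #(GG LL) = 𝔠 := by
    rw [Cardinal.mk_freeGroup]; simp [hL, Cardinal.aleph0_le_continuum]
  haveI : Infinite (GG LL) := Cardinal.infinite_iff.2 (by rw [hG]; exact hc)
  have hT : #(Task LL) = 𝔠 := by
    simp [Task, hG, Cardinal.mk_complex]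
    exact Cardinal.power_nat_eq hc (n := 2) (by norm_num)
  obtain ⟨e⟩ : Nonempty (LL ≃ Task LL × LL) := Cardinal.eq.1 (by simp [hT, hL])
  refine ⟨fun α => (e α).1, fun k T hT => ?_⟩
  have h1 : ¬ IsCofinal T := by
    intro h
    have h2 := Order.cof_le h
    rw [Ordinal.cof_toType] at h2
    have h3 := Cardinal.lt_cof_ord_power (a := ℵ₀) (b := 2) le_rfl (by norm_num)
    rw [Cardinal.two_power_aleph0] at h3
    exact absurd (h2.trans (Cardinal.le_aleph0_iff_set_countable.2 hT)) (not_le.2 h3)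
  obtain ⟨β, hβ⟩ := not_isCofinal_iff.1 h1
  by_contra hcon
  have h2 : ∀ γ : LL, e.symm (k, γ) < β := by
    intro γ
    by_contra h
    exact hcon ⟨e.symm (k, γ), by simp, fun y hy => (hβ y hy).trans_le (not_lt.1 h)⟩
  have h3 : #LL ≤ #(Set.Iio β) :=
    Cardinal.mk_le_of_injective (f := fun γ => (⟨e.symm (k, γ), h2 γ⟩ : Set.Iio β))
      fun a b h => by simpa using h
  exact absurd h3 (not_le.2 (Cardinal.mk_Iio_lt β (by simp)))

end Crest.Agent.Nk
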